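import Crest.Agent.R254.Core

/-!
Row 254 (S0392): the block lemma.
-/

set_option autoImplicit false

namespace Crest.Agent.R254

namespace Block

theorem le_add_of_sq {a b c : ℝ} (hb : 0 ≤ b) (hc : 0 ≤ c) (h : a ^ 2 ≤ b ^ 2 + c ^ 2) :
    a ≤ b + c := by
  nlinarith [sq_nonneg (a - (b + c)), mul_nonneg hb hc, sq_nonneg a]

variable {H : Type}

theorem mem_stat {x : H} {S : Finset ℝ} {t t' : ℝ} (ht : t ∈ S) (ht' : t' ∈ S) (h : t < t')
    (hc : ∀ s ∈ S, ¬ (t < s ∧ s < t')) : (((t, x), (t', x)) : (ℝ × H) × (ℝ × H)) ∈ statEdges x S := by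
  classical
  unfold statEdges
  rw [Finset.mem_image]
  refine ⟨(t, t'), ?_, rfl⟩
  rw [Finset.mem_filter, Finset.mem_product]
  exact ⟨⟨ht, ht'⟩, h, hc⟩

theorem mem_times {x : H} {V : Finset (ℝ × H)} {t : ℝ} : t ∈ timesOf x V ↔ (t, x) ∈ V := by
  classical
  unfold timesOf
  simp only [Finset.mem_image, Finset.mem_filter]
  constructor
  · rintro ⟨⟨a, b⟩, ⟨h1, h2⟩, h3⟩
    simp only at h2 h3
    rw [← h2, ← h3]
    exact h1
  · intro h
    exact ⟨(t, x), ⟨h, rfl⟩, rfl⟩

end Block

open Block in
set_option maxHeartbeats 1000000 in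
theorem block (hc : ConsecStmt) (hg : GeoBasicStmt) : BlockStmt := by
  intro n D hD H _ _ A
  induction A with
  | skip =>
    intro X _ U κ Lm _ _ _ hLm
    refine ⟨.skip, rfl, trivial, hLm.le, 1, one_pos, ?_⟩
    intro α _ _ s G h g _ _ _
    trivial
  | seq A B ihA ihB =>
    intro X hw U κ Lm hU hκ hκ' hLm
    obtain ⟨TA, e1, p1, d1, α1, hα1, k1⟩ := ihA X hw.1 U κ (Lm / 2) hU hκ hκ' (by positivity)
    obtain ⟨TB, e2, p2, d2, α2, hα2, k2⟩ := ihB X hw.2 U κ (Lm / 2) hU hκ hκ' (by positivity)
    refine ⟨.seq TA TB, ?_, ⟨p1, p2⟩, ?_, min α1 α2, lt_min hα1 hα2, ?_⟩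
    · simp only [TProg.erase, e1, e2]
    · simp only [TProg.dur]
      linarith
    · intro α hα hα' s G h g hE hL hX
      constructor
      · apply k1 α hα (hα'.trans (min_le_left _ _)) s G h g
        · intro e he
          exact hE e (by simp only [edges, Finset.mem_union]; exact Or.inl he)
        · intro v hv w hw' hvw
          exact hL v (by simp only [verts, Finset.mem_union]; exact Or.inl hv) w
            (by simp only [verts, Finset.mem_union]; exact Or.inl hw') hvw
        · intro x hx t ht
          exact hX x hx t (by simp only [verts, Finset.mem_union]; exact Or.inl ht)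
      · apply k2 α hα (hα'.trans (min_le_right _ _)) (s + TA.dur) G h g
        · intro e he
          exact hE e (by simp only [edges, Finset.mem_union]; exact Or.inr he)
        · intro v hv w hw' hvw
          exact hL v (by simp only [verts, Finset.mem_union]; exact Or.inr hv) w
            (by simp only [verts, Finset.mem_union]; exact Or.inr hw') hvw
        · intro x hx t ht
          exact hX x hx t (by simp only [verts, Finset.mem_union]; exact Or.inr ht)
  | test x y =>
    intro X hw U κ Lm hU hκ hκ' hLm
    obtain ⟨hx, hy, _, _⟩ := hw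
    have hτ0 : 0 < min (Lm / 3) (κ ^ 2 / (2 * (U + 1))) := lt_min (by positivity) (by positivity)
    have hτ1 := min_le_left (Lm / 3) (κ ^ 2 / (2 * (U + 1)))
    have hτ2 := min_le_right (Lm / 3) (κ ^ 2 / (2 * (U + 1)))
    set τ := min (Lm / 3) (κ ^ 2 / (2 * (U + 1))) with hτ
    have hτ3 : τ * (2 * U) ≤ κ ^ 2 := by
      have : τ * (2 * (U + 1)) ≤ κ ^ 2 := by
        calc τ * (2 * (U + 1)) ≤ κ ^ 2 / (2 * (U + 1)) * (2 * (U + 1)) :=
              mul_le_mul_of_nonneg_right hτ2 (by positivity)
          _ = κ ^ 2 := by field_simp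
      nlinarith
    refine ⟨.test τ x y, rfl, hτ0, ?_, 1, one_pos, ?_⟩
    · simp only [TProg.dur]
      linarith
    · intro α _ _ s G h g hE hL hX
      have he := hE ((s + τ, x), (s + 2 * τ, y)) (by simp [edges])
      obtain ⟨a1, a2⟩ := hX x hx (s + τ) (by simp [verts])
      obtain ⟨b1, b2⟩ := hX y hy (s + 2 * τ) (by simp [verts])
      simp only [EdgeOK] at he
      have hd : dist (G (s + τ, x)) (G (s + 2 * τ, y)) ≤ dist x y + κ := by
        apply le_add_of_sq dist_nonneg hκ.le
        rw [abs_le] at a1 b1
        nlinarith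
      have h3 : dist (g x) (g y) ≤ dist (g x) (G (s + τ, x)) +
          dist (G (s + τ, x)) (G (s + 2 * τ, y)) + dist (G (s + 2 * τ, y)) (g y) :=
        dist_triangle4 _ _ _ _
      rw [dist_comm] at a2
      simp only [Sol]
      linarith
  | low x y =>
    intro X hw U κ Lm hU hκ hκ' hLm
    obtain ⟨hx, hy, _⟩ := hw
    refine ⟨.low (Lm / 2) x y, rfl, by simp only [TProg.Pos]; positivity, ?_, κ / (U + 1),
      by positivity, ?_⟩
    · simp only [TProg.dur]
      linarith
    · intro α hα hα' s G h g hE hL hX
      have hl := hL (s + Lm / 2, x) (by simp [verts]) (s + Lm / 2, y) (by simp [verts]) rfl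
      obtain ⟨a1, a2⟩ := hX x hx (s + Lm / 2) (by simp [verts])
      obtain ⟨b1, b2⟩ := hX y hy (s + Lm / 2) (by simp [verts])
      simp only [LowOK] at hl
      have hαU : α * U ≤ κ := by
        have : α * (U + 1) ≤ κ := by
          calc α * (U + 1) ≤ κ / (U + 1) * (U + 1) :=
                mul_le_mul_of_nonneg_right hα' (by positivity)
            _ = κ := by field_simp
        nlinarith
      have hd : dist x y / D ≤ dist (G (s + Lm / 2, x)) (G (s + Lm / 2, y)) + κ := by
        apply le_add_of_sq dist_nonneg hκ.le
        rw [abs_le] at a1 b1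
        have h1 : |α * (h (s + Lm / 2, x) - h (s + Lm / 2, y))| ≤ 2 * κ := by
          rw [abs_mul, abs_of_pos hα]
          have : |h (s + Lm / 2, x) - h (s + Lm / 2, y)| ≤ 2 * U := by
            rw [abs_le]
            constructor <;> linarith
          calc α * |h (s + Lm / 2, x) - h (s + Lm / 2, y)| ≤ α * (2 * U) :=
                mul_le_mul_of_nonneg_left this hα.le
            _ ≤ 2 * κ := by linarith
        have h2 : (α * (h (s + Lm / 2, x) - h (s + Lm / 2, y))) ^ 2 ≤ (2 * κ) ^ 2 :=
          sq_le_sq' (by linarith [neg_abs_le (α * (h (s + Lm / 2, x) - h (s + Lm / 2, y)))])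
            ((le_abs_self _).trans h1)
        nlinarith
      have h3 : dist (G (s + Lm / 2, x)) (G (s + Lm / 2, y)) ≤ dist (G (s + Lm / 2, x)) (g x) +
          dist (g x) (g y) + dist (g y) (G (s + Lm / 2, y)) :=
        dist_triangle4 _ _ _ _
      rw [dist_comm (G (s + Lm / 2, y))] at b2
      simp only [Sol]
      linarith
  | push p x A ih =>
    intro X hw U κ Lm hU hκ hκ' hLm
    obtain ⟨hp, hx, _, hwA⟩ := hw
    have hR0 : 0 < min (Lm / 8) (1 / (8 * (U + 1))) := lt_min (by positivity) (by positivity)
    have hR1 := min_le_left (Lm / 8) (1 / (8 * (U + 1)))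
    have hR2 := min_le_right (Lm / 8) (1 / (8 * (U + 1)))
    set R := min (Lm / 8) (1 / (8 * (U + 1))) with hR
    have hRU : R * U ≤ 1 / 8 := by
      have : R * (8 * (U + 1)) ≤ 1 := by
        calc R * (8 * (U + 1)) ≤ 1 / (8 * (U + 1)) * (8 * (U + 1)) :=
              mul_le_mul_of_nonneg_right hR2 (by positivity)
          _ = 1 := by field_simp
      nlinarith
    set d := dist p x with hd
    have hd0 : 0 ≤ d := dist_nonneg
    set U' := U + d ^ 2 / R with hU'
    have hdR : 0 ≤ d ^ 2 / R := by positivity
    have hRd : R * (d ^ 2 / R) = d ^ 2 := by field_simp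
    have hU'0 : 0 ≤ U' := by positivity
    set c := κ ^ 2 / (2 * (U' + 1)) with hc'
    have hc0 : 0 < c := by positivity
    have hc1 : c * (2 * U') ≤ κ ^ 2 := by
      have : c * (2 * (U' + 1)) = κ ^ 2 := by
        rw [hc']
        field_simp
      nlinarith
    have hτ0 : 0 < min (Lm / 16) (c / 4) := lt_min (by positivity) (by positivity)
    have hτ1 := min_le_left (Lm / 16) (c / 4)
    have hτ2 := min_le_right (Lm / 16) (c / 4)
    set τ := min (Lm / 16) (c / 4) with hτ
    have hN0 : 0 < min (Lm / 4) (c / 2) := lt_min (by positivity) (by positivity)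
    have hN1 := min_le_left (Lm / 4) (c / 2)
    have hN2 := min_le_right (Lm / 4) (c / 2)
    set Ln := min (Lm / 4) (c / 2) with hLn
    obtain ⟨TA, e1, p1, d1, α0, hα0, k⟩ := ih (insert x X) hwA U' κ Ln hU'0 hκ hκ' hN0
    obtain ⟨hdur, _, _, _⟩ := hg H TA p1 0
    refine ⟨.push R τ p x TA, ?_, ⟨hR0, hτ0, p1⟩, ?_, α0, hα0, ?_⟩
    · simp only [TProg.erase, e1]
    · simp only [TProg.dur]
      linarith
    · intro α hα hα' s G h g hE hL hX
      have hrange := (hg H TA p1 (s + 2 * τ + R)).2.1
      set t0 := s + τ + R with ht0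
      set t1 := s + 3 * τ + R + TA.dur with ht1
      set S : Finset ℝ := insert t0 (insert t1 (timesOf x (verts TA (s + 2 * τ + R)))) with hS
      have hSr : ∀ t ∈ S, t0 ≤ t ∧ t ≤ t1 := by
        intro t ht
        rw [hS, Finset.mem_insert, Finset.mem_insert, mem_times] at ht
        rcases ht with rfl | rfl | ht
        · exact ⟨le_refl _, by rw [ht1, ht0]; linarith⟩
        · exact ⟨by rw [ht1, ht0]; linarith, le_refl _⟩
        · have := hrange _ ht
          simp only at this
          constructor
          · rw [ht0]; linarith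
          · rw [ht1]; linarith
      have ht0S : t0 ∈ S := by simp [hS]
      have ht1S : t1 ∈ S := by simp [hS]
      have hstat : ∀ e ∈ statEdges x S, EdgeOK G h e := by
        intro e he
        apply hE
        simp only [edges, Finset.mem_union]
        exact Or.inr he
      have hcon : ∀ t ∈ S, ∀ t' ∈ S, t ≤ t' →
          dist (G (t, x)) (G (t', x)) ^ 2 ≤ -((t' - t) * (h (t', x) - h (t, x))) := hc n S (fun t => G (t, x)) (fun t => h (t, x)) (by
        intro t ht t' ht' htt' hcc
        have := hstat _ (mem_stat (x := x) ht ht' htt' hcc)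
        simp only [EdgeOK, dist_self] at this
        nlinarith)
      have hmono : ∀ t ∈ S, ∀ t' ∈ S, t ≤ t' → h (t', x) ≤ h (t, x) := by
        intro t ht t' ht' htt'
        rcases htt'.eq_or_lt with rfl | hlt
        · exact le_refl _
        · have h1 := hcon t ht t' ht' htt'
          have h2 : 0 ≤ -((t' - t) * (h (t', x) - h (t, x))) := le_trans (sq_nonneg _) h1
          by_contra hcc
          push Not at hcc
          have : 0 < (t' - t) * (h (t', x) - h (t, x)) :=
            mul_pos (by linarith) (by linarith)
          linarith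
      -- mover edges
      have hm1 := hE ((s + τ, p), (s + τ + R, x)) (by simp [edges])
      have hm2 := hE ((s + 3 * τ + R + TA.dur, x), (s + 3 * τ + 2 * R + TA.dur, p))
        (by simp [edges])
      obtain ⟨a1, a2⟩ := hX p hp (s + τ) (by simp [verts])
      obtain ⟨b1, b2⟩ := hX p hp (s + 3 * τ + 2 * R + TA.dur) (by simp [verts])
      simp only [EdgeOK] at hm1 hm2
      rw [← ht0] at hm1
      rw [← ht1] at hm2
      rw [abs_le] at a1 b1
      have hu1 : h (t0, x) ≤ U' := by
        have h1 : R * (h (t0, x) - h (s + τ, p)) ≤ d ^ 2 := by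
          have := le_trans (sq_nonneg _) hm1
          have h2 : t0 - (s + τ) = R := by rw [ht0]; ring
          rw [h2] at this
          linarith
        have h2 : R * (h (t0, x) - h (s + τ, p)) ≤ R * (d ^ 2 / R) := by rw [hRd]; exact h1
        have h3 := le_of_mul_le_mul_left h2 hR0
        rw [hU']
        linarith
      have hu2 : -U' ≤ h (t1, x) := by
        have h1 : R * (h (s + 3 * τ + 2 * R + TA.dur, p) - h (t1, x)) ≤ d ^ 2 := by
          have := le_trans (sq_nonneg _) hm2
          have h2 : (s + 3 * τ + 2 * R + TA.dur) - t1 = R := by rw [ht1]; ring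
          rw [h2, dist_comm x p] at this
          linarith
        have h2 : R * (h (s + 3 * τ + 2 * R + TA.dur, p) - h (t1, x)) ≤ R * (d ^ 2 / R) := by
          rw [hRd]; exact h1
        have h3 := le_of_mul_le_mul_left h2 hR0
        rw [hU']
        linarith
      have hub : ∀ t ∈ S, |h (t, x)| ≤ U' := by
        intro t ht
        obtain ⟨q1, q2⟩ := hSr t ht
        have r1 := hmono t0 ht0S t ht q1
        have r2 := hmono t ht t1 ht1S q2
        rw [abs_le]
        constructor <;> linarith
      have hdb : ∀ t ∈ S, dist (G (t, x)) (G (t0, x)) ≤ κ := by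
        intro t ht
        obtain ⟨q1, q2⟩ := hSr t ht
        have r1 := hcon t0 ht0S t ht q1
        have r2 := hub t ht
        have r3 := hub t0 ht0S
        rw [abs_le] at r2 r3
        have r4 : h (t, x) ≤ h (t0, x) := hmono t0 ht0S t ht q1
        have r5 : t - t0 ≤ c := by
          have : t1 - t0 ≤ c := by rw [ht1, ht0]; linarith
          linarith
        have r6 : (t - t0) * (h (t0, x) - h (t, x)) ≤ c * (2 * U') := by
          apply mul_le_mul r5 (by linarith) (by linarith) hc0.le
        rw [dist_comm]
        apply le_of_sq_le_sq _ hκ.le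
        have r7 : -((t - t0) * (h (t, x) - h (t0, x))) = (t - t0) * (h (t0, x) - h (t, x)) := by
          ring
        linarith
      refine ⟨G (t0, x), ?_, ?_⟩
      · have h1 : dist (G (s + τ, p)) (G (t0, x)) ≤ 2 * d + 1 / 2 := by
          apply le_of_sq_le_sq _ (by positivity)
          have h2 : t0 - (s + τ) = R := by rw [ht0]; ring
          rw [h2] at hm1
          have h3 : -U' ≤ h (t0, x) := (abs_le.mp (hub t0 ht0S)).1
          have h4 : -(R * (h (t0, x) - h (s + τ, p))) ≤ R * (U' + U) := by
            have := mul_le_mul_of_nonneg_left (show h (s + τ, p) - h (t0, x) ≤ U' + U by linarith)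
              hR0.le
            linarith
          have h5 : R * (U' + U) = d ^ 2 + 2 * (R * U) := by
            rw [hU']
            have : R * (U + d ^ 2 / R + U) = R * (d ^ 2 / R) + 2 * (R * U) := by ring
            rw [this, hRd]
          have h6 : (2 * d + 1 / 2) ^ 2 = 4 * d ^ 2 + 2 * d + 1 / 4 := by ring
          rw [h6]
          linarith [sq_nonneg d]
        calc dist (G (t0, x)) (g p) ≤ dist (G (t0, x)) (G (s + τ, p)) + dist (G (s + τ, p)) (g p) :=
              dist_triangle _ _ _
          _ ≤ (2 * d + 1 / 2) + κ := by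
              rw [dist_comm (G (t0, x))]
              exact add_le_add h1 a2
          _ ≤ 2 * dist x p + 1 := by
              rw [dist_comm x p]
              linarith
      · apply k α hα hα' (s + 2 * τ + R) G h
        · intro e he
          apply hE
          simp only [edges, Finset.mem_union]
          exact Or.inl (Or.inr he)
        · intro v hv w hw' hvw
          apply hL v _ w _ hvw
          · simp only [verts, Finset.mem_union]
            exact Or.inr hv
          · simp only [verts, Finset.mem_union]
            exact Or.inr hw'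
        · intro x' hx' t ht
          by_cases hxx : x' = x
          · subst hxx
            have htS : t ∈ S := by
              rw [hS, Finset.mem_insert, Finset.mem_insert, mem_times]
              exact Or.inr (Or.inr ht)
            refine ⟨hub t htS, ?_⟩
            rw [@Function.update_self _ _ (Classical.decEq H)]
            exact hdb t htS
          · have hx'X : x' ∈ X := by
              rcases hx' with h1 | h1
              · exact absurd h1 hxx
              · exact h1
            obtain ⟨q1, q2⟩ := hX x' hx'X t (by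
              simp only [verts, Finset.mem_union]
              exact Or.inr ht)
            rw [@Function.update_of_ne _ _ (Classical.decEq H) _ _ hxx]
            exact ⟨q1.trans (by rw [hU']; linarith), q2⟩

end Crest.Agent.R254
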