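import Crest.Agent.R254.Core

/-!
Row 254 (S0392): assembly of the catalogue.
-/

set_option autoImplicit false

namespace Crest.Agent.R254

namespace Catalog

variable {H : Type}

theorem sol_mono [PseudoMetricSpace H] {n : ℕ} {D ε ε' : ℝ} (hε : ε ≤ ε') (A : Prog H) :
    ∀ g : H → EE n, Sol n D ε A g → Sol n D ε' A g := by
  induction A with
  | skip => intro g _; trivial
  | seq A B ihA ihB => intro g h; exact ⟨ihA g h.1, ihB g h.2⟩
  | test x y => intro g h; simp only [Sol] at h ⊢; linarith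
  | low x y => intro g h; simp only [Sol] at h ⊢; linarith
  | push p x A ih =>
    intro g h
    obtain ⟨v, h1, h2⟩ := h
    exact ⟨v, h1, ih _ h2⟩

theorem mem_stat {x : H} {S : Finset ℝ} {t t' : ℝ} (ht : t ∈ S) (ht' : t' ∈ S) (h : t < t')
    (hc : ∀ s ∈ S, ¬ (t < s ∧ s < t')) : (((t, x), (t', x)) : (ℝ × H) × (ℝ × H)) ∈ statEdges x S := by
  classical
  unfold statEdges
  rw [Finset.mem_image]
  refine ⟨(t, t'), ?_, rfl⟩
  rw [Finset.mem_filter, Finset.mem_product]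
  exact ⟨⟨ht, ht'⟩, h, hc⟩

theorem of_mem_stat {x : H} {S : Finset ℝ} {e : (ℝ × H) × (ℝ × H)} (he : e ∈ statEdges x S) :
    e.1.1 ∈ S ∧ e.2.1 ∈ S ∧ e.1.2 = x ∧ e.2.2 = x ∧ e.1.1 < e.2.1 := by
  classical
  unfold statEdges at he
  rw [Finset.mem_image] at he
  obtain ⟨p, hp, rfl⟩ := he
  rw [Finset.mem_filter, Finset.mem_product] at hp
  exact ⟨hp.1.1, hp.1.2, rfl, rfl, hp.2.1⟩

theorem mem_times {x : H} {V : Finset (ℝ × H)} {t : ℝ} : t ∈ timesOf x V ↔ (t, x) ∈ V := by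
  classical
  unfold timesOf
  simp only [Finset.mem_image, Finset.mem_filter]
  constructor
  · rintro ⟨⟨a, b⟩, ⟨h1, h2⟩, h3⟩
    simp only at h2 h3
    rw [← h2, ← h3]
    exact h1
  · intro h
    exact ⟨(t, x), ⟨h, rfl⟩, rfl⟩

variable [NormedAddCommGroup H] [InnerProductSpace ℝ H]

theorem SS_fst (α : ℝ) (p0 : H) (z : ℝ × H) : (SS α p0 z).fst = z.1 := rfl

theorem SS_snd (α : ℝ) (p0 : H) (z : ℝ × H) : (SS α p0 z).snd = α • (z.2 - p0) := rfl

theorem SS_inj {α : ℝ} (hα : 0 < α) (p0 : H) : Function.Injective (SS α p0) := by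
  intro z w h
  have h1 : (SS α p0 z).fst = (SS α p0 w).fst := by rw [h]
  have h2 : (SS α p0 z).snd = (SS α p0 w).snd := by rw [h]
  rw [SS_fst, SS_fst] at h1
  rw [SS_snd, SS_snd] at h2
  have h3 := smul_right_injective H hα.ne' h2
  exact Prod.ext h1 (sub_left_injective h3)

theorem SS_comb (α : ℝ) (p0 : H) (x y : ℝ × H) (a b : ℝ) (hab : a + b = 1) :
    a • SS α p0 x + b • SS α p0 y = SS α p0 (a • x + b • y) := by
  apply (WithLp.equiv 2 (ℝ × H)).injective
  apply Prod.ext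
  · change a • x.1 + b • y.1 = a • x.1 + b • y.1
    rfl
  · change a • (α • (x.2 - p0)) + b • (α • (y.2 - p0)) = α • ((a • x.2 + b • y.2) - p0)
    have : p0 = (a + b) • p0 := by rw [hab, one_smul]
    rw [smul_comm a α, smul_comm b α, ← smul_add]
    congr 1
    conv_rhs => rw [this]
    rw [smul_sub, smul_sub, add_smul]
    abel

theorem seg_of {α : ℝ} (p0 : H) {x y : ℝ × H} {w : WithLp 2 (ℝ × H)}
    (hw : w ∈ segment ℝ (SS α p0 x) (SS α p0 y)) : ∃ z ∈ segment ℝ x y, w = SS α p0 z := by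
  obtain ⟨a, b, ha, hb, hab, rfl⟩ := hw
  exact ⟨a • x + b • y, ⟨a, b, ha, hb, hab, rfl⟩, SS_comb α p0 x y a b hab⟩

theorem seg_iff {α : ℝ} (hα : 0 < α) (p0 : H) {x y z : ℝ × H} :
    SS α p0 z ∈ segment ℝ (SS α p0 x) (SS α p0 y) ↔ z ∈ segment ℝ x y := by
  constructor
  · intro h
    obtain ⟨z', hz', h'⟩ := seg_of p0 h
    rw [SS_inj hα p0 h']
    exact hz'
  · rintro ⟨a, b, ha, hb, hab, rfl⟩
    exact ⟨a, b, ha, hb, hab, SS_comb α p0 x y a b hab⟩

theorem fst_mem_of_seg {x y z : ℝ × H} (hz : z ∈ segment ℝ x y) {a b : ℝ} (hx : a ≤ x.1)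
    (hx' : x.1 ≤ b) (hy : a ≤ y.1) (hy' : y.1 ≤ b) : a ≤ z.1 ∧ z.1 ≤ b := by
  obtain ⟨s, t, hs, ht, hst, rfl⟩ := hz
  simp only [Prod.fst_add, Prod.smul_fst, smul_eq_mul]
  constructor
  · have : a = s * a + t * a := by rw [← add_mul, hst, one_mul]
    rw [this]
    exact add_le_add (mul_le_mul_of_nonneg_left hx hs) (mul_le_mul_of_nonneg_left hy ht)
  · have : b = s * b + t * b := by rw [← add_mul, hst, one_mul]
    rw [this]
    exact add_le_add (mul_le_mul_of_nonneg_left hx' hs) (mul_le_mul_of_nonneg_left hy' ht)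

theorem dist_of_seg {x y z : ℝ × H} (hz : z ∈ segment ℝ x y) {p0 : H} {Y : ℝ}
    (hx : dist x.2 p0 ≤ Y) (hy : dist y.2 p0 ≤ Y) : dist z.2 p0 ≤ Y := by
  obtain ⟨s, t, hs, ht, hst, rfl⟩ := hz
  have h := (convex_closedBall p0 Y) (Metric.mem_closedBall.mpr hx) (Metric.mem_closedBall.mpr hy)
    hs ht hst
  exact Metric.mem_closedBall.mp h

omit [InnerProductSpace ℝ H] in
theorem pack_one (p0 : H) : Pack ({p0} : Set H) 15 := by
  intro x r hr T hT h1 h2
  have : T ⊆ {p0} := by exact_mod_cast hT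
  exact (Finset.card_le_card this).trans (by simp)

end Catalog

open Catalog in
set_option maxHeartbeats 1000000 in
theorem catalog (h1 : SolCompStmt) (h2 : ConsecStmt) (h3 : BlockStmt) (h4 : FtoGhStmt)
    (h5 : GeoBasicStmt) (h6 : GeoSepStmt) (h7 : GeoEmbStmt) (h8 : GeoConnStmt) (h9 : GeoCovStmt)
    (h10 : PackVStmt) (h11 : PackGStmt) : CatalogStmt := by
  classical
  intro n D hD H _ _ A p0 hwf hall hno
  -- quantitative failure
  have hε : ∃ ε : ℝ, 0 < ε ∧ ¬ ∃ g : H → EE n, Sol n D ε A g := by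
    by_contra hcon
    push Not at hcon
    exact hno (h1 n D H A p0 hwf hcon)
  obtain ⟨ε, hε0, hε⟩ := hε
  have hκ0 : 0 < min (ε / 3) (1 / 2) := lt_min (by positivity) (by norm_num)
  have hκ1 := min_le_left (ε / 3) (1 / 2)
  have hκ2 := min_le_right (ε / 3) (1 / 2)
  set κ := min (ε / 3) (1 / 2) with hκ
  obtain ⟨TA, hTA, hpos, hdur, α1, hα1, hk⟩ :=
    h3 n D hD H A {p0} hwf 0 κ (1 / 2) le_rfl hκ0 hκ2 (by norm_num)
  obtain ⟨hd0, hrange, hedges, htwo⟩ := h5 H TA hpos (1 / 4)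
  have hV0 : fullVerts TA p0 = {((0 : ℝ), p0), ((1 : ℝ), p0)} ∪ verts TA (1 / 4) := rfl
  have hE0 : fullEdges TA p0 = edges TA (1 / 4) ∪
      statEdges p0 (insert 0 (insert 1 (timesOf p0 (verts TA (1 / 4))))) := rfl
  set V0 := fullVerts TA p0 with hV0'
  set E0 := fullEdges TA p0 with hE0'
  set S0 : Finset ℝ := insert 0 (insert 1 (timesOf p0 (verts TA (1 / 4)))) with hS0
  have hvm : ∀ v : ℝ × H, v ∈ V0 ↔ v = (0, p0) ∨ v = (1, p0) ∨ v ∈ verts TA (1 / 4) := by
    intro v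
    rw [hV0, Finset.mem_union, Finset.mem_insert, Finset.mem_singleton, or_assoc]
  have hem : ∀ e : (ℝ × H) × (ℝ × H), e ∈ E0 ↔ e ∈ edges TA (1 / 4) ∨ e ∈ statEdges p0 S0 := by
    intro e
    rw [hE0, Finset.mem_union]
  have hSm : ∀ t : ℝ, t ∈ S0 ↔ t = 0 ∨ t = 1 ∨ (t, p0) ∈ verts TA (1 / 4) := by
    intro t
    rw [hS0, Finset.mem_insert, Finset.mem_insert, mem_times]
  have hv0 : ((0 : ℝ), p0) ∈ V0 := (hvm _).mpr (Or.inl rfl)
  have hv1 : ((1 : ℝ), p0) ∈ V0 := (hvm _).mpr (Or.inr (Or.inl rfl))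
  have hSV : ∀ t ∈ S0, (t, p0) ∈ V0 := by
    intro t ht
    rcases (hSm t).mp ht with rfl | rfl | h
    · exact hv0
    · exact hv1
    · exact (hvm _).mpr (Or.inr (Or.inr h))
  have hmid : ∀ v ∈ verts TA (1 / 4), 1 / 4 < v.1 ∧ v.1 < 3 / 4 := by
    intro v hv
    obtain ⟨q1, q2⟩ := hrange v hv
    exact ⟨q1, by linarith⟩
  have hVr : ∀ v ∈ V0, 0 ≤ v.1 ∧ v.1 ≤ 1 := by
    intro v hv
    rcases (hvm v).mp hv with rfl | rfl | h
    · norm_num
    · norm_num
    · obtain ⟨q1, q2⟩ := hmid v h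
      constructor <;> linarith
  have hS0r : ∀ t ∈ S0, 0 ≤ t ∧ t ≤ 1 := fun t ht => hVr _ (hSV t ht)
  have hEV : ∀ e ∈ E0, e.1 ∈ V0 ∧ e.2 ∈ V0 ∧ e.1.1 < e.2.1 := by
    intro e he
    rcases (hem e).mp he with h | h
    · obtain ⟨q1, q2, q3⟩ := hedges e h
      exact ⟨(hvm _).mpr (Or.inr (Or.inr q1)), (hvm _).mpr (Or.inr (Or.inr q2)), q3⟩
    · obtain ⟨q1, q2, q3, q4, q5⟩ := of_mem_stat h
      have r1 := hSV _ q1
      have r2 := hSV _ q2
      rw [← q3] at r1
      rw [← q4] at r2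
      exact ⟨r1, r2, q5⟩
  have hfour : ∀ t : ℝ, ∀ T : Finset (ℝ × H), T ⊆ V0 → (∀ v ∈ T, v.1 = t) → T.card ≤ 2 := by
    intro t T hT ht
    by_cases hTv : T ⊆ verts TA (1 / 4)
    · exact htwo t T hTv ht
    · obtain ⟨v, hv, hv'⟩ := Finset.not_subset.mp hTv
      have hvt := ht v hv
      have hT1 : T ⊆ {v} := by
        intro w hw
        rw [Finset.mem_singleton]
        have hwt := ht w hw
        have hv2 := (hvm v).mp (hT hv)
        have hw2 := (hvm w).mp (hT hw)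
        rcases hv2 with e1 | e1 | e1
        · rcases hw2 with e2 | e2 | e2
          · rw [e1, e2]
          · rw [e1] at hvt; rw [e2] at hwt; simp only at hvt hwt; linarith
          · have := (hmid w e2).1
            rw [e1] at hvt; simp only at hvt; linarith
        · rcases hw2 with e2 | e2 | e2
          · rw [e1] at hvt; rw [e2] at hwt; simp only at hvt hwt; linarith
          · rw [e1, e2]
          · have := (hmid w e2).2
            rw [e1] at hvt; simp only at hvt; linarith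
        · exact absurd e1 hv'
      exact (Finset.card_le_card hT1).trans (by simp)
  -- bound for the positions
  obtain ⟨Y, hY0, hY⟩ : ∃ Y : ℝ, 0 ≤ Y ∧ ∀ v ∈ V0, dist v.2 p0 ≤ Y := by
    refine ⟨∑ v ∈ V0, dist v.2 p0, Finset.sum_nonneg (fun _ _ => dist_nonneg), ?_⟩
    intro v hv
    exact Finset.single_le_sum (f := fun v : ℝ × H => dist v.2 p0) (fun _ _ => dist_nonneg) hv
  obtain ⟨α2, hα2, hp2⟩ := h10 H p0 V0 hfour
  have hGr : ∀ z ∈ edgeUnion E0, 0 ≤ z.1 ∧ z.1 ≤ 1 ∧ dist z.2 p0 ≤ Y := by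
    intro z hz
    simp only [edgeUnion, Set.mem_iUnion] at hz
    obtain ⟨e, he, hz⟩ := hz
    obtain ⟨q1, q2, _⟩ := hEV e he
    obtain ⟨r1, r2⟩ := hVr _ q1
    obtain ⟨r3, r4⟩ := hVr _ q2
    obtain ⟨s1, s2⟩ := fst_mem_of_seg hz r1 r2 r3 r4
    exact ⟨s1, s2, dist_of_seg hz (hY _ q1) (hY _ q2)⟩
  have hcov : Cov (fun X : Set H => Pack X 15) (edgeUnion E0) 0 1 :=
    h9 H (fun X => Pack X 15) TA p0 hpos hdur (by rw [hTA]; exact hwf) (pack_one p0)
      (by rw [hTA]; exact hall)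
  obtain ⟨α3, hα3, hp3⟩ := h11 H p0 (edgeUnion E0) Y hGr hcov
  have hα0 : 0 < min (min α1 α2) (min α3 (1 / (2000 * (Y + 1)))) :=
    lt_min (lt_min hα1 hα2) (lt_min hα3 (by positivity))
  have ha1 : min (min α1 α2) (min α3 (1 / (2000 * (Y + 1)))) ≤ α1 :=
    (min_le_left _ _).trans (min_le_left _ _)
  have ha2 : min (min α1 α2) (min α3 (1 / (2000 * (Y + 1)))) ≤ α2 :=
    (min_le_left _ _).trans (min_le_right _ _)
  have ha3 : min (min α1 α2) (min α3 (1 / (2000 * (Y + 1)))) ≤ α3 :=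
    (min_le_right _ _).trans (min_le_left _ _)
  have ha4 : min (min α1 α2) (min α3 (1 / (2000 * (Y + 1)))) ≤ 1 / (2000 * (Y + 1)) :=
    (min_le_right _ _).trans (min_le_right _ _)
  set α := min (min α1 α2) (min α3 (1 / (2000 * (Y + 1)))) with hα
  have hαY : α * Y ≤ 1 / 2000 := by
    have h1 : α * (2000 * (Y + 1)) ≤ 1 := by
      calc α * (2000 * (Y + 1)) ≤ 1 / (2000 * (Y + 1)) * (2000 * (Y + 1)) :=
            mul_le_mul_of_nonneg_right ha4 (by positivity)
        _ = 1 := by field_simp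
    nlinarith
  clear_value α κ
  have hinj := SS_inj hα0 p0
  refine ⟨V0.image (SS α p0), E0.image (fun e => (SS α p0 e.1, SS α p0 e.2)),
    SS α p0 (0, p0), SS α p0 (1, p0), ?_⟩
  refine ⟨Finset.mem_image_of_mem _ hv0, Finset.mem_image_of_mem _ hv1, ?_, ?_, ?_, ?_, ?_, ?_,
    ?_, ?_, ?_, ?_⟩
  · -- hab
    rw [WithLp.prod_dist_eq_of_L2, SS_fst, SS_fst, SS_snd, SS_snd]
    simp
  · -- hE
    intro e he
    rw [Finset.mem_image] at he
    obtain ⟨e0, he0, rfl⟩ := he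
    obtain ⟨q1, q2, q3⟩ := hEV e0 he0
    refine ⟨Finset.mem_image_of_mem _ q1, Finset.mem_image_of_mem _ q2, ?_⟩
    intro hc
    have := hinj hc
    rw [this] at q3
    exact lt_irrefl _ q3
  · -- noemb
    rintro ⟨f, hf1, hf2, hf3⟩
    have hf1' : ∀ v ∈ V0, ∀ w ∈ V0,
        dist (SS α p0 v) (SS α p0 w) ≤ D * dist (f (SS α p0 v)) (f (SS α p0 w)) := by
      intro v hv w hw
      exact hf1 _ (Finset.mem_image_of_mem _ hv) _ (Finset.mem_image_of_mem _ hw)
    have hf2' : ∀ e ∈ E0,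
        dist (f (SS α p0 e.1)) (f (SS α p0 e.2)) ≤ dist (SS α p0 e.1) (SS α p0 e.2) := by
      intro e he
      have := hf2 (SS α p0 e.1, SS α p0 e.2)
        (Finset.mem_image_of_mem (fun e => (SS α p0 e.1, SS α p0 e.2)) he)
      exact this
    have hf3' : 1 ≤ dist (f (SS α p0 (0, p0))) (f (SS α p0 (1, p0))) := by
      refine le_trans (le_of_eq ?_) hf3
      rw [WithLp.prod_dist_eq_of_L2, SS_fst, SS_fst, SS_snd, SS_snd]
      simp
    obtain ⟨G, h, hG1, hG2, hG3, hG4⟩ := h4 n D hD H p0 α hα0 V0 E0 (fun e he => (hEV e he).2.2) f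
      hf1' hf2' hf3'
    have hcon : ∀ t ∈ S0, ∀ t' ∈ S0, t ≤ t' →
        dist (G (t, p0)) (G (t', p0)) ^ 2 ≤ -((t' - t) * (h (t', p0) - h (t, p0))) :=
      h2 n S0 (fun t => G (t, p0)) (fun t => h (t, p0)) (by
        intro t ht t' ht' htt' hcc
        have := hG1 _ ((hem _).mpr (Or.inr (mem_stat (x := p0) ht ht' htt' hcc)))
        simp only [EdgeOK, dist_self] at this
        nlinarith)
    have h0S : (0 : ℝ) ∈ S0 := (hSm 0).mpr (Or.inl rfl)
    have h1S : (1 : ℝ) ∈ S0 := (hSm 1).mpr (Or.inr (Or.inl rfl))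
    have hmono : ∀ t ∈ S0, ∀ t' ∈ S0, t ≤ t' → h (t', p0) ≤ h (t, p0) := by
      intro t ht t' ht' htt'
      rcases htt'.eq_or_lt with rfl | hlt
      · exact le_refl _
      · have h1 := hcon t ht t' ht' htt'
        have h2 : 0 ≤ -((t' - t) * (h (t', p0) - h (t, p0))) := le_trans (sq_nonneg _) h1
        by_contra hcc
        push Not at hcc
        have : 0 < (t' - t) * (h (t', p0) - h (t, p0)) :=
          mul_pos (by linarith) (by linarith)
        linarith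
    have hz : ∀ t ∈ S0, h (t, p0) = 0 := by
      intro t ht
      obtain ⟨q1, q2⟩ := hS0r t ht
      have r1 := hmono 0 h0S t ht q1
      have r2 := hmono t ht 1 h1S q2
      linarith
    have hGc : ∀ t ∈ S0, dist (G (t, p0)) (G (0, p0)) = 0 := by
      intro t ht
      obtain ⟨q1, q2⟩ := hS0r t ht
      have r1 := hcon 0 h0S t ht q1
      rw [hz t ht, hz 0 h0S] at r1
      rw [dist_comm]
      have r2 : dist (G (0, p0)) (G (t, p0)) ^ 2 ≤ 0 := by
        refine r1.trans (le_of_eq ?_)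
        ring
      exact pow_eq_zero_iff (two_ne_zero) |>.mp (le_antisymm r2 (sq_nonneg _))
    have hsol := hk α hα0 ha1 (1 / 4) G h (fun _ => G (0, p0))
      (fun e he => hG1 e ((hem e).mpr (Or.inl he)))
      (fun v hv w hw hvw => hG2 v ((hvm v).mpr (Or.inr (Or.inr hv))) w
        ((hvm w).mpr (Or.inr (Or.inr hw))) hvw)
      (by
        intro x hx t ht
        rw [Set.mem_singleton_iff] at hx
        subst hx
        have htS : t ∈ S0 := (hSm t).mpr (Or.inr (Or.inr ht))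
        rw [hz t htS, hGc t htS]
        simp only [abs_zero, le_refl, true_and]
        exact hκ0.le)
    exact hε ⟨_, sol_mono (by linarith) A _ hsol⟩
  · -- conn
    intro v hv
    rw [Finset.mem_image] at hv
    obtain ⟨v0, hv0', rfl⟩ := hv
    have := h8 H TA p0 hpos hdur (by rw [hTA]; exact hwf) v0 hv0'
    refine Relation.ReflTransGen.lift (SS α p0) ?_ _ _ this
    intro x y hxy
    rcases hxy with hxy | hxy
    · exact Or.inl (Finset.mem_image_of_mem (fun e => (SS α p0 e.1, SS α p0 e.2)) hxy)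
    · exact Or.inr (Finset.mem_image_of_mem (fun e => (SS α p0 e.1, SS α p0 e.2)) hxy)
  · -- thin
    intro v hv
    rw [Finset.mem_image] at hv
    obtain ⟨v0, hv0', rfl⟩ := hv
    refine ⟨v0.1, hVr v0 hv0', ?_⟩
    have hl : AffineMap.lineMap (SS α p0 (0, p0)) (SS α p0 (1, p0)) v0.1 = SS α p0 (v0.1, p0) := by
      rw [AffineMap.lineMap_apply_module, SS_comb α p0 _ _ _ _ (by ring)]
      congr 1
      apply Prod.ext
      · simp
      · simp only [Prod.smul_mk, Prod.mk_add_mk]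
        rw [← add_smul, sub_add_cancel, one_smul]
    rw [hl, WithLp.prod_dist_eq_of_L2, SS_fst, SS_fst, SS_snd, SS_snd, dist_self]
    simp only [sub_self, smul_zero, dist_zero_right, norm_smul, Real.norm_eq_abs,
      abs_of_pos hα0]
    rw [zero_pow two_ne_zero, zero_add, Real.sqrt_sq (by positivity), ← dist_eq_norm]
    exact (mul_le_mul_of_nonneg_left (hY v0 hv0') hα0.le).trans hαY
  · -- slab
    intro v hv
    rw [Finset.mem_image] at hv
    obtain ⟨v0, hv0', rfl⟩ := hv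
    rcases (hvm v0).mp hv0' with e1 | e1 | e1
    · left; rw [e1]
    · right; left; rw [e1]
    · right; right
      have hin : (inner ℝ (SS α p0 v0 - SS α p0 (0, p0)) (SS α p0 (1, p0) - SS α p0 (0, p0)) : ℝ)
          = v0.1 := by
        rw [WithLp.prod_inner_apply]
        change inner ℝ (v0.1 - 0) ((1 : ℝ) - 0) + inner ℝ (α • (v0.2 - p0) - α • (p0 - p0))
          (α • (p0 - p0) - α • (p0 - p0)) = v0.1
        simp
      rw [hin]
      obtain ⟨q1, q2⟩ := hmid v0 e1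
      constructor <;> linarith
  · -- pack
    rw [Finset.coe_image]
    exact hp2 α hα0 ha2
  · -- sep
    intro e he v hv hve
    rw [Finset.mem_image] at he hv
    obtain ⟨e0, he0, rfl⟩ := he
    obtain ⟨v0, hv0', rfl⟩ := hv
    have := (seg_iff hα0 p0).mp hve
    rcases h6 H TA p0 hpos hdur e0 he0 v0 hv0' this with h | h
    · left; rw [h]
    · right; rw [h]
  · -- emb
    intro e he e' he' hne z hz hz'
    rw [Finset.mem_image] at he he'
    obtain ⟨e0, he0, rfl⟩ := he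
    obtain ⟨e1, he1, rfl⟩ := he'
    obtain ⟨z0, hz0, rfl⟩ := seg_of p0 hz
    have := (seg_iff hα0 p0).mp hz'
    exact Finset.mem_image_of_mem _ (h7 H TA p0 hpos hdur (by rw [hTA]; exact hwf) e0 he0 e1 he1
      (fun h => hne (by rw [h])) z0 hz0 this)
  · -- packG
    have : edgeUnion (E0.image (fun e => (SS α p0 e.1, SS α p0 e.2))) =
        SS α p0 '' edgeUnion E0 := by
      ext w
      simp only [edgeUnion, Set.mem_iUnion, Set.mem_image, Finset.mem_image]
      constructor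
      · rintro ⟨e, ⟨e0, he0, rfl⟩, hw⟩
        obtain ⟨z, hz, rfl⟩ := seg_of p0 hw
        exact ⟨z, ⟨e0, he0, hz⟩, rfl⟩
      · rintro ⟨z, ⟨e0, he0, hz⟩, rfl⟩
        exact ⟨_, ⟨e0, he0, rfl⟩, (seg_iff hα0 p0).mpr hz⟩
    rw [this]
    exact hp3 α hα0 ha3

end Crest.Agent.R254
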