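import Crest.Agent.R254.Core

set_option autoImplicit false

namespace Crest.Agent.R254

namespace CONSEC

theorem comb {a b t1 t2 u1 u2 : ℝ} (ha : 0 ≤ a) (hb : 0 ≤ b) (ht1 : 0 < t1) (ht2 : 0 < t2)
    (h1 : a ^ 2 ≤ t1 * u1) (h2 : b ^ 2 ≤ t2 * u2) : (a + b) ^ 2 ≤ (t1 + t2) * (u1 + u2) := by
  have hu1 : 0 ≤ u1 := by
    by_contra h
    push Not at h
    nlinarith [mul_neg_of_pos_of_neg ht1 h, sq_nonneg a]
  have hu2 : 0 ≤ u2 := by
    by_contra h
    push Not at h
    nlinarith [mul_neg_of_pos_of_neg ht2 h, sq_nonneg b]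
  have h3 : 2 * (a * b) ≤ t1 * u2 + t2 * u1 := by
    apply abs_le_of_sq_le_sq' _ (by positivity) |>.2
    have h4 : (a * b) ^ 2 ≤ (t1 * u1) * (t2 * u2) := by
      rw [mul_pow]
      exact mul_le_mul h1 h2 (sq_nonneg b) (by positivity)
    nlinarith [sq_nonneg (t1 * u2 - t2 * u1)]
  nlinarith

end CONSEC

theorem consec : ConsecStmt := by
  classical
  intro n S G h hG
  have key : ∀ m : ℕ, ∀ t ∈ S, ∀ t' ∈ S, t < t' →
      (S.filter (fun s => t < s ∧ s < t')).card = m →
      dist (G t) (G t') ^ 2 ≤ -((t' - t) * (h t' - h t)) := by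
    intro m
    induction m using Nat.strong_induction_on with
    | _ m ih =>
      intro t ht t' ht' htt hm
      by_cases hne : ∃ s ∈ S, t < s ∧ s < t'
      · obtain ⟨s, hs, hs1, hs2⟩ := hne
        have hc1 : (S.filter (fun u => t < u ∧ u < s)).card < m := by
          rw [← hm]
          apply Finset.card_lt_card
          rw [Finset.ssubset_iff_of_subset]
          · exact ⟨s, by simp [hs, hs1, hs2], by simp⟩
          · intro u hu
            simp only [Finset.mem_filter] at hu ⊢
            exact ⟨hu.1, hu.2.1, hu.2.2.trans hs2⟩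
        have hc2 : (S.filter (fun u => s < u ∧ u < t')).card < m := by
          rw [← hm]
          apply Finset.card_lt_card
          rw [Finset.ssubset_iff_of_subset]
          · exact ⟨s, by simp [hs, hs1, hs2], by simp⟩
          · intro u hu
            simp only [Finset.mem_filter] at hu ⊢
            exact ⟨hu.1, hs1.trans hu.2.1, hu.2.2⟩
        have h1 := ih _ hc1 t ht s hs hs1 rfl
        have h2 := ih _ hc2 s hs t' ht' hs2 rfl
        have h3 := CONSEC.comb (a := dist (G t) (G s)) (b := dist (G s) (G t'))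
          (t1 := s - t) (t2 := t' - s) (u1 := h t - h s) (u2 := h s - h t')
          dist_nonneg dist_nonneg (by linarith) (by linarith) (by linarith) (by linarith)
        have h4 := dist_triangle (G t) (G s) (G t')
        have h5 : dist (G t) (G t') ^ 2 ≤ (dist (G t) (G s) + dist (G s) (G t')) ^ 2 :=
          pow_le_pow_left₀ dist_nonneg h4 2
        calc dist (G t) (G t') ^ 2 ≤ _ := h5
          _ ≤ _ := h3
          _ = _ := by ring
      · push Not at hne
        refine hG t ht t' ht' htt (fun s hs hss => ?_)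
        have := hne s hs hss.1
        linarith [hss.2]
  intro t ht t' ht' htt
  rcases htt.lt_or_eq with h1 | h1
  · exact key _ t ht t' ht' h1 rfl
  · subst h1; simp

end Crest.Agent.R254
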