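import Crest.Agent.R254.Defs

/-!
Row 254 (S0392), part III: the core.

Idea.  `Prog H` = depth-first exploration strategy ("online embedding game") in the cross-section
space `H`.  `Sol n D ε A g` = the embedder into `ℝ^n` survives the program `A`.
`IsObs n D V E a b` = finite set `V` with designated edges `E` such that no `D`-lower-Lipschitz map
to `ℝ^n` which is `1`-Lipschitz on the edges keeps the distance of `a` and `b`.
Catalogue: a won program for `ℝ^n` in `H` gives an `IsObs (n+1)` in `ℝ × H` (time = first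
coordinate).  Strategy: an `IsObs n` gives a won program for `ℝ^n`.  Final: an `IsObs N` gives a
finite set not embeddable in `ℝ^N`, with universal packing constant.
-/

set_option autoImplicit false

namespace Crest.Agent.R254

/-! ### Programs -/

inductive Prog (H : Type) : Type
  | skip : Prog H
  | seq : Prog H → Prog H → Prog H
  | test : H → H → Prog H
  | low : H → H → Prog H
  | push : H → H → Prog H → Prog H

/-- `push p x A`: point `x` is born from `p`, stays alive during `A`, then disappears. -/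
noncomputable def Sol {H : Type} [PseudoMetricSpace H] (n : ℕ) (D ε : ℝ) :
    Prog H → (H → EE n) → Prop
  | .skip, _ => True
  | .seq A B, g => Sol n D ε A g ∧ Sol n D ε B g
  | .test x y, g => dist (g x) (g y) ≤ dist x y + ε
  | .low x y, g => dist x y / D - ε ≤ dist (g x) (g y)
  | .push p x A, g => ∃ v : EE n, dist v (g p) ≤ 2 * dist x p + 1 ∧
      Sol n D ε A (@Function.update H (fun _ => EE n) (Classical.decEq H) g x v)

/-- alive-set bookkeeping and non-collision. -/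
def WF {H : Type} [NormedAddCommGroup H] [InnerProductSpace ℝ H] : Prog H → Set H → Prop
  | .skip, _ => True
  | .seq A B, X => WF A X ∧ WF B X
  | .test x y, X => x ∈ X ∧ y ∈ X ∧ x ≠ y ∧ ∀ z ∈ X, z ∈ segment ℝ x y → z = x ∨ z = y
  | .low x y, X => x ∈ X ∧ y ∈ X ∧ x ≠ y
  | .push p x A, X => p ∈ X ∧ x ∉ X ∧ (∀ z ∈ X, z ∈ segment ℝ p x → z = p) ∧ WF A (insert x X)

/-- `Q` holds for all alive sets. -/
def AllC {H : Type} (Q : Set H → Prop) : Prog H → Set H → Prop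
  | .skip, X => Q X
  | .seq A B, X => AllC Q A X ∧ AllC Q B X
  | .test _ _, X => Q X
  | .low _ _, X => Q X
  | .push _ x A, X => Q X ∧ AllC Q A (insert x X)

/-! ### Obstructions -/

/-- union of the edges. -/
def edgeUnion {H : Type} [AddCommGroup H] [Module ℝ H] (E : Finset (H × H)) : Set H :=
  ⋃ e ∈ E, segment ℝ e.1 e.2

structure IsObs {H : Type} [NormedAddCommGroup H] [InnerProductSpace ℝ H]
    (n : ℕ) (D : ℝ) (V : Finset H) (E : Finset (H × H)) (a b : H) : Prop where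
  ha : a ∈ V
  hb : b ∈ V
  hab : dist a b = 1
  hE : ∀ e ∈ E, e.1 ∈ V ∧ e.2 ∈ V ∧ e.1 ≠ e.2
  noemb : ¬ ∃ f : H → EE n, (∀ x ∈ V, ∀ y ∈ V, dist x y ≤ D * dist (f x) (f y)) ∧
    (∀ e ∈ E, dist (f e.1) (f e.2) ≤ dist e.1 e.2) ∧ dist a b ≤ dist (f a) (f b)
  conn : ∀ v ∈ V, Relation.ReflTransGen (fun x y => (x, y) ∈ E ∨ (y, x) ∈ E) a v
  thin : ∀ v ∈ V, ∃ t ∈ Set.Icc (0 : ℝ) 1, dist v (AffineMap.lineMap a b t) ≤ 1 / 2000
  slab : ∀ v ∈ V, v = a ∨ v = b ∨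
    (1 / 4 ≤ (inner ℝ (v - a) (b - a) : ℝ) ∧ (inner ℝ (v - a) (b - a) : ℝ) ≤ 3 / 4)
  pack : Pack (V : Set H) 5
  sep : ∀ e ∈ E, ∀ v ∈ V, v ∈ segment ℝ e.1 e.2 → v = e.1 ∨ v = e.2
  emb : ∀ e ∈ E, ∀ e' ∈ E, e ≠ e' → ∀ z ∈ segment ℝ e.1 e.2, z ∈ segment ℝ e'.1 e'.2 → z ∈ V
  packG : Pack (edgeUnion E) 10000

/-! ### The three big steps -/

def CatalogStmt : Prop :=
  ∀ (n : ℕ) (D : ℝ), 1 ≤ D → ∀ (H : Type) [NormedAddCommGroup H] [InnerProductSpace ℝ H]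
    (A : Prog H) (p0 : H), WF A {p0} → AllC (fun X => Pack X 15) A {p0} →
    (¬ ∃ g : H → EE n, Sol n D 0 A g) →
    ∃ (V : Finset (WithLp 2 (ℝ × H))) (E : Finset (WithLp 2 (ℝ × H) × WithLp 2 (ℝ × H)))
      (a b : WithLp 2 (ℝ × H)), IsObs (n + 1) D V E a b

def StrategyStmt : Prop :=
  ∀ (n : ℕ) (D : ℝ), 1 ≤ D → ∀ (H : Type) [NormedAddCommGroup H] [InnerProductSpace ℝ H]
    (V : Finset H) (E : Finset (H × H)) (a b : H), IsObs n D V E a b →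
    ∃ (A : Prog H) (p0 : H), WF A {p0} ∧ AllC (fun X => Pack X 15) A {p0} ∧
      ¬ ∃ g : H → EE n, Sol n D 0 A g

def FinalStmt : Prop :=
  ∃ m : ℕ, ∀ (N : ℕ) (D : ℝ), 1 ≤ D → ∀ (H : Type) [NormedAddCommGroup H]
    [InnerProductSpace ℝ H] (V : Finset H) (E : Finset (H × H)) (a b : H), IsObs N D V E a b →
    ∃ A : Finset H, A.Nonempty ∧ Pack (A : Set H) m ∧
      ¬ ∃ f : H → EE N, ∀ x ∈ A, ∀ y ∈ A,
        dist x y ≤ D * dist (f x) (f y) ∧ dist (f x) (f y) ≤ dist x y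

/-! ### Catalogue: timed programs -/

inductive TProg (H : Type) : Type
  | skip : TProg H
  | seq : TProg H → TProg H → TProg H
  | test : ℝ → H → H → TProg H
  | low : ℝ → H → H → TProg H
  | push : ℝ → ℝ → H → H → TProg H → TProg H

variable {H : Type}

def TProg.erase : TProg H → Prog H
  | .skip => .skip
  | .seq A B => .seq A.erase B.erase
  | .test _ x y => .test x y
  | .low _ x y => .low x y
  | .push _ _ p x A => .push p x A.erase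

def TProg.Pos : TProg H → Prop
  | .skip => True
  | .seq A B => A.Pos ∧ B.Pos
  | .test τ _ _ => 0 < τ
  | .low τ _ _ => 0 < τ
  | .push R τ _ _ A => 0 < R ∧ 0 < τ ∧ A.Pos

noncomputable def TProg.dur : TProg H → ℝ
  | .skip => 0
  | .seq A B => A.dur + B.dur
  | .test τ _ _ => 3 * τ
  | .low τ _ _ => 2 * τ
  | .push R τ _ _ A => 2 * R + 4 * τ + A.dur

open Classical in
/-- space-time vertices (time, position) of a timed program started at time `s`. -/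
noncomputable def verts : TProg H → ℝ → Finset (ℝ × H)
  | .skip, _ => ∅
  | .seq A B, s => verts A s ∪ verts B (s + A.dur)
  | .test τ x y, s => {(s + τ, x), (s + 2 * τ, y)}
  | .low τ x y, s => {(s + τ, x), (s + τ, y)}
  | .push R τ p x A, s =>
      {(s + τ, p), (s + τ + R, x), (s + 3 * τ + R + A.dur, x), (s + 3 * τ + 2 * R + A.dur, p)} ∪
        verts A (s + 2 * τ + R)

open Classical in
/-- static edges of position `x` between consecutive times of `S`. -/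
noncomputable def statEdges (x : H) (S : Finset ℝ) : Finset ((ℝ × H) × (ℝ × H)) :=
  ((S ×ˢ S).filter (fun p => p.1 < p.2 ∧ ∀ s ∈ S, ¬ (p.1 < s ∧ s < p.2))).image
    (fun p => ((p.1, x), (p.2, x)))

open Classical in
noncomputable def timesOf (x : H) (V : Finset (ℝ × H)) : Finset ℝ :=
  (V.filter (fun v => v.2 = x)).image Prod.fst

open Classical in
noncomputable def edges : TProg H → ℝ → Finset ((ℝ × H) × (ℝ × H))
  | .skip, _ => ∅
  | .seq A B, s => edges A s ∪ edges B (s + A.dur)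
  | .test τ x y, s => {((s + τ, x), (s + 2 * τ, y))}
  | .low _ _ _, _ => ∅
  | .push R τ p x A, s =>
      {((s + τ, p), (s + τ + R, x)),
        ((s + 3 * τ + R + A.dur, x), (s + 3 * τ + 2 * R + A.dur, p))} ∪
        edges A (s + 2 * τ + R) ∪
        statEdges x (insert (s + τ + R) (insert (s + 3 * τ + R + A.dur)
          (timesOf x (verts A (s + 2 * τ + R)))))

open Classical in
noncomputable def fullVerts (A : TProg H) (p0 : H) : Finset (ℝ × H) :=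
  {((0 : ℝ), p0), ((1 : ℝ), p0)} ∪ verts A (1 / 4)

open Classical in
noncomputable def fullEdges (A : TProg H) (p0 : H) : Finset ((ℝ × H) × (ℝ × H)) :=
  edges A (1 / 4) ∪ statEdges p0 (insert 0 (insert 1 (timesOf p0 (verts A (1 / 4)))))

/-- energy inequality along an edge. -/
def EdgeOK [PseudoMetricSpace H] {n : ℕ} (G : ℝ × H → EE n) (h : ℝ × H → ℝ)
    (e : (ℝ × H) × (ℝ × H)) : Prop :=
  dist (G e.1) (G e.2) ^ 2 ≤ dist e.1.2 e.2.2 ^ 2 - (e.2.1 - e.1.1) * (h e.2 - h e.1)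

def LowOK [PseudoMetricSpace H] {n : ℕ} (D α : ℝ) (G : ℝ × H → EE n) (h : ℝ × H → ℝ)
    (v w : ℝ × H) : Prop :=
  (dist v.2 w.2 / D) ^ 2 - (α * (h v - h w)) ^ 2 / 4 ≤ dist (G v) (G w) ^ 2

/-- the embedding of space-time. -/
noncomputable def SS [NormedAddCommGroup H] [InnerProductSpace ℝ H] (α : ℝ) (p0 : H)
    (z : ℝ × H) : WithLp 2 (ℝ × H) :=
  WithLp.toLp 2 (z.1, α • (z.2 - p0))

/-- SOLCOMP: compactness of the game. -/
def SolCompStmt : Prop :=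
  ∀ (n : ℕ) (D : ℝ) (H : Type) [NormedAddCommGroup H] [InnerProductSpace ℝ H] (A : Prog H)
    (p0 : H), WF A {p0} → (∀ ε : ℝ, 0 < ε → ∃ g : H → EE n, Sol n D ε A g) →
    ∃ g : H → EE n, Sol n D 0 A g

/-- CONSEC -/
def ConsecStmt : Prop :=
  ∀ (n : ℕ) (S : Finset ℝ) (G : ℝ → EE n) (h : ℝ → ℝ),
    (∀ t ∈ S, ∀ t' ∈ S, t < t' → (∀ s ∈ S, ¬ (t < s ∧ s < t')) →
      dist (G t) (G t') ^ 2 ≤ -((t' - t) * (h t' - h t))) →
    ∀ t ∈ S, ∀ t' ∈ S, t ≤ t' → dist (G t) (G t') ^ 2 ≤ -((t' - t) * (h t' - h t))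

/-- BLOCK: the block lemma. -/
def BlockStmt : Prop :=
  ∀ (n : ℕ) (D : ℝ), 1 ≤ D → ∀ (H : Type) [NormedAddCommGroup H] [InnerProductSpace ℝ H]
    (A : Prog H) (X : Set H), WF A X →
    ∀ (U κ Lm : ℝ), 0 ≤ U → 0 < κ → κ ≤ 1 / 2 → 0 < Lm →
    ∃ TA : TProg H, TA.erase = A ∧ TA.Pos ∧ TA.dur ≤ Lm ∧ ∃ α0 : ℝ, 0 < α0 ∧
      ∀ α : ℝ, 0 < α → α ≤ α0 → ∀ (s : ℝ) (G : ℝ × H → EE n) (h : ℝ × H → ℝ) (g : H → EE n),
        (∀ e ∈ edges TA s, EdgeOK G h e) →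
        (∀ v ∈ verts TA s, ∀ w ∈ verts TA s, v.1 = w.1 → LowOK D α G h v w) →
        (∀ x ∈ X, ∀ t : ℝ, (t, x) ∈ verts TA s → |h (t, x)| ≤ U ∧ dist (G (t, x)) (g x) ≤ κ) →
        Sol n D (3 * κ) A g

/-- PROJ -/
def ProjStmt : Prop :=
  ∀ (n : ℕ) (w : EE (n + 1)), ‖w‖ = 1 → ∃ π : EE (n + 1) →ₗ[ℝ] EE n,
    ∀ x, ‖x‖ ^ 2 = (inner ℝ x w : ℝ) ^ 2 + ‖π x‖ ^ 2

/-- FTOGH: from an almost extremal map to energy data. -/
def FtoGhStmt : Prop :=
  ∀ (n : ℕ) (D : ℝ), 1 ≤ D → ∀ (H : Type) [NormedAddCommGroup H] [InnerProductSpace ℝ H]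
    (p0 : H) (α : ℝ), 0 < α → ∀ (V : Finset (ℝ × H)) (E : Finset ((ℝ × H) × (ℝ × H))),
    (∀ e ∈ E, e.1.1 < e.2.1) →
    ∀ f : WithLp 2 (ℝ × H) → EE (n + 1),
      (∀ v ∈ V, ∀ w ∈ V, dist (SS α p0 v) (SS α p0 w) ≤ D * dist (f (SS α p0 v)) (f (SS α p0 w))) →
      (∀ e ∈ E, dist (f (SS α p0 e.1)) (f (SS α p0 e.2)) ≤ dist (SS α p0 e.1) (SS α p0 e.2)) →
      1 ≤ dist (f (SS α p0 (0, p0))) (f (SS α p0 (1, p0))) →
      ∃ (G : ℝ × H → EE n) (h : ℝ × H → ℝ), (∀ e ∈ E, EdgeOK G h e) ∧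
        (∀ v ∈ V, ∀ w ∈ V, v.1 = w.1 → LowOK D α G h v w) ∧
        h (0, p0) = 0 ∧ 0 ≤ h (1, p0)

/-! geometry of timed programs -/

/-- GEOBASIC -/
def GeoBasicStmt : Prop :=
  ∀ (H : Type) (TA : TProg H), TA.Pos → ∀ s : ℝ,
    0 ≤ TA.dur ∧
    (∀ v ∈ verts TA s, s < v.1 ∧ v.1 < s + TA.dur) ∧
    (∀ e ∈ edges TA s, e.1 ∈ verts TA s ∧ e.2 ∈ verts TA s ∧ e.1.1 < e.2.1) ∧
    (∀ t : ℝ, ∀ T : Finset (ℝ × H), T ⊆ verts TA s → (∀ v ∈ T, v.1 = t) → T.card ≤ 2)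

/-- GEOSEP -/
def GeoSepStmt : Prop :=
  ∀ (H : Type) [NormedAddCommGroup H] [InnerProductSpace ℝ H] (TA : TProg H) (p0 : H),
    TA.Pos → TA.dur ≤ 1 / 2 →
    ∀ e ∈ fullEdges TA p0, ∀ v ∈ fullVerts TA p0, v ∈ segment ℝ e.1 e.2 → v = e.1 ∨ v = e.2

/-- GEOEMB -/
def GeoEmbStmt : Prop :=
  ∀ (H : Type) [NormedAddCommGroup H] [InnerProductSpace ℝ H] (TA : TProg H) (p0 : H),
    TA.Pos → TA.dur ≤ 1 / 2 → WF TA.erase {p0} →
    ∀ e ∈ fullEdges TA p0, ∀ e' ∈ fullEdges TA p0, e ≠ e' →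
      ∀ z ∈ segment ℝ e.1 e.2, z ∈ segment ℝ e'.1 e'.2 → z ∈ fullVerts TA p0

/-- GEOCONN -/
def GeoConnStmt : Prop :=
  ∀ (H : Type) [NormedAddCommGroup H] [InnerProductSpace ℝ H] (TA : TProg H) (p0 : H),
    TA.Pos → TA.dur ≤ 1 / 2 → WF TA.erase {p0} →
    ∀ v ∈ fullVerts TA p0,
      Relation.ReflTransGen (fun x y => (x, y) ∈ fullEdges TA p0 ∨ (y, x) ∈ fullEdges TA p0)
        ((0 : ℝ), p0) v

/-- time slices covered by alive sets satisfying `Q` plus one moving particle. -/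
inductive Cov [AddCommGroup H] [Module ℝ H] (Q : Set H → Prop) (G : Set (ℝ × H)) :
    ℝ → ℝ → Prop
  | nil (t : ℝ) : Cov Q G t t
  | cons (t1 t2 t3 : ℝ) (C : Set H) (m : (ℝ × H) × (ℝ × H)) : t1 < t2 → Q C →
      (∀ z ∈ G, t1 ≤ z.1 → z.1 ≤ t2 → z.2 ∈ C ∨ z ∈ segment ℝ m.1 m.2) →
      Cov Q G t2 t3 → Cov Q G t1 t3

/-- GEOCOV -/
def GeoCovStmt : Prop :=
  ∀ (H : Type) [NormedAddCommGroup H] [InnerProductSpace ℝ H] (Q : Set H → Prop)
    (TA : TProg H) (p0 : H), TA.Pos → TA.dur ≤ 1 / 2 → WF TA.erase {p0} → Q {p0} →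
    AllC Q TA.erase {p0} → Cov Q (edgeUnion (fullEdges TA p0)) 0 1

/-- PACKV -/
def PackVStmt : Prop :=
  ∀ (H : Type) [NormedAddCommGroup H] [InnerProductSpace ℝ H] (p0 : H) (V : Finset (ℝ × H)),
    (∀ t : ℝ, ∀ T : Finset (ℝ × H), T ⊆ V → (∀ v ∈ T, v.1 = t) → T.card ≤ 2) →
    ∃ α0 : ℝ, 0 < α0 ∧ ∀ α : ℝ, 0 < α → α ≤ α0 → Pack (SS α p0 '' (V : Set (ℝ × H))) 5

/-- PACKG -/
def PackGStmt : Prop :=
  ∀ (H : Type) [NormedAddCommGroup H] [InnerProductSpace ℝ H] (p0 : H) (G : Set (ℝ × H)) (Y : ℝ),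
    (∀ z ∈ G, 0 ≤ z.1 ∧ z.1 ≤ 1 ∧ dist z.2 p0 ≤ Y) → Cov (fun X => Pack X 15) G 0 1 →
    ∃ α0 : ℝ, 0 < α0 ∧ ∀ α : ℝ, 0 < α → α ≤ α0 → Pack (SS α p0 '' G) 10000

/-! ### Strategy -/

/-- OBSCOMP: quantitative form of `noemb`. -/
def ObsCompStmt : Prop :=
  ∀ (n : ℕ) (D : ℝ), 1 ≤ D → ∀ (H : Type) [NormedAddCommGroup H] [InnerProductSpace ℝ H]
    (V : Finset H) (E : Finset (H × H)) (a b : H), IsObs n D V E a b →
    ∃ η : ℝ, 0 < η ∧ ∀ (f : H → EE n) (σ : ℝ), 0 < σ → σ ≤ 1 →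
      (∀ x ∈ V, ∀ y ∈ V, dist x y ≤ D * dist (f x) (f y)) → σ ≤ dist (f a) (f b) →
      ∃ e ∈ E, (1 + η) * σ * dist e.1 e.2 < dist (f e.1) (f e.2)

/-- a family of similarities. -/
def SimFam [NormedAddCommGroup H] [InnerProductSpace ℝ H] (a b : H) (φ : H → H → (H →ᵃ[ℝ] H)) :
    Prop :=
  ∀ p q : H, p ≠ q → φ p q a = p ∧ φ p q b = q ∧
    ∀ x y, dist (φ p q x) (φ p q y) = dist p q * dist x y

/-- SIM -/
def SimStmt : Prop :=
  ∀ (H : Type) [NormedAddCommGroup H] [InnerProductSpace ℝ H] (a b : H), dist a b = 1 →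
    ∃ φ : H → H → (H →ᵃ[ℝ] H), SimFam a b φ

def pushAll (p : H) : List H → Prog H → Prog H
  | [], A => A
  | x :: l, A => .push p x (pushAll p l A)

def seqAll : List (Prog H) → Prog H
  | [] => .skip
  | A :: l => .seq A (seqAll l)

/-- subdivision point number `i` of `b`. -/
noncomputable def sub [AddCommGroup H] [Module ℝ H] (b : ℕ) (z z' : H) (i : ℕ) : H :=
  AffineMap.lineMap z z' ((i : ℝ) / (b : ℝ))

/-- interior subdivision points, the farthest from `z` first. -/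
noncomputable def subList [AddCommGroup H] [Module ℝ H] (b : ℕ) (z z' : H) : List H :=
  ((List.range (b - 1)).map (fun i => sub b z z' (b - 1 - i)))

/-- program of an edge: subdivide, then run `P` on every piece. -/
noncomputable def edgeProg [AddCommGroup H] [Module ℝ H] (b : ℕ) (P : H → H → Prog H)
    (z z' : H) : Prog H :=
  pushAll z (subList b z z')
    (seqAll ((List.range b).map (fun i => P (sub b z z' i) (sub b z z' (i + 1)))))

open Classical in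
/-- all ordered pairs of distinct elements of a list. -/
noncomputable def lowAll (l : List H) : Prog H :=
  seqAll (((l ×ˢ l).filter (fun p => p.1 ≠ p.2)).map (fun p => .low p.1 p.2))

/-- node program. `L` lists `V \ {a,b}`, sorted by decreasing distance to `a`; `LE` lists `E`. -/
noncomputable def nodeProg [NormedAddCommGroup H] [InnerProductSpace ℝ H] (a b : H) (L : List H)
    (LE : List (H × H)) (φ : H → H → (H →ᵃ[ℝ] H)) (B : ℕ) : ℕ → H → H → Prog H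
  | 0, p, q => .test p q
  | k + 1, p, q =>
      .seq (.test p q)
        (pushAll p (L.map (φ p q))
          (.seq (lowAll ((a :: b :: L).map (φ p q)))
            (seqAll (LE.map (fun e =>
              edgeProg B (nodeProg a b L LE φ B k) (φ p q e.1) (φ p q e.2))))))

/-- the lists used for an obstruction. -/
structure GoodLists [NormedAddCommGroup H] [InnerProductSpace ℝ H] (V : Finset H)
    (E : Finset (H × H)) (a b : H) (L : List H) (LE : List (H × H)) : Prop where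
  mem : ∀ x, x ∈ L ↔ x ∈ V ∧ x ≠ a ∧ x ≠ b
  nodup : L.Nodup
  sorted : L.Pairwise (fun x y => dist a y ≤ dist a x)
  memE : ∀ e, e ∈ LE ↔ e ∈ E

/-- isolation of a pair inside the alive set. -/
def Iso [NormedAddCommGroup H] [InnerProductSpace ℝ H] (X : Set H) (p q : H) : Prop :=
  p ≠ q ∧ p ∈ X ∧ q ∈ X ∧
    ∀ y ∈ X, y ≠ p → y ≠ q → ∀ w ∈ segment ℝ p q, dist p q / 2 ≤ dist y w

/-- WIN -/
def WinStmt : Prop :=
  ∀ (n : ℕ) (D : ℝ), 1 ≤ D → ∀ (H : Type) [NormedAddCommGroup H] [InnerProductSpace ℝ H]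
    (V : Finset H) (E : Finset (H × H)) (a b : H), IsObs n D V E a b →
    ∀ (L : List H) (LE : List (H × H)), GoodLists V E a b L LE →
    ∀ φ, SimFam a b φ → ∃ K : ℕ, ∀ B : ℕ, 1 ≤ B →
      ¬ ∃ g : H → EE n, Sol n D 0
        (.push a b (.seq (.low a b) (nodeProg a b L LE φ B K a b))) g

/-- NODEWF -/
def NodeWFStmt : Prop :=
  ∀ (n : ℕ) (D : ℝ), 1 ≤ D → ∀ (H : Type) [NormedAddCommGroup H] [InnerProductSpace ℝ H]
    (V : Finset H) (E : Finset (H × H)) (a b : H), IsObs n D V E a b →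
    ∀ (L : List H) (LE : List (H × H)), GoodLists V E a b L LE →
    ∀ φ, SimFam a b φ → ∃ B0 : ℕ, ∀ B : ℕ, B0 ≤ B → ∀ (k : ℕ) (X : Set H) (p q : H),
      Iso X p q → WF (nodeProg a b L LE φ B k p q) X

/-- chain sets below the node `(p,q)`. -/
inductive CH [NormedAddCommGroup H] [InnerProductSpace ℝ H] (V : Finset H)
    (E : Finset (H × H)) (φ : H → H → (H →ᵃ[ℝ] H)) (B : ℕ) : ℕ → H → H → Set H → Prop
  | zero (p q : H) (Y : Set H) : Y ⊆ {p, q} → CH V E φ B 0 p q Y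
  | vert (k : ℕ) (p q : H) (Y : Set H) : Y ⊆ φ p q '' (V : Set H) → CH V E φ B (k + 1) p q Y
  | step (k : ℕ) (p q : H) (e : H × H) (i : ℕ) (Y' Y : Set H) : e ∈ E → i < B →
      CH V E φ B k (sub B (φ p q e.1) (φ p q e.2) i) (sub B (φ p q e.1) (φ p q e.2) (i + 1)) Y' →
      Y ⊆ φ p q '' (V : Set H) ∪ {u | ∃ j ≤ B, u = sub B (φ p q e.1) (φ p q e.2) j} ∪ Y' →
      CH V E φ B (k + 1) p q Y

/-- NODEALLC: alive sets of the node program are `X ∪ Y` with `Y` a chain set. -/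
def NodeAllCStmt : Prop :=
  ∀ (H : Type) [NormedAddCommGroup H] [InnerProductSpace ℝ H]
    (V : Finset H) (E : Finset (H × H)) (a b : H) (L : List H) (LE : List (H × H)),
    GoodLists V E a b L LE → a ∈ V → b ∈ V → (∀ e ∈ E, e.1 ∈ V ∧ e.2 ∈ V) →
    ∀ φ, SimFam a b φ → ∀ B : ℕ, 1 ≤ B → ∀ (Q : Set H → Prop) (k : ℕ) (X : Set H) (p q : H),
      (∀ Y, CH V E φ B k p q Y → Q (X ∪ Y)) → AllC Q (nodeProg a b L LE φ B k p q) X

/-- PACKCH -/
def PackCHStmt : Prop :=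
  ∀ (n : ℕ) (D : ℝ), 1 ≤ D → ∀ (H : Type) [NormedAddCommGroup H] [InnerProductSpace ℝ H]
    (V : Finset H) (E : Finset (H × H)) (a b : H), IsObs n D V E a b →
    ∀ φ, SimFam a b φ → ∃ B0 : ℕ, ∀ B : ℕ, B0 ≤ B → ∀ (k : ℕ) (p q : H) (Y : Set H), p ≠ q →
      CH V E φ B k p q Y → Pack Y 15

/-! ### Final -/

/-- pieces of the edges (normalised coordinates, `dist a b = 1`). `ed` assigns to each piece its
edge. -/
structure IsPieces [NormedAddCommGroup H] [InnerProductSpace ℝ H]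
    (N : ℕ) (D : ℝ) (V : Finset H) (E : Finset (H × H)) (a b : H)
    (P : Finset (H × H)) (ed : H × H → H × H) (δ η : ℝ) : Prop where
  hδ : 0 < δ
  hδ' : δ ≤ 1 / 10000
  hη : 0 < η
  len : ∀ v ∈ P, δ / 2 ≤ dist v.1 v.2 ∧ dist v.1 v.2 ≤ δ
  edmem : ∀ v ∈ P, ed v ∈ E ∧ v.1 ∈ segment ℝ (ed v).1 (ed v).2 ∧ v.2 ∈ segment ℝ (ed v).1 (ed v).2
  far : ∀ v ∈ P, ∀ v' ∈ P, ed v ≠ ed v' → ∀ x ∈ segment ℝ v.1 v.2, ∀ y ∈ segment ℝ v'.1 v'.2,
    100 * δ ≤ dist x y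
  near : ∀ v ∈ P, ∀ v' ∈ P, ed v = ed v' → v ≠ v' →
    (v.2 = v'.1 ∧ v'.2 - v'.1 = v.2 - v.1) ∨ (v'.2 = v.1 ∧ v'.2 - v'.1 = v.2 - v.1) ∨
    (∀ x ∈ segment ℝ v.1 v.2, ∀ y ∈ segment ℝ v'.1 v'.2, δ / 2 ≤ dist x y)
  farV : ∀ v ∈ P, ∀ w ∈ V, ∀ x ∈ segment ℝ v.1 v.2, 100 * δ ≤ dist x w
  farVV : ∀ w ∈ V, ∀ w' ∈ V, w ≠ w' → 100 * δ ≤ dist w w'
  slab : ∀ v ∈ P, ∀ x ∈ segment ℝ v.1 v.2, 100 * δ ≤ (inner ℝ (x - a) (b - a) : ℝ) ∧
    (inner ℝ (x - a) (b - a) : ℝ) ≤ 1 - 100 * δ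
  imp : ∀ f : H → EE N,
    (∀ x, (x ∈ V ∨ ∃ v ∈ P, x = v.1 ∨ x = v.2) → ∀ y, (y ∈ V ∨ ∃ v ∈ P, y = v.1 ∨ y = v.2) →
      dist x y ≤ D * dist (f x) (f y) ∧ dist (f x) (f y) ≤ dist x y) →
    ∃ v ∈ P, (1 + η) * dist (f a) (f b) * dist v.1 v.2 ≤ dist (f v.1) (f v.2)

/-- PIECES -/
def PiecesStmt : Prop :=
  ∀ (N : ℕ) (D : ℝ), 1 ≤ D → ∀ (H : Type) [NormedAddCommGroup H] [InnerProductSpace ℝ H]
    (V : Finset H) (E : Finset (H × H)) (a b : H), IsObs N D V E a b →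
    ∃ (P : Finset (H × H)) (ed : H × H → H × H) (δ η : ℝ), IsPieces N D V E a b P ed δ η

open Classical in
/-- the final set. -/
noncomputable def finSet [NormedAddCommGroup H] [InnerProductSpace ℝ H] (V : Finset H)
    (P : Finset (H × H)) (φ : H → H → (H →ᵃ[ℝ] H)) : ℕ → H → H → Finset H
  | 0, p, q => {p, q}
  | k + 1, p, q => V.image (φ p q) ∪
      P.biUnion (fun v => finSet V P φ k (φ p q v.1) (φ p q v.2))

/-- FINNE: improvement along the final set. -/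
def FinNEStmt : Prop :=
  ∀ (N : ℕ) (D : ℝ), 1 ≤ D → ∀ (H : Type) [NormedAddCommGroup H] [InnerProductSpace ℝ H]
    (V : Finset H) (E : Finset (H × H)) (a b : H), IsObs N D V E a b →
    ∀ (P : Finset (H × H)) (ed : H × H → H × H) (δ η : ℝ), IsPieces N D V E a b P ed δ η →
    ∀ φ, SimFam a b φ → ∀ (k : ℕ) (p q : H), p ≠ q → ∀ f : H → EE N,
      (∀ x ∈ finSet V P φ k p q, ∀ y ∈ finSet V P φ k p q,
        dist x y ≤ D * dist (f x) (f y) ∧ dist (f x) (f y) ≤ dist x y) →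
      (1 + η) ^ k * dist (f p) (f q) ≤ dist p q

/-- FINPACK -/
def FinPackStmt : Prop :=
  ∃ m : ℕ, ∀ (N : ℕ) (D : ℝ), 1 ≤ D → ∀ (H : Type) [NormedAddCommGroup H]
    [InnerProductSpace ℝ H]
    (V : Finset H) (E : Finset (H × H)) (a b : H), IsObs N D V E a b →
    ∀ (P : Finset (H × H)) (ed : H × H → H × H) (δ η : ℝ), IsPieces N D V E a b P ed δ η →
    ∀ φ, SimFam a b φ → ∀ (k : ℕ) (p q : H), p ≠ q → Pack (finSet V P φ k p q : Set H) m

/-- LINELIKE: an `r`-separated set inside a ball of radius `2r` and within `r/8` of a line has at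
most 5 points. -/
def LineLikeStmt : Prop :=
  ∀ (H : Type) [NormedAddCommGroup H] [InnerProductSpace ℝ H] (p d x : H) (r : ℝ) (T : Finset H),
    ‖d‖ = 1 → 0 < r → (∀ y ∈ T, dist y x ≤ 2 * r) → (∀ y ∈ T, ∀ z ∈ T, y ≠ z → r < dist y z) →
    (∀ y ∈ T, ∃ t : ℝ, dist y (p + t • d) ≤ r / 8) → T.card ≤ 5

end Crest.Agent.R254
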