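import Crest.Agent.R254.Core

/-!
Row 254 (S0392): the final induction: Catalogue + Strategy + Final imply the core statement.
-/

set_option autoImplicit false

namespace Crest.Agent.R254

namespace CoreFinal

theorem pack_mono {H : Type*} [PseudoMetricSpace H] {S S' : Set H} {m m' : ℕ} (h : Pack S m)
    (hS : S' ⊆ S) (hm : m ≤ m') : Pack S' m' := by
  intro x r hr T hT h1 h2
  exact (h x r hr T (hT.trans hS) h1 h2).trans hm

theorem pack_finset {H : Type*} [PseudoMetricSpace H] (A : Finset H) (m : ℕ) (h : A.card ≤ m) :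
    Pack (A : Set H) m := by
  intro x r hr T hT h1 h2
  exact (Finset.card_le_card (by exact_mod_cast hT)).trans h

/-- won programs for `ℝ^n`. -/
def PWon (n : ℕ) (D : ℝ) : Prop :=
  ∃ (H : Type) (_ : NormedAddCommGroup H) (_ : InnerProductSpace ℝ H) (_ : FiniteDimensional ℝ H)
    (A : Prog H) (p0 : H), WF A {p0} ∧ AllC (fun X => Pack X 15) A {p0} ∧
      ¬ ∃ g : H → EE n, Sol n D 0 A g

theorem pwon_zero (D : ℝ) (hD : 1 ≤ D) : PWon 0 D := by
  refine ⟨ℝ, inferInstance, inferInstance, inferInstance, .push 0 1 (.low 0 1), 0, ?_, ?_, ?_⟩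
  · refine ⟨rfl, by simp, ?_, ?_⟩
    · intro z hz _
      exact hz
    · refine ⟨by simp, by simp, by norm_num⟩
  · refine ⟨?_, ?_⟩
    · have := pack_finset ({0} : Finset ℝ) 15 (by simp)
      simpa using this
    · have := pack_finset ({1, 0} : Finset ℝ) 15 (by
        refine (Finset.card_insert_le _ _).trans ?_
        simp)
      simpa [AllC] using this
  · rintro ⟨g, v, _, hl⟩
    have h0 : ∀ x y : EE 0, dist x y = 0 := by
      intro x y
      rw [Subsingleton.elim x y, dist_self]
    simp only [Sol] at hl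
    rw [h0] at hl
    have : (0 : ℝ) < dist (0 : ℝ) 1 / D := by
      apply div_pos
      · norm_num
      · linarith
    linarith

theorem pwon_succ (h1 : CatalogStmt) (h2 : StrategyStmt) (n : ℕ) (D : ℝ) (hD : 1 ≤ D)
    (h : PWon n D) : PWon (n + 1) D := by
  obtain ⟨H, i1, i2, i3, A, p0, hw, ha, hs⟩ := h
  obtain ⟨V, E, a, b, hobs⟩ := h1 n D hD H A p0 hw ha hs
  obtain ⟨A', p0', hw', ha', hs'⟩ := h2 (n + 1) D hD _ V E a b hobs
  exact ⟨WithLp 2 (ℝ × H), inferInstance, inferInstance, inferInstance, A', p0', hw', ha', hs'⟩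

theorem pwon (h1 : CatalogStmt) (h2 : StrategyStmt) (D : ℝ) (hD : 1 ≤ D) (n : ℕ) : PWon n D := by
  induction n with
  | zero => exact pwon_zero D hD
  | succ n ih => exact pwon_succ h1 h2 n D hD ih

/-- transfer of the final set to `EE d`. -/
theorem transfer {H : Type} [NormedAddCommGroup H] [InnerProductSpace ℝ H]
    [FiniteDimensional ℝ H] (N m : ℕ) (D : ℝ) (A : Finset H) (hne : A.Nonempty)
    (hp : Pack (A : Set H) m)
    (hf : ¬ ∃ f : H → EE N, ∀ x ∈ A, ∀ y ∈ A,
        dist x y ≤ D * dist (f x) (f y) ∧ dist (f x) (f y) ≤ dist x y) :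
    ∃ (d : ℕ) (A : Finset (EE d)),
    A.Nonempty ∧ Pack (A : Set (EE d)) m ∧
    ¬ ∃ f : EE d → EE N, ∀ x ∈ A, ∀ y ∈ A,
      dist x y ≤ D * dist (f x) (f y) ∧ dist (f x) (f y) ≤ dist x y := by
  classical
  let e := (stdOrthonormalBasis ℝ H).repr
  refine ⟨Module.finrank ℝ H, A.image e, hne.image _, ?_, ?_⟩
  · intro x r hr T hT h1 h2
    have hcard : (T.image e.symm).card = T.card :=
      Finset.card_image_of_injective _ e.symm.injective
    rw [← hcard]
    apply hp (e.symm x) r hr
    · intro y hy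
      simp only [Finset.coe_image, Set.mem_image, Finset.mem_coe] at hy
      obtain ⟨z, hz, rfl⟩ := hy
      have := hT hz
      simp only [Finset.coe_image, Set.mem_image, Finset.mem_coe] at this
      obtain ⟨w, hw, rfl⟩ := this
      simpa using hw
    · intro y hy
      simp only [Finset.mem_image] at hy
      obtain ⟨z, hz, rfl⟩ := hy
      rw [e.symm.dist_map]
      exact h1 z hz
    · intro y hy z hz hyz
      simp only [Finset.mem_image] at hy hz
      obtain ⟨y', hy', rfl⟩ := hy
      obtain ⟨z', hz', rfl⟩ := hz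
      rw [e.symm.dist_map]
      exact h2 y' hy' z' hz' (fun h => hyz (by rw [h]))
  · rintro ⟨f, hf'⟩
    apply hf
    refine ⟨fun x => f (e x), ?_⟩
    intro x hx y hy
    have := hf' (e x) (Finset.mem_image_of_mem _ hx) (e y) (Finset.mem_image_of_mem _ hy)
    rw [e.dist_map] at this
    exact this

end CoreFinal

open CoreFinal in
theorem core (h1 : CatalogStmt) (h2 : StrategyStmt) (h3 : FinalStmt) : CoreStmt := by
  obtain ⟨m, hm⟩ := h3
  refine ⟨max m 2, ?_⟩
  intro N D hD
  rcases N with _ | N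
  · classical
    refine ⟨1, {0, EuclideanSpace.single 0 1}, ⟨0, by simp⟩, ?_, ?_⟩
    · apply pack_finset
      refine (Finset.card_insert_le _ _).trans ?_
      simp
    · rintro ⟨f, hf⟩
      have h0 : ∀ x y : EE 0, dist x y = 0 := by
        intro x y
        rw [Subsingleton.elim x y, dist_self]
      have := (hf 0 (by simp) (EuclideanSpace.single 0 1) (by simp)).1
      rw [h0, mul_zero] at this
      have h1 : dist (0 : EE 1) (EuclideanSpace.single 0 1) = 1 := by
        rw [dist_eq_norm]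
        simp
      linarith
  · obtain ⟨H, i1, i2, i3, A, p0, hw, ha, hs⟩ := pwon h1 h2 D hD N
    obtain ⟨V, E, a, b, hobs⟩ := h1 N D hD H A p0 hw ha hs
    obtain ⟨S, hS1, hS2, hS3⟩ := hm (N + 1) D hD _ V E a b hobs
    exact transfer (N + 1) (max m 2) D S hS1 (pack_mono hS2 subset_rfl (le_max_left _ _)) hS3

end Crest.Agent.R254
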