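import Crest.Agent.R254.Defs

/-! Row 254, task DR: Dvoretzky–Rogers from the maximal determinant map. -/

set_option autoImplicit false

open MeasureTheory

namespace Crest.Agent.R254

universe u

namespace DR

theorem orthonormal_snoc {n j : ℕ} (e : Fin j → EE n) (he : Orthonormal ℝ e) (e' : EE n)
    (h1 : ‖e'‖ = 1) (h2 : e' ∈ (Submodule.span ℝ (Set.range e))ᗮ) :
    Orthonormal ℝ (Fin.snoc e e' : Fin (j + 1) → EE n) := by
  have h3 : ∀ i : Fin j, inner ℝ (e i) e' = 0 := by
    intro i
    exact (Submodule.mem_orthogonal _ _).mp h2 (e i) (Submodule.subset_span ⟨i, rfl⟩)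
  have h4 : ∀ i : Fin j, inner ℝ e' (e i) = 0 := by
    intro i
    rw [real_inner_comm]
    exact h3 i
  constructor
  · intro i
    induction i using Fin.lastCases with
    | last => simpa using h1
    | cast i => simpa using he.1 i
  · intro a b hab
    induction a using Fin.lastCases with
    | last =>
      induction b using Fin.lastCases with
      | last => exact absurd rfl hab
      | cast b => simpa using h4 b
    | cast a =>
      induction b using Fin.lastCases with
      | last => simpa using h3 a
      | cast b =>
        have hne : a ≠ b := fun h => hab (by rw [h])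
        simpa using he.2 hne

end DR

open DR in
theorem dr (h : DetStmt.{u}) : DRStmt.{u} := by
  intro B _ _ hB M
  rcases Nat.eq_zero_or_pos M with hM | hM
  · subst hM
    exact ⟨0, fun x => by simp, fun i => i.elim0⟩
  -- a subspace of dimension 2M
  have hrank : ((2 * M : ℕ) : Cardinal) ≤ Module.rank ℝ B := by
    have h1 : Cardinal.aleph0 ≤ Module.rank ℝ B := by
      by_contra hcon
      push Not at hcon
      exact hB (Module.rank_lt_aleph0_iff.mp hcon)
    exact (Cardinal.natCast_lt_aleph0).le.trans h1
  obtain ⟨f, hf⟩ := exists_linearIndependent_of_le_rank hrank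
  set F : Submodule ℝ B := Submodule.span ℝ (Set.range f) with hF
  have hFr : Module.finrank ℝ F = 2 * M := by
    rw [hF, finrank_span_eq_card hf, Fintype.card_fin]
  have : FiniteDimensional ℝ F := FiniteDimensional.span_of_finite ℝ (Set.finite_range f)
  obtain ⟨w, hw, hW⟩ := h (2 * M) (by omega) F hFr
  -- orthonormal family
  have hfam : ∀ j : ℕ, j ≤ M → ∃ e : Fin j → EE (2 * M), Orthonormal ℝ e ∧
      ∀ i, 1 / 2 ≤ ‖w (e i)‖ := by
    intro j
    induction j with
    | zero =>
      intro _
      exact ⟨fun i => i.elim0, ⟨fun i => i.elim0, fun i => i.elim0⟩, fun i => i.elim0⟩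
    | succ j ih =>
      intro hj
      obtain ⟨e, he, hew⟩ := ih (by omega)
      set U : Submodule ℝ (EE (2 * M)) := Submodule.span ℝ (Set.range e) with hU
      have hUr : Module.finrank ℝ U = j := by
        rw [hU, finrank_span_eq_card he.linearIndependent, Fintype.card_fin]
      have hsum := Submodule.finrank_add_finrank_orthogonal U
      rw [hUr, finrank_euclideanSpace, Fintype.card_fin] at hsum
      have hne : Uᗮ ≠ ⊥ := by
        intro hbot
        rw [hbot] at hsum
        simp at hsum
        omega
      obtain ⟨e', he'U, he'n, he'w⟩ := hW Uᗮ hne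
      refine ⟨Fin.snoc e e', orthonormal_snoc e he e' he'n he'U, fun i => ?_⟩
      induction i using Fin.lastCases with
      | last =>
        simp only [Fin.snoc_last]
        refine le_trans ?_ he'w
        have h1 : (Module.finrank ℝ Uᗮ : ℝ) = 2 * M - j := by
          have : ((j + Module.finrank ℝ Uᗮ : ℕ) : ℝ) = ((2 * M : ℕ) : ℝ) := by
            exact_mod_cast hsum
          push_cast at this
          linarith
        rw [h1]
        have hM' : (0 : ℝ) < M := by exact_mod_cast hM
        have hj' : (j : ℝ) + 1 ≤ M := by exact_mod_cast hj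
        push_cast
        rw [le_div_iff₀ (by positivity)]
        linarith
      | cast i => simpa using hew i
  obtain ⟨e, he, hew⟩ := hfam M le_rfl
  set bb := (EuclideanSpace.basisFun (Fin M) ℝ).toBasis with hbb
  have hbbo : Orthonormal ℝ bb := by
    rw [hbb, OrthonormalBasis.coe_toBasis]
    exact (EuclideanSpace.basisFun (Fin M) ℝ).orthonormal
  have hcomp : (bb.constr ℝ e) ∘ bb = e := by
    funext i
    simp
  set L : EE M →ₗᵢ[ℝ] EE (2 * M) :=
    (bb.constr ℝ e).isometryOfOrthonormal hbbo (by rw [hcomp]; exact he) with hL
  refine ⟨F.subtype ∘ₗ w ∘ₗ L.toLinearMap, fun x => ?_, fun i => ?_⟩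
  · simp only [LinearMap.comp_apply, Submodule.subtype_apply, LinearIsometry.coe_toLinearMap]
    calc ‖((w (L x) : F) : B)‖ = ‖w (L x)‖ := rfl
      _ ≤ ‖L x‖ := hw _
      _ = ‖x‖ := L.norm_map x
  · simp only [LinearMap.comp_apply, Submodule.subtype_apply, LinearIsometry.coe_toLinearMap]
    have h1 : L (EuclideanSpace.single i 1) = e i := by
      have h2 : (EuclideanSpace.single i 1 : EE M) = bb i := by
        rw [hbb]
        simp
      rw [h2, hL, LinearMap.coe_isometryOfOrthonormal]
      exact congrFun hcomp i
    rw [h1]
    exact hew i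

end Crest.Agent.R254
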