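import Mathlib
import Crest.Prelude.Def_Doubling

/-!
Row 254 (S0392): interface, parts I (Dvoretzky), II (gluing) and the statement of the core.
-/

set_option autoImplicit false

open MeasureTheory ProbabilityTheory

namespace Crest.Agent.R254

universe u v

abbrev EE (n : ℕ) := EuclideanSpace ℝ (Fin n)

/-- `Pack S m`: every `r`-separated (strictly) finite subset of `S` contained in a closed ball of
radius `2 r` (arbitrary centre in the ambient space) has at most `m` points. -/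
def Pack {H : Type*} [PseudoMetricSpace H] (S : Set H) (m : ℕ) : Prop :=
  ∀ (x : H) (r : ℝ), 0 < r → ∀ T : Finset H, (T : Set H) ⊆ S →
    (∀ y ∈ T, dist y x ≤ 2 * r) → (∀ y ∈ T, ∀ z ∈ T, y ≠ z → r < dist y z) → T.card ≤ m

/-- iterated packing: ball radius `2 ^ j * r`, separation `r`. -/
def PackIterStmt : Prop :=
  ∀ (H : Type u) [PseudoMetricSpace H] (S : Set H) (m j : ℕ), 1 ≤ m → 1 ≤ j → Pack S m →
    ∀ (x : H) (r : ℝ), 0 < r → ∀ T : Finset H, (T : Set H) ⊆ S →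
      (∀ y ∈ T, dist y x ≤ 2 ^ j * r) → (∀ y ∈ T, ∀ z ∈ T, y ≠ z → r < dist y z) →
      T.card ≤ m ^ j

/-! ### Part I: Dvoretzky's theorem (isomorphic form, constant 2) -/

/-- maximal determinant map. -/
def DetStmt : Prop :=
  ∀ (m : ℕ), 1 ≤ m → ∀ (F : Type u) [NormedAddCommGroup F] [NormedSpace ℝ F]
    [FiniteDimensional ℝ F], Module.finrank ℝ F = m →
    ∃ w : EE m →ₗ[ℝ] F, (∀ x, ‖w x‖ ≤ ‖x‖) ∧
      ∀ W : Submodule ℝ (EE m), W ≠ ⊥ →
        ∃ e ∈ W, ‖e‖ = 1 ∧ (Module.finrank ℝ W : ℝ) / m ≤ ‖w e‖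

/-- Dvoretzky–Rogers. -/
def DRStmt : Prop :=
  ∀ (B : Type u) [NormedAddCommGroup B] [NormedSpace ℝ B], ¬ FiniteDimensional ℝ B →
    ∀ M : ℕ, ∃ w : EE M →ₗ[ℝ] B, (∀ x, ‖w x‖ ≤ ‖x‖) ∧
      ∀ i : Fin M, 1 / 2 ≤ ‖w (EuclideanSpace.single i 1)‖

/-- Variance bound for seminorms dominated by the Euclidean norm, in two-sample form. -/
def VarStmt : Prop :=
  ∀ (M : ℕ) (N : Seminorm ℝ (EE M)), (∀ x, N x ≤ ‖x‖) →
    Var[fun x => N x; stdGaussian (EE M)] ≤ 3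

/-- Law of a normalised linear combination of independent standard Gaussian vectors. -/
def LawStmt : Prop :=
  ∀ (d M : ℕ) (a : EE d), ‖a‖ = 1 →
    (Measure.pi (fun _ : Fin d => stdGaussian (EE M))).map (fun G => ∑ j, a j • G j)
      = stdGaussian (EE M)

/-- The mean tends to infinity. -/
def MeanStmt : Prop :=
  ∀ R : ℝ, ∃ M : ℕ, ∀ N : Seminorm ℝ (EE M), (∀ x, N x ≤ ‖x‖) →
    (∀ i : Fin M, 1 / 2 ≤ N (EuclideanSpace.single i 1)) → R ≤ ∫ x, N x ∂(stdGaussian (EE M))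

/-- Dvoretzky's theorem with constant 2. -/
def DvorStmt : Prop :=
  ∀ (B : Type u) [NormedAddCommGroup B] [NormedSpace ℝ B], ¬ FiniteDimensional ℝ B →
    ∀ d : ℕ, ∃ T : EE d →ₗ[ℝ] B, ∀ x, ‖x‖ ≤ ‖T x‖ ∧ ‖T x‖ ≤ 2 * ‖x‖

/-! ### Part II: gluing -/

/-- The core statement: finite sets in Euclidean spaces, universal packing constant, which do not
embed in `ℝ^N` with distortion `D`. -/
def CoreStmt : Prop :=
  ∃ m : ℕ, ∀ (N : ℕ) (D : ℝ), 1 ≤ D → ∃ (d : ℕ) (A : Finset (EE d)),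
    A.Nonempty ∧ Pack (A : Set (EE d)) m ∧
    ¬ ∃ f : EE d → EE N, ∀ x ∈ A, ∀ y ∈ A,
      dist x y ≤ D * dist (f x) (f y) ∧ dist (f x) (f y) ≤ dist x y

/-- Packing of images under linear maps with distortion 2. -/
def PackMapStmt : Prop :=
  ∀ (B : Type u) [NormedAddCommGroup B] [NormedSpace ℝ B] (d m : ℕ) (S : Set (EE d))
    (T : EE d →ₗ[ℝ] B), 1 ≤ m → (∀ x, ‖x‖ ≤ ‖T x‖ ∧ ‖T x‖ ≤ 2 * ‖x‖) → Pack S m →
    Pack (T '' S) (m ^ 3)

/-- A sequence of finite sets with a common packing constant can be realised (up to similarity)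
inside one compact set with controlled packing constant. -/
def SeqGlueStmt : Prop :=
  ∀ (B : Type u) [NormedAddCommGroup B] [NormedSpace ℝ B] [Nontrivial B] (m : ℕ)
    (S : ℕ → Finset B), (∀ k, Pack (S k : Set B) m) →
    ∃ K : Set B, IsCompact K ∧ Pack K (3 * m + 3) ∧
      ∀ k, ∃ (c : B) (ρ : ℝ), 0 < ρ ∧ ∀ x ∈ S k, c + ρ • x ∈ K

/-- Packing implies doubling in the sense of the prelude. -/
def PackDoublingStmt : Prop :=
  ∀ (B : Type u) [PseudoMetricSpace B] (K : Set B) (m : ℕ), Pack K m →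
    Crest.GeometryTopology.DoublingConstLE K m

end Crest.Agent.R254
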