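import Crest.Agent.R254.Defs

/-! Row 254, task DET: the maximal determinant map (Lewis / Dvoretzky–Rogers). -/

set_option autoImplicit false

open MeasureTheory

namespace Crest.Agent.R254

universe u

namespace DET

/-- derivative argument -/
theorem deriv_arg (m : ℕ) (k s : ℝ) (p : Polynomial ℝ)
    (h : ∀ t : ℝ, 0 < t → 1 + k * t + p.eval t * t ^ 2 ≤ (1 + t * s) ^ m) : k ≤ m * s := by
  set f : ℝ → ℝ := fun t => (1 + t * s) ^ m - (1 + k * t + p.eval t * t ^ 2) with hf
  have h1 : HasDerivAt (fun t : ℝ => (1 + t * s) ^ m) ((m : ℝ) * (1 + 0 * s) ^ (m - 1) * s) 0 := by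
    have h2 : HasDerivAt (fun t : ℝ => 1 + t * s) s 0 := by
      simpa using ((hasDerivAt_id (0 : ℝ)).mul_const s).const_add 1
    exact h2.pow m
  have h2 : HasDerivAt (fun t : ℝ => 1 + k * t + p.eval t * t ^ 2) k 0 := by
    have h3 : HasDerivAt (fun t : ℝ => 1 + k * t) k 0 := by
      simpa using ((hasDerivAt_id (0 : ℝ)).const_mul k).const_add 1
    have h4 : HasDerivAt (fun t : ℝ => p.eval t * t ^ 2)
        (p.derivative.eval 0 * (0 : ℝ) ^ 2 + p.eval 0 * ((2 : ℕ) * (0 : ℝ) ^ (2 - 1))) 0 :=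
      (p.hasDerivAt 0).mul (hasDerivAt_pow 2 0)
    have h5 : HasDerivAt (fun t : ℝ => 1 + k * t + p.eval t * t ^ 2)
        (k + (p.derivative.eval 0 * (0 : ℝ) ^ 2 + p.eval 0 * ((2 : ℕ) * (0 : ℝ) ^ (2 - 1)))) 0 :=
      h3.add h4
    simpa using h5
  have h3 : HasDerivAt f ((m : ℝ) * s - k) 0 := by
    have h4 : HasDerivAt f ((m : ℝ) * (1 + 0 * s) ^ (m - 1) * s - k) 0 := h1.sub h2
    simpa using h4
  have h4 := h3.tendsto_slope_zero_right
  have h5 : 0 ≤ (m : ℝ) * s - k := by
    refine ge_of_tendsto h4 ?_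
    filter_upwards [self_mem_nhdsWithin] with t ht
    have ht' : 0 < t := ht
    have h6 : f 0 = 0 := by simp [hf]
    rw [zero_add, h6, sub_zero, smul_eq_mul]
    have h7 := h t ht'
    have h8 : 0 ≤ f t := by
      simp only [hf]
      linarith
    positivity
  linarith

end DET

open DET in
theorem det : DetStmt.{u} := by
  intro m hm F _ _ _ hF
  have hfr : Module.finrank ℝ F = Module.finrank ℝ (EE m) := by rw [hF]; simp
  obtain ⟨φ⟩ : Nonempty (F ≃L[ℝ] EE m) :=
    FiniteDimensional.nonempty_continuousLinearEquiv_of_finrank_eq hfr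
  set D : (EE m →L[ℝ] F) → ℝ := fun w => |((φ : F →L[ℝ] EE m).comp w).det| with hD
  have hDc : Continuous D := by
    refine continuous_abs.comp (ContinuousLinearMap.continuous_det.comp ?_)
    exact (ContinuousLinearMap.compL ℝ (EE m) F (EE m) (φ : F →L[ℝ] EE m)).continuous
  have : ProperSpace (EE m →L[ℝ] F) := FiniteDimensional.proper_real _
  have hK : IsCompact (Metric.closedBall (0 : EE m →L[ℝ] F) 1) := isCompact_closedBall _ _
  obtain ⟨w, hw, hmax⟩ := hK.exists_isMaxOn ⟨0, by simp⟩ hDc.continuousOn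
  have hwn : ‖w‖ ≤ 1 := by simpa using hw
  have hfrE : Module.finrank ℝ (EE m) = m := by simp
  -- positivity
  have hpos : 0 < D w := by
    set c : ℝ := (‖(φ.symm : EE m →L[ℝ] F)‖ + 1)⁻¹ with hc
    have hc0 : 0 < c := by positivity
    set w1 : EE m →L[ℝ] F := c • (φ.symm : EE m →L[ℝ] F) with hw1
    have h1 : w1 ∈ Metric.closedBall (0 : EE m →L[ℝ] F) 1 := by
      rw [mem_closedBall_zero_iff, hw1, norm_smul, Real.norm_of_nonneg hc0.le, hc,
        inv_mul_le_iff₀ (by positivity)]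
      linarith
    have h2 : D w1 ≤ D w := hmax h1
    have h3 : D w1 = |c ^ m| := by
      simp only [hD]
      have h4 : (φ : F →L[ℝ] EE m).comp w1 = c • ContinuousLinearMap.id ℝ (EE m) := by
        ext x
        simp [hw1]
      rw [h4, ContinuousLinearMap.det]
      have h5 : ((c • ContinuousLinearMap.id ℝ (EE m) : EE m →L[ℝ] EE m) : EE m →ₗ[ℝ] EE m) =
          c • LinearMap.id := rfl
      rw [h5, LinearMap.det_smul, LinearMap.det_id, hfrE, mul_one]
    have h4 : 0 < D w1 := by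
      rw [h3]
      positivity
    linarith
  refine ⟨(w : EE m →ₗ[ℝ] F), fun x => ?_, fun W hW => ?_⟩
  · calc ‖w x‖ ≤ ‖w‖ * ‖x‖ := w.le_opNorm x
      _ ≤ 1 * ‖x‖ := by gcongr
      _ = ‖x‖ := one_mul _
  · -- sphere of W
    set Sph : Set (EE m) := {e | e ∈ W ∧ ‖e‖ = 1} with hSph
    have hSc : IsCompact Sph := by
      have h1 : Sph = (W : Set (EE m)) ∩ Metric.sphere 0 1 := by
        ext e; simp [hSph]
      rw [h1]
      exact (isCompact_sphere (0 : EE m) 1).inter_left (Submodule.closed_of_finiteDimensional W)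
    obtain ⟨x0, hx0, hx0ne⟩ := Submodule.exists_mem_ne_zero_of_ne_bot hW
    have hSne : Sph.Nonempty := by
      refine ⟨‖x0‖⁻¹ • x0, W.smul_mem _ hx0, ?_⟩
      rw [norm_smul, norm_inv, norm_norm, inv_mul_cancel₀ (norm_ne_zero_iff.mpr hx0ne)]
    obtain ⟨e0, he0, he0max⟩ := hSc.exists_isMaxOn hSne
      (f := fun e => ‖w e‖) (by fun_prop)
    set s : ℝ := ‖w e0‖ with hs
    have hs0 : 0 ≤ s := norm_nonneg _
    refine ⟨e0, he0.1, he0.2, ?_⟩
    show (Module.finrank ℝ W : ℝ) / m ≤ s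
    have hm0 : (0 : ℝ) < m := by exact_mod_cast hm
    rw [div_le_iff₀ hm0, mul_comm]
    -- projection
    set P : EE m →L[ℝ] EE m := W.starProjection with hP
    have hPn : ∀ x, ‖P x‖ ≤ ‖x‖ := by
      intro x
      calc ‖P x‖ ≤ ‖P‖ * ‖x‖ := P.le_opNorm x
        _ ≤ 1 * ‖x‖ := by
            gcongr
            exact Submodule.starProjection_norm_le W
        _ = ‖x‖ := one_mul _
    have hwW : ∀ x ∈ W, ‖w x‖ ≤ s * ‖x‖ := by
      intro x hx
      by_cases hx0 : x = 0
      · simp [hx0]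
      · have hxn : 0 < ‖x‖ := norm_pos_iff.mpr hx0
        have h1 : ‖x‖⁻¹ • x ∈ Sph := by
          refine ⟨W.smul_mem _ hx, ?_⟩
          rw [norm_smul, norm_inv, norm_norm, inv_mul_cancel₀ hxn.ne']
        have h2 : ‖w (‖x‖⁻¹ • x)‖ ≤ s := he0max h1
        rw [map_smul, norm_smul, norm_inv, norm_norm] at h2
        rwa [inv_mul_le_iff₀ hxn, mul_comm] at h2
    have hwP : ∀ x, ‖w (P x)‖ ≤ s * ‖x‖ := by
      intro x
      calc ‖w (P x)‖ ≤ s * ‖P x‖ := hwW _ (Submodule.starProjection_apply_mem W x)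
        _ ≤ s * ‖x‖ := by gcongr; exact hPn x
    -- determinant of 1 + tP
    let b := Module.finBasis ℝ (EE m)
    set Pm := LinearMap.toMatrix b b (P : EE m →ₗ[ℝ] EE m) with hPm
    have htr : Matrix.trace Pm = Module.finrank ℝ W := by
      have h1 : LinearMap.IsProj W (P : EE m →ₗ[ℝ] EE m) :=
        ⟨fun x => Submodule.starProjection_apply_mem W x,
          fun x hx => Submodule.starProjection_eq_self_iff.mpr hx⟩
      rw [hPm, ← LinearMap.trace_eq_matrix_trace ℝ b, h1.trace]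
    have hdet : ∀ t : ℝ, LinearMap.det
        ((1 + t • P : EE m →L[ℝ] EE m) : EE m →ₗ[ℝ] EE m) = Matrix.det (1 + t • Pm) := by
      intro t
      rw [← LinearMap.det_toMatrix b]
      congr 1
      have h1 : ((1 + t • P : EE m →L[ℝ] EE m) : EE m →ₗ[ℝ] EE m) =
          LinearMap.id + t • (P : EE m →ₗ[ℝ] EE m) := rfl
      rw [h1, map_add, map_smul, LinearMap.toMatrix_id]
    have key : ∀ t : ℝ, 0 < t → Matrix.det (1 + t • Pm) ≤ (1 + t * s) ^ m := by
      intro t ht
      have hts : 0 < 1 + t * s := by positivity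
      set wt : EE m →L[ℝ] F := (1 + t * s)⁻¹ • (w.comp (1 + t • P)) with hwt
      have h1 : wt ∈ Metric.closedBall (0 : EE m →L[ℝ] F) 1 := by
        rw [mem_closedBall_zero_iff]
        refine ContinuousLinearMap.opNorm_le_bound _ zero_le_one (fun x => ?_)
        rw [hwt]
        have h2 : ((1 + t * s)⁻¹ • (w.comp (1 + t • P))) x = (1 + t * s)⁻¹ • (w x + t • w (P x)) := by
          simp
        rw [h2, norm_smul, norm_inv, Real.norm_of_nonneg hts.le, inv_mul_le_iff₀ hts, one_mul]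
        calc ‖w x + t • w (P x)‖ ≤ ‖w x‖ + ‖t • w (P x)‖ := norm_add_le _ _
          _ ≤ ‖x‖ + t * (s * ‖x‖) := by
              refine add_le_add ?_ ?_
              · calc ‖w x‖ ≤ ‖w‖ * ‖x‖ := w.le_opNorm x
                  _ ≤ 1 * ‖x‖ := by gcongr
                  _ = ‖x‖ := one_mul _
              · rw [norm_smul, Real.norm_of_nonneg ht.le]
                gcongr
                exact hwP x
          _ = (1 + t * s) * ‖x‖ := by ring
      have h2 : D wt ≤ D w := hmax h1
      have h3 : D wt = ((1 + t * s) ^ m)⁻¹ * (D w * |Matrix.det (1 + t • Pm)|) := by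
        simp only [hD]
        have h4 : (φ : F →L[ℝ] EE m).comp wt =
            (1 + t * s)⁻¹ • (((φ : F →L[ℝ] EE m).comp w).comp (1 + t • P)) := by
          ext x
          simp [hwt]
        rw [h4, ContinuousLinearMap.det]
        have h5 : (((1 + t * s)⁻¹ • (((φ : F →L[ℝ] EE m).comp w).comp (1 + t • P)) :
            EE m →L[ℝ] EE m) : EE m →ₗ[ℝ] EE m) =
            (1 + t * s)⁻¹ • ((((φ : F →L[ℝ] EE m).comp w : EE m →L[ℝ] EE m) : EE m →ₗ[ℝ] EE m) ∘ₗ
              ((1 + t • P : EE m →L[ℝ] EE m) : EE m →ₗ[ℝ] EE m)) := rfl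
        have h6 : ((1 + t * s)⁻¹) ^ Module.finrank ℝ (EE m) = ((1 + t * s) ^ m)⁻¹ := by
          rw [hfrE, inv_pow]
        rw [h5, LinearMap.det_smul, LinearMap.det_comp, hdet, h6, abs_mul, abs_mul,
          abs_of_pos (inv_pos.mpr (pow_pos hts m))]
      rw [h3, inv_mul_le_iff₀ (pow_pos hts m)] at h2
      have h6 : |Matrix.det (1 + t • Pm)| ≤ (1 + t * s) ^ m := by
        have h7 : D w * |Matrix.det (1 + t • Pm)| ≤ D w * (1 + t * s) ^ m := by linarith
        exact le_of_mul_le_mul_left h7 hpos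
      exact (le_abs_self _).trans h6
    refine deriv_arg m _ s (Matrix.det (1 + (Polynomial.X : Polynomial ℝ) • Pm.map Polynomial.C)).divX.divX
      (fun t ht => ?_)
    have h1 := key t ht
    rw [Matrix.det_one_add_smul, htr] at h1
    exact h1

end Crest.Agent.R254
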