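import Crest.Agent.R254.Core

set_option autoImplicit false

namespace Crest.Agent.R254

namespace FinNE

variable {H : Type} [NormedAddCommGroup H] [InnerProductSpace ℝ H]

lemma mem_left {V : Finset H} {P : Finset (H × H)} {φ : H → H → (H →ᵃ[ℝ] H)} {a b : H}
    (ha : a ∈ V) (hφ : SimFam a b φ) (k : ℕ) {p q : H} (hpq : p ≠ q) :
    p ∈ finSet V P φ k p q := by
  classical
  cases k with
  | zero => simp [finSet]
  | succ k =>
    rw [finSet, Finset.mem_union]
    left
    rw [Finset.mem_image]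
    exact ⟨a, ha, (hφ p q hpq).1⟩

lemma mem_right {V : Finset H} {P : Finset (H × H)} {φ : H → H → (H →ᵃ[ℝ] H)} {a b : H}
    (hb : b ∈ V) (hφ : SimFam a b φ) (k : ℕ) {p q : H} (hpq : p ≠ q) :
    q ∈ finSet V P φ k p q := by
  classical
  cases k with
  | zero => simp [finSet]
  | succ k =>
    rw [finSet, Finset.mem_union]
    left
    rw [Finset.mem_image]
    exact ⟨b, hb, (hφ p q hpq).2.1⟩

lemma mem_V {V : Finset H} {P : Finset (H × H)} {φ : H → H → (H →ᵃ[ℝ] H)} {v : H}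
    (hv : v ∈ V) (k : ℕ) (p q : H) : φ p q v ∈ finSet V P φ (k + 1) p q := by
  classical
  rw [finSet, Finset.mem_union]
  left
  rw [Finset.mem_image]
  exact ⟨v, hv, rfl⟩

lemma mem_P {V : Finset H} {P : Finset (H × H)} {φ : H → H → (H →ᵃ[ℝ] H)} {v : H × H}
    (hv : v ∈ P) (k : ℕ) (p q : H) {x : H} (hx : x ∈ finSet V P φ k (φ p q v.1) (φ p q v.2)) :
    x ∈ finSet V P φ (k + 1) p q := by
  classical
  rw [finSet, Finset.mem_union]
  right
  rw [Finset.mem_biUnion]
  exact ⟨v, hv, hx⟩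

lemma phi_ne {φ : H → H → (H →ᵃ[ℝ] H)} {a b : H} (hφ : SimFam a b φ) {p q x y : H}
    (hpq : p ≠ q) (hxy : x ≠ y) : φ p q x ≠ φ p q y := by
  intro h
  have h1 := (hφ p q hpq).2.2 x y
  rw [h, dist_self] at h1
  have h2 : 0 < dist p q := dist_pos.2 hpq
  have h3 : 0 < dist x y := dist_pos.2 hxy
  have := mul_pos h2 h3
  linarith

lemma main (N : ℕ) (D : ℝ) (_hD : 1 ≤ D)
    (V : Finset H) (E : Finset (H × H)) (a b : H) (hO : IsObs N D V E a b)
    (P : Finset (H × H)) (ed : H × H → H × H) (δ η : ℝ) (hP : IsPieces N D V E a b P ed δ η)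
    (φ : H → H → (H →ᵃ[ℝ] H)) (hφ : SimFam a b φ) (k : ℕ) : ∀ (p q : H), p ≠ q → ∀ f : H → EE N,
      (∀ x ∈ finSet V P φ k p q, ∀ y ∈ finSet V P φ k p q,
        dist x y ≤ D * dist (f x) (f y) ∧ dist (f x) (f y) ≤ dist x y) →
      (1 + η) ^ k * dist (f p) (f q) ≤ dist p q := by
  induction k with
  | zero =>
    intro p q hpq f hf
    rw [pow_zero, one_mul]
    exact (hf p (mem_left hO.ha hφ 0 hpq) q (mem_right hO.hb hφ 0 hpq)).2
  | succ k ih =>
    intro p q hpq f hf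
    have hl : 0 < dist p q := dist_pos.2 hpq
    set l := dist p q with hldef
    set φ₀ := φ p q with hφ₀
    have hφd : ∀ x y, dist (φ₀ x) (φ₀ y) = l * dist x y := (hφ p q hpq).2.2
    have hφa : φ₀ a = p := (hφ p q hpq).1
    have hφb : φ₀ b = q := (hφ p q hpq).2.1
    set F : H → EE N := fun x => l⁻¹ • f (φ₀ x) with hF
    have hFd : ∀ x y, dist (F x) (F y) = l⁻¹ * dist (f (φ₀ x)) (f (φ₀ y)) := by
      intro x y
      simp only [hF]
      rw [dist_smul₀, Real.norm_of_nonneg (inv_nonneg.2 hl.le)]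
    have hpt : ∀ x, (x ∈ V ∨ ∃ v ∈ P, x = v.1 ∨ x = v.2) → φ₀ x ∈ finSet V P φ (k + 1) p q := by
      rintro x (hx | ⟨v, hv, hx⟩)
      · exact mem_V hx k p q
      · have hv12 : v.1 ≠ v.2 := by
          intro h
          have h1 := (hP.len v hv).1
          rw [h, dist_self] at h1
          have := hP.hδ
          linarith
        rcases hx with rfl | rfl
        · exact mem_P hv k p q (mem_left hO.ha hφ k (phi_ne hφ hpq hv12))
        · exact mem_P hv k p q (mem_right hO.hb hφ k (phi_ne hφ hpq hv12))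
    obtain ⟨v, hv, hvi⟩ := hP.imp F (by
      intro x hx y hy
      have h1 := hf _ (hpt x hx) _ (hpt y hy)
      rw [hφd] at h1
      rw [hFd]
      constructor
      · have h2 := h1.1
        calc dist x y = l⁻¹ * (l * dist x y) := by field_simp
          _ ≤ l⁻¹ * (D * dist (f (φ₀ x)) (f (φ₀ y))) :=
              mul_le_mul_of_nonneg_left h2 (inv_nonneg.2 hl.le)
          _ = D * (l⁻¹ * dist (f (φ₀ x)) (f (φ₀ y))) := by ring
      · calc l⁻¹ * dist (f (φ₀ x)) (f (φ₀ y)) ≤ l⁻¹ * (l * dist x y) :=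
              mul_le_mul_of_nonneg_left h1.2 (inv_nonneg.2 hl.le)
          _ = dist x y := by field_simp)
    have hv12 : v.1 ≠ v.2 := by
      intro h
      have h1 := (hP.len v hv).1
      rw [h, dist_self] at h1
      have := hP.hδ
      linarith
    have hdv : 0 < dist v.1 v.2 := dist_pos.2 hv12
    have hIH := ih (φ₀ v.1) (φ₀ v.2) (phi_ne hφ hpq hv12) f (by
      intro x hx y hy
      exact hf x (mem_P hv k p q hx) y (mem_P hv k p q hy))
    rw [hφd] at hIH
    rw [hFd, hFd, hφa, hφb] at hvi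
    have hη : 0 < 1 + η := by have := hP.hη; linarith
    -- (1+η) * (l⁻¹ * dist (f p) (f q)) * dv ≤ l⁻¹ * dist (f φ v1) (f φ v2)
    have h1 : (1 + η) * dist (f p) (f q) * dist v.1 v.2 ≤ dist (f (φ₀ v.1)) (f (φ₀ v.2)) := by
      have h2 := mul_le_mul_of_nonneg_left hvi hl.le
      calc (1 + η) * dist (f p) (f q) * dist v.1 v.2
          = l * ((1 + η) * (l⁻¹ * dist (f p) (f q)) * dist v.1 v.2) := by field_simp
        _ ≤ l * (l⁻¹ * dist (f (φ₀ v.1)) (f (φ₀ v.2))) := h2
        _ = dist (f (φ₀ v.1)) (f (φ₀ v.2)) := by field_simp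
    have h3 : (1 + η) ^ k * ((1 + η) * dist (f p) (f q) * dist v.1 v.2) ≤ l * dist v.1 v.2 :=
      (mul_le_mul_of_nonneg_left h1 (pow_pos hη k).le).trans hIH
    have h4 : ((1 + η) ^ (k + 1) * dist (f p) (f q)) * dist v.1 v.2 ≤ l * dist v.1 v.2 := by
      calc ((1 + η) ^ (k + 1) * dist (f p) (f q)) * dist v.1 v.2
          = (1 + η) ^ k * ((1 + η) * dist (f p) (f q) * dist v.1 v.2) := by ring
        _ ≤ _ := h3
    exact le_of_mul_le_mul_right h4 hdv

end FinNE

theorem finNE : FinNEStmt := by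
  intro N D hD H _ _ V E a b hO P ed δ η hP φ hφ k p q hpq f hf
  exact FinNE.main N D hD V E a b hO P ed δ η hP φ hφ k p q hpq f hf

end Crest.Agent.R254
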