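import Crest.Agent.R254.PackCH
import Crest.Agent.R254.FinNE

set_option autoImplicit false

namespace Crest.Agent.R254

namespace FinPack

variable {H : Type} [NormedAddCommGroup H] [InnerProductSpace ℝ H]
variable {N : ℕ} {D : ℝ} {V : Finset H} {E : Finset (H × H)} {a b : H} {P : Finset (H × H)}
  {ed : H × H → H × H} {δ η : ℝ} {φ : H → H → (H →ᵃ[ℝ] H)}

lemma packUnion {S1 S2 : Set H} {m1 m2 : ℕ} (h1 : Pack S1 m1) (h2 : Pack S2 m2) :
    Pack (S1 ∪ S2) (m1 + m2) := by
  classical
  intro x r hr T hT hb hs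
  have e : T = T.filter (fun y => y ∈ S1) ∪ T.filter (fun y => y ∈ S2) := by
    ext y
    simp only [Finset.mem_union, Finset.mem_filter]
    constructor
    · intro hy
      rcases hT hy with h | h
      · exact Or.inl ⟨hy, h⟩
      · exact Or.inr ⟨hy, h⟩
    · rintro (h | h) <;> exact h.1
  rw [e]
  refine (Finset.card_union_le _ _).trans (Nat.add_le_add ?_ ?_)
  · refine h1 x r hr _ ?_ ?_ ?_
    · intro y hy
      exact (Finset.mem_filter.1 hy).2
    · intro y hy
      exact hb y (Finset.mem_filter.1 hy).1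
    · intro y hy z hz
      exact hs y (Finset.mem_filter.1 hy).1 z (Finset.mem_filter.1 hz).1
  · refine h2 x r hr _ ?_ ?_ ?_
    · intro y hy
      exact (Finset.mem_filter.1 hy).2
    · intro y hy
      exact hb y (Finset.mem_filter.1 hy).1
    · intro y hy z hz
      exact hs y (Finset.mem_filter.1 hy).1 z (Finset.mem_filter.1 hz).1

lemma key (hO : IsObs N D V E a b) (hφ : SimFam a b φ) {p q : H} (hpq : p ≠ q) {v : H}
    (hv : v ∈ V) : ∃ w ∈ segment ℝ p q, dist (φ p q v) w ≤ dist p q / 2000 := by
  obtain ⟨h1, h2, h3⟩ := hφ p q hpq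
  obtain ⟨t, ht, hvt⟩ := hO.thin v hv
  refine ⟨φ p q (AffineMap.lineMap a b t), ?_, ?_⟩
  · rw [AffineMap.apply_lineMap, h1, h2]
    exact PackCH.mem_seg ht.1 ht.2
  · rw [h3]
    calc dist p q * dist v (AffineMap.lineMap a b t) ≤ dist p q * (1 / 2000) := by gcongr
      _ = _ := by ring

lemma segE (hO : IsObs N D V E a b) (hφ : SimFam a b φ) {p q : H} (hpq : p ≠ q) {e : H × H}
    (he : e ∈ E) {z : H} (hz : z ∈ segment ℝ e.1 e.2) :
    ∃ w ∈ segment ℝ p q, dist (φ p q z) w ≤ dist p q / 2000 := by
  obtain ⟨he1, he2, -⟩ := hO.hE e he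
  refine PackCH.near_conv (convex_segment p q) (key hO hφ hpq he1) (key hO hφ hpq he2) ?_
  rw [← image_segment]
  exact ⟨z, hz, rfl⟩

lemma pne (hP : IsPieces N D V E a b P ed δ η) {v : H × H} (hv : v ∈ P) : v.1 ≠ v.2 := by
  intro h
  have h1 := (hP.len v hv).1
  rw [h, dist_self] at h1
  have := hP.hδ
  linarith

lemma seg_sub (hP : IsPieces N D V E a b P ed δ η) {v : H × H} (hv : v ∈ P) {z : H}
    (hz : z ∈ segment ℝ v.1 v.2) : z ∈ segment ℝ (ed v).1 (ed v).2 :=
  (convex_segment _ _).segment_subset (hP.edmem v hv).2.1 (hP.edmem v hv).2.2 hz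

lemma claimA (hO : IsObs N D V E a b) (hP : IsPieces N D V E a b P ed δ η) (hφ : SimFam a b φ)
    (k : ℕ) : ∀ p q : H, p ≠ q → ∀ y ∈ finSet V P φ k p q,
      ∃ w ∈ segment ℝ p q, dist y w ≤ dist p q / 1000 := by
  classical
  induction k with
  | zero =>
    intro p q hpq y hy
    refine ⟨y, ?_, by rw [dist_self]; positivity⟩
    rw [finSet, Finset.mem_insert, Finset.mem_singleton] at hy
    rcases hy with rfl | rfl
    · exact left_mem_segment ℝ _ _
    · exact right_mem_segment ℝ _ _
  | succ k ih =>
    intro p q hpq y hy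
    have hl : 0 < dist p q := dist_pos.2 hpq
    rw [finSet, Finset.mem_union] at hy
    rcases hy with hy | hy
    · obtain ⟨v, hv, rfl⟩ := Finset.mem_image.1 hy
      obtain ⟨w, hw, hvw⟩ := key hO hφ hpq hv
      exact ⟨w, hw, hvw.trans (by linarith)⟩
    · obtain ⟨v, hv, hy⟩ := Finset.mem_biUnion.1 hy
      obtain ⟨z, hz, hyz⟩ := ih _ _ (FinNE.phi_ne hφ hpq (pne hP hv)) y hy
      rw [← image_segment] at hz
      obtain ⟨z0, hz0, rfl⟩ := hz
      obtain ⟨w, hw, hzw⟩ := segE hO hφ hpq (hP.edmem v hv).1 (seg_sub hP hv hz0)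
      refine ⟨w, hw, (dist_triangle _ (φ p q z0) _).trans ?_⟩
      rw [(hφ p q hpq).2.2] at hyz
      have h1 : dist p q * dist v.1 v.2 ≤ dist p q * (1 / 10000) := by
        have := (hP.len v hv).2
        have := hP.hδ'
        gcongr
        linarith
      linarith

lemma subnear (hO : IsObs N D V E a b) (hP : IsPieces N D V E a b P ed δ η) (hφ : SimFam a b φ)
    {k : ℕ} {p q : H} (hpq : p ≠ q) {v : H × H} (hv : v ∈ P) {y : H}
    (hy : y ∈ finSet V P φ k (φ p q v.1) (φ p q v.2)) :
    ∃ z ∈ segment ℝ v.1 v.2, dist y (φ p q z) ≤ dist p q * δ / 1000 := by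
  obtain ⟨z, hz, hyz⟩ := claimA hO hP hφ k _ _ (FinNE.phi_ne hφ hpq (pne hP hv)) y hy
  rw [← image_segment] at hz
  obtain ⟨z0, hz0, rfl⟩ := hz
  refine ⟨z0, hz0, hyz.trans ?_⟩
  rw [(hφ p q hpq).2.2]
  have := (hP.len v hv).2
  have h0 : 0 ≤ dist p q := dist_nonneg
  gcongr

lemma inner_phi (hφ : SimFam a b φ) {p q : H} (hpq : p ≠ q) (x : H) :
    (inner ℝ (φ p q x - p) (q - p) : ℝ) = dist p q ^ 2 * inner ℝ (x - a) (b - a) := by
  obtain ⟨h1, h2, h3⟩ := hφ p q hpq
  rw [real_inner_eq_norm_mul_self_add_norm_mul_self_sub_norm_sub_mul_self_div_two,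
    real_inner_eq_norm_mul_self_add_norm_mul_self_sub_norm_sub_mul_self_div_two]
  have e1 : ‖φ p q x - p‖ = dist p q * ‖x - a‖ := by
    have := h3 x a
    rw [h1] at this
    rw [← dist_eq_norm, this, dist_eq_norm x a]
  have e2 : ‖q - p‖ = dist p q * ‖b - a‖ := by
    have := h3 b a
    rw [h1, h2] at this
    rw [← dist_eq_norm, this, dist_eq_norm b a]
  have e3 : ‖φ p q x - p - (q - p)‖ = dist p q * ‖x - a - (b - a)‖ := by
    have := h3 x b
    rw [h2] at this
    have e4 : φ p q x - p - (q - p) = φ p q x - q := by abel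
    have e5 : x - a - (b - a) = x - b := by abel
    rw [e4, e5, ← dist_eq_norm, this, dist_eq_norm x b]
  rw [e1, e2, e3]
  ring

lemma inner_lip {p q y y' : H} {c : ℝ} (h : dist y y' ≤ c) :
    |(inner ℝ (y - p) (q - p) : ℝ) - inner ℝ (y' - p) (q - p)| ≤ c * dist p q := by
  rw [← inner_sub_left]
  have e : y - p - (y' - p) = y - y' := by abel
  rw [e]
  refine (abs_real_inner_le_norm _ _).trans ?_
  rw [← dist_eq_norm, ← dist_eq_norm, dist_comm q p]
  gcongr

lemma slabNode (hO : IsObs N D V E a b) (hP : IsPieces N D V E a b P ed δ η) (hφ : SimFam a b φ)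
    {k : ℕ} {p q : H} (hpq : p ≠ q) {y : H} (hy : y ∈ finSet V P φ (k + 1) p q) :
    y = p ∨ y = q ∨ (99 * δ * dist p q ^ 2 ≤ (inner ℝ (y - p) (q - p) : ℝ) ∧
      (inner ℝ (y - p) (q - p) : ℝ) ≤ (1 - 99 * δ) * dist p q ^ 2) := by
  classical
  have hl : 0 < dist p q := dist_pos.2 hpq
  have hl2 : 0 < dist p q ^ 2 := by positivity
  have hδ := hP.hδ
  have hδ' := hP.hδ'
  rw [finSet, Finset.mem_union] at hy
  rcases hy with hy | hy
  · obtain ⟨v, hv, rfl⟩ := Finset.mem_image.1 hy
    rcases hO.slab v hv with rfl | rfl | ⟨h1, h2⟩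
    · left; exact (hφ p q hpq).1
    · right; left; exact (hφ p q hpq).2.1
    · right; right
      rw [inner_phi hφ hpq]
      constructor
      · nlinarith
      · nlinarith
  · obtain ⟨v, hv, hy⟩ := Finset.mem_biUnion.1 hy
    obtain ⟨z, hz, hyz⟩ := subnear hO hP hφ hpq hv hy
    have h1 := hP.slab v hv z hz
    have h2 := inner_lip (p := p) (q := q) hyz
    rw [inner_phi hφ hpq, abs_le] at h2
    right; right
    have h3 : dist p q * δ / 1000 * dist p q = dist p q ^ 2 * (δ / 1000) := by ring
    rw [h3] at h2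
    constructor
    · nlinarith [h2.1, h1.1]
    · nlinarith [h2.2, h1.2]

lemma single (hl : LineLikeStmt) (hO : IsObs N D V E a b) (hP : IsPieces N D V E a b P ed δ η)
    (hφ : SimFam a b φ) {k m0 : ℕ} (hm0 : 5 ≤ m0)
    (IH : ∀ p w : H, p ≠ w → Pack ((finSet V P φ k p w : Set H) ∪
      (finSet V P φ k w (w + (w - p)) : Set H)) m0)
    {p q : H} (hpq : p ≠ q) (x : H) {r : ℝ} (hr : 0 < r) (hr2 : r < 10 * δ * dist p q)
    (T : Finset H) (hT : ∀ y ∈ T, y ∈ finSet V P φ (k + 1) p q)
    (hb : ∀ y ∈ T, dist y x ≤ 2 * r) (hs : ∀ y ∈ T, ∀ z ∈ T, y ≠ z → r < dist y z) :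
    T.card ≤ m0 := by
  classical
  have hl0 : 0 < dist p q := dist_pos.2 hpq
  set l := dist p q with hldef
  have hδ := hP.hδ
  have hδ' := hP.hδ'
  have hlδ : 0 < l * δ := mul_pos hl0 hδ
  have hφd : ∀ x y, dist (φ p q x) (φ p q y) = l * dist x y := (hφ p q hpq).2.2
  have hdiam : ∀ y ∈ T, ∀ z ∈ T, dist y z ≤ 4 * r := by
    intro y hy z hz
    have h1 := hb y hy
    have h2 := hb z hz
    have h3 := dist_triangle y x z
    rw [dist_comm x z] at h3
    linarith
  by_cases hV : ∃ y0 ∈ T, ∃ w0 ∈ V, φ p q w0 = y0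
  · obtain ⟨y0, hy0, w0, hw0, rfl⟩ := hV
    have hall : ∀ y ∈ T, y = φ p q w0 := by
      intro y hy
      by_contra hne
      have hd := hdiam y hy _ hy0
      have hyT := hT y hy
      rw [finSet, Finset.mem_union] at hyT
      rcases hyT with hyT | hyT
      · obtain ⟨w1, hw1, rfl⟩ := Finset.mem_image.1 hyT
        have hw : w1 ≠ w0 := fun h => hne (by rw [h])
        have h1 := hP.farVV w1 hw1 w0 hw0 hw
        rw [hφd] at hd
        nlinarith
      · obtain ⟨v, hv, hyv⟩ := Finset.mem_biUnion.1 hyT
        obtain ⟨z, hz, hyz⟩ := subnear hO hP hφ hpq hv hyv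
        have h1 := hP.farV v hv w0 hw0 z hz
        have h2 := dist_triangle (φ p q z) y (φ p q w0)
        rw [hφd, dist_comm (φ p q z) y] at h2
        nlinarith
    have : T.card ≤ 1 := by
      rw [Finset.card_le_one]
      intro y hy z hz
      rw [hall y hy, hall z hz]
    omega
  · -- all points are in sub-nodes
    have hex : ∀ y ∈ T, ∃ v ∈ P, y ∈ finSet V P φ k (φ p q v.1) (φ p q v.2) := by
      intro y hy
      have hyT := hT y hy
      rw [finSet, Finset.mem_union] at hyT
      rcases hyT with hyT | hyT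
      · obtain ⟨w1, hw1, rfl⟩ := Finset.mem_image.1 hyT
        exact absurd ⟨_, hy, w1, hw1, rfl⟩ hV
      · exact Finset.mem_biUnion.1 hyT
    choose! g hg1 hg2 using hex
    have hex2 : ∀ y ∈ T, ∃ z ∈ segment ℝ (g y).1 (g y).2, dist y (φ p q z) ≤ l * δ / 1000 :=
      fun y hy => subnear hO hP hφ hpq (hg1 y hy) (hg2 y hy)
    choose! ζ hζ1 hζ2 using hex2
    rcases T.eq_empty_or_nonempty with rfl | ⟨y0, hy0⟩
    · simp
    have hdζ : ∀ y ∈ T, ∀ z ∈ T, l * dist (ζ y) (ζ z) ≤ dist y z + l * δ / 500 := by
      intro y hy z hz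
      rw [← hφd]
      have h1 := dist_triangle4 (φ p q (ζ y)) y z (φ p q (ζ z))
      rw [dist_comm (φ p q (ζ y)) y] at h1
      have h2 := hζ2 y hy
      have h3 := hζ2 z hz
      linarith
    -- same edge
    have hed : ∀ y ∈ T, ed (g y0) = ed (g y) := by
      intro y hy
      by_contra hne
      have h1 := hP.far _ (hg1 y0 hy0) _ (hg1 y hy) hne _ (hζ1 y0 hy0) _ (hζ1 y hy)
      have h2 := hdζ y0 hy0 y hy
      have h3 := hdiam y0 hy0 y hy
      nlinarith
    by_cases hr3 : δ * l / 100 ≤ r
    · have h5 : T.card ≤ 5 := by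
        obtain ⟨-, -, hne⟩ := hO.hE _ (hP.edmem _ (hg1 y0 hy0)).1
        refine PackCH.line5 hl (φ p q (ed (g y0)).1) (φ p q (ed (g y0)).2)
          (FinNE.phi_ne hφ hpq hne) x r T hr hb hs ?_
        intro y hy
        refine ⟨φ p q (ζ y), ?_, (hζ2 y hy).trans ?_⟩
        · rw [← image_segment]
          refine ⟨ζ y, ?_, rfl⟩
          rw [hed y hy]
          exact seg_sub hP (hg1 y hy) (hζ1 y hy)
        · nlinarith
      omega
    · push Not at hr3
      -- pieces are equal or adjacent
      have hadj : ∀ y ∈ T, ∀ z ∈ T, g y ≠ g z →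
          ((g y).2 = (g z).1 ∧ (g z).2 - (g z).1 = (g y).2 - (g y).1) ∨
          ((g z).2 = (g y).1 ∧ (g z).2 - (g z).1 = (g y).2 - (g y).1) := by
        intro y hy z hz hne
        have he : ed (g y) = ed (g z) := by rw [← hed y hy, ← hed z hz]
        rcases hP.near _ (hg1 y hy) _ (hg1 z hz) he hne with h | h | h
        · exact Or.inl h
        · exact Or.inr h
        · exfalso
          have h1 := h _ (hζ1 y hy) _ (hζ1 z hz)
          have h2 := hdζ y hy z hz
          have h3 := hdiam y hy z hz
          nlinarith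
      set v0 := g y0 with hv0
      have hh : v0.2 - v0.1 ≠ 0 := by
        rw [sub_ne_zero]
        exact (pne hP (hg1 y0 hy0)).symm
      by_cases hplus : ∃ y1 ∈ T, g y1 ≠ v0 ∧ v0.2 = (g y1).1 ∧ (g y1).2 - (g y1).1 = v0.2 - v0.1
      · obtain ⟨y1, hy1, hne1, h11, h12⟩ := hplus
        have hIH := IH (φ p q v0.1) (φ p q v0.2) (FinNE.phi_ne hφ hpq (pne hP (hg1 y0 hy0)))
        refine hIH x r hr T ?_ hb hs
        intro y hy
        have hyg := hg2 y hy
        by_cases hyv : g y = v0
        · left
          rw [hyv] at hyg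
          exact hyg
        · right
          -- `g y` has the same form as `g y1`
          have hform : v0.2 = (g y).1 ∧ (g y).2 - (g y).1 = v0.2 - v0.1 := by
            rcases hadj y0 hy0 y hy (fun h => hyv h.symm) with h | h
            · exact h
            · exfalso
              have hne : g y1 ≠ g y := by
                intro hE
                rw [← hE] at h
                -- (g y1).2 = v0.1 and (g y1).1 = v0.2
                have e1 : (g y1).2 - (g y1).1 = v0.1 - v0.2 := by rw [h.1, ← h11]
                rw [h12] at e1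
                have e2 : (2 : ℝ) • (v0.2 - v0.1) = 0 := by
                  rw [two_smul]
                  nth_rewrite 1 [e1]
                  abel
                rcases smul_eq_zero.1 e2 with h0 | h0
                · norm_num at h0
                · exact hh h0
              rcases hadj y1 hy1 y hy hne with h' | h'
              · -- (g y1).2 = (g y).1
                have e1 : (g y1).2 = v0.2 + (v0.2 - v0.1) := by
                  rw [← h12, h11]; abel
                have e2 : (g y).1 = v0.1 - (v0.2 - v0.1) := by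
                  rw [← h.2, ← h.1]; abel
                have e3 : v0.2 + (v0.2 - v0.1) = v0.1 - (v0.2 - v0.1) := by
                  rw [← e1, ← e2]; exact h'.1
                have e4 : (3 : ℝ) • (v0.2 - v0.1) = 0 := by
                  have : (3 : ℝ) • (v0.2 - v0.1) = (v0.2 + (v0.2 - v0.1)) - (v0.1 - (v0.2 - v0.1)) := by
                    module
                  rw [this, e3, sub_self]
                rcases smul_eq_zero.1 e4 with h0 | h0
                · norm_num at h0
                · exact hh h0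
              · -- (g y).2 = (g y1).1
                have e1 : v0.1 = v0.2 := by rw [← h.1, h'.1, ← h11]
                exact hh (by rw [e1, sub_self])
          have e1 : (g y).2 = v0.2 + (v0.2 - v0.1) := by
            rw [← hform.2, hform.1]; abel
          have e2 : φ p q (v0.2 + (v0.2 - v0.1)) = φ p q v0.2 + (φ p q v0.2 - φ p q v0.1) := by
            have h1 := (φ p q).map_vadd v0.2 (v0.2 - v0.1)
            rw [vadd_eq_add, vadd_eq_add] at h1
            rw [add_comm v0.2, h1, ← vsub_eq_sub v0.2 v0.1, (φ p q).linearMap_vsub, vsub_eq_sub]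
            abel
          rw [← hform.1, e1, e2] at hyg
          exact hyg
      · push Not at hplus
        set vm := v0.1 - (v0.2 - v0.1) with hvm
        have hne : vm ≠ v0.1 := by
          intro h
          apply hh
          have : v0.2 - v0.1 = v0.1 - vm := by rw [hvm]; abel
          rw [this, h, sub_self]
        have hIH := IH (φ p q vm) (φ p q v0.1) (FinNE.phi_ne hφ hpq hne)
        refine hIH x r hr T ?_ hb hs
        intro y hy
        have hyg := hg2 y hy
        by_cases hyv : g y = v0
        · right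
          rw [hyv] at hyg
          have e1 : v0.2 = v0.1 + (v0.1 - vm) := by rw [hvm]; abel
          have e2 : φ p q (v0.1 + (v0.1 - vm)) = φ p q v0.1 + (φ p q v0.1 - φ p q vm) := by
            have h1 := (φ p q).map_vadd v0.1 (v0.1 - vm)
            rw [vadd_eq_add, vadd_eq_add] at h1
            rw [add_comm v0.1, h1, ← vsub_eq_sub v0.1 vm, (φ p q).linearMap_vsub, vsub_eq_sub]
            abel
          rw [← e2, ← e1]
          exact hyg
        · left
          rcases hadj y0 hy0 y hy (fun h => hyv h.symm) with h | h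
          · exact absurd h.2 (hplus y hy hyv h.1)
          · have e1 : (g y).1 = vm := by
              rw [hvm, ← h.2, ← h.1]; abel
            rw [e1, h.1] at hyg
            exact hyg

lemma separate (hO : IsObs N D V E a b) (hP : IsPieces N D V E a b P ed δ η)
    (hφ : SimFam a b φ) {k : ℕ} {p w : H} (hpw : p ≠ w) {y1 y2 : H}
    (h1 : y1 ∈ finSet V P φ (k + 1) p w) (h1' : y1 ≠ w)
    (h2 : y2 ∈ finSet V P φ (k + 1) w (w + (w - p))) (h2' : y2 ≠ w) :
    198 * δ * dist p w ≤ dist y1 y2 := by
  have hδ := hP.hδ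
  have hδ' := hP.hδ'
  have hl0 : 0 < dist p w := dist_pos.2 hpw
  have hwq : w ≠ w + (w - p) := by
    intro h
    apply hpw
    have : w - p = 0 := by
      have h3 : w + (w - p) = w + 0 := by rw [add_zero]; exact h.symm
      exact add_left_cancel h3
    exact (sub_eq_zero.1 this).symm
  have hdq : dist w (w + (w - p)) = dist p w := by
    rw [dist_eq_norm, dist_eq_norm, ← norm_neg (w - (w + (w - p))), ← norm_neg (p - w)]
    congr 1
    abel
  have e1 : (inner ℝ (y1 - p) (w - p) : ℝ) ≤ (1 - 99 * δ) * dist p w ^ 2 := by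
    rcases slabNode hO hP hφ hpw h1 with h | h | h
    · rw [h, sub_self, inner_zero_left]
      have : 0 < dist p w ^ 2 := by positivity
      nlinarith
    · exact absurd h h1'
    · exact h.2
  have e2 : 99 * δ * dist p w ^ 2 ≤ (inner ℝ (y2 - w) (w - p) : ℝ) := by
    have e3 : w + (w - p) - w = w - p := by abel
    rcases slabNode hO hP hφ hwq h2 with h | h | h
    · exact absurd h h2'
    · rw [h, e3, real_inner_self_eq_norm_sq, ← dist_eq_norm, dist_comm w p]
      have : 0 < dist p w ^ 2 := by positivity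
      nlinarith
    · rw [hdq, e3] at h
      exact h.1
  have e4 : (inner ℝ (w - p) (w - p) : ℝ) = dist p w ^ 2 := by
    rw [real_inner_self_eq_norm_sq, ← dist_eq_norm, dist_comm w p]
  have e5 : (inner ℝ (y2 - y1) (w - p) : ℝ)
      = inner ℝ (y2 - w) (w - p) + inner ℝ (w - p) (w - p) - inner ℝ (y1 - p) (w - p) := by
    rw [← inner_add_left, ← inner_sub_left]
    congr 1
    abel
  have e6 : (inner ℝ (y2 - y1) (w - p) : ℝ) ≤ dist y1 y2 * dist p w := by
    refine (real_inner_le_norm _ _).trans ?_
    rw [← dist_eq_norm, ← dist_eq_norm, dist_comm y2 y1, dist_comm w p]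
  have e7 : 198 * δ * dist p w * dist p w ≤ dist y1 y2 * dist p w := by
    nlinarith
  exact le_of_mul_le_mul_right e7 hl0

lemma claimB (hl : LineLikeStmt) (hi : PackIterStmt.{0}) (hO : IsObs N D V E a b)
    (hP : IsPieces N D V E a b P ed δ η) (hφ : SimFam a b φ) (k : ℕ) :
    ∀ p w : H, p ≠ w → Pack ((finSet V P φ k p w : Set H) ∪
      (finSet V P φ k w (w + (w - p)) : Set H)) (20010 ^ 3) := by
  classical
  induction k with
  | zero =>
    intro p w hpw x r hr T hT _ _
    have h1 : T ⊆ ({p, w} : Finset H) ∪ {w, w + (w - p)} := by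
      intro y hy
      have := hT hy
      rw [Finset.mem_union]
      rcases this with h | h
      · left
        exact h
      · right
        exact h
    have h2 := Finset.card_le_card h1
    have h3 := Finset.card_union_le ({p, w} : Finset H) {w, w + (w - p)}
    have h4 : ({p, w} : Finset H).card ≤ 2 := Finset.card_le_two
    have h5 : ({w, w + (w - p)} : Finset H).card ≤ 2 := Finset.card_le_two
    have h6 : 4 ≤ 20010 ^ 3 := by norm_num
    omega
  | succ k ih =>
    intro p w hpw x r hr T hT hb hs
    have hδ := hP.hδ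
    have hδ' := hP.hδ'
    have hl0 : 0 < dist p w := dist_pos.2 hpw
    have hwq : w ≠ w + (w - p) := by
      intro h
      apply hpw
      have : w - p = 0 := by
        have h3 : w + (w - p) = w + 0 := by rw [add_zero]; exact h.symm
        exact add_left_cancel h3
      exact (sub_eq_zero.1 this).symm
    have hdq : dist w (w + (w - p)) = dist p w := by
      rw [dist_eq_norm, dist_eq_norm, ← norm_neg (w - (w + (w - p))), ← norm_neg (p - w)]
      congr 1
      abel
    set l := dist p w with hldef
    set q := w + (w - p) with hq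
    have hlδ : 0 < l * δ := mul_pos hl0 hδ
    have hdiam : ∀ y ∈ T, ∀ z ∈ T, dist y z ≤ 4 * r := by
      intro y hy z hz
      have h1 := hb y hy
      have h2 := hb z hz
      have h3 := dist_triangle y x z
      rw [dist_comm x z] at h3
      linarith
    by_cases hr2 : r < 10 * δ * l
    · by_cases hA : ∀ y ∈ T, y ∈ finSet V P φ (k + 1) w q
      · refine single hl hO hP hφ (by norm_num) ih hwq x hr ?_ T hA hb hs
        rw [hdq]; exact hr2
      · by_cases hB : ∀ y ∈ T, y ∈ finSet V P φ (k + 1) p w
        · exact single hl hO hP hφ (by norm_num) ih hpw x hr hr2 T hB hb hs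
        · exfalso
          push Not at hA hB
          obtain ⟨y1, hy1, hn1⟩ := hA
          obtain ⟨y2, hy2, hn2⟩ := hB
          have hy1' : y1 ∈ finSet V P φ (k + 1) p w := by
            rcases hT hy1 with h | h
            · exact h
            · exact absurd h hn1
          have hy2' : y2 ∈ finSet V P φ (k + 1) w q := by
            rcases hT hy2 with h | h
            · exact absurd h hn2
            · exact h
          have hw1 : y1 ≠ w := by
            rintro rfl
            exact hn1 (FinNE.mem_left hO.ha hφ (k + 1) hwq)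
          have hw2 : y2 ≠ w := by
            rintro rfl
            exact hn2 (FinNE.mem_right hO.hb hφ (k + 1) hpw)
          have h1 := separate hO hP hφ hpw hy1' hw1 hy2' hw2
          have h2 := hdiam y1 hy1 y2 hy2
          rw [← hldef] at h1
          nlinarith
    · push Not at hr2
      -- move to `V` and the edges
      set W : Set H := (φ p w '' (V : Set H) ∪ φ p w '' edgeUnion E) ∪
        (φ w q '' (V : Set H) ∪ φ w q '' edgeUnion E) with hW
      have hnode : ∀ p' q' : H, p' ≠ q' → dist p' q' = l → ∀ y ∈ finSet V P φ (k + 1) p' q',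
          ∃ z ∈ φ p' q' '' (V : Set H) ∪ φ p' q' '' edgeUnion E, dist y z ≤ l * δ / 1000 := by
        intro p' q' hpq' hd' y hy
        rw [finSet, Finset.mem_union] at hy
        rcases hy with hy | hy
        · obtain ⟨v, hv, rfl⟩ := Finset.mem_image.1 hy
          refine ⟨_, Or.inl ⟨v, hv, rfl⟩, ?_⟩
          rw [dist_self]
          positivity
        · obtain ⟨v, hv, hy⟩ := Finset.mem_biUnion.1 hy
          obtain ⟨z, hz, hyz⟩ := subnear hO hP hφ hpq' hv hy
          rw [hd'] at hyz
          refine ⟨_, Or.inr ⟨z, ?_, rfl⟩, hyz⟩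
          rw [edgeUnion]
          exact Set.mem_iUnion₂.2 ⟨ed v, (hP.edmem v hv).1, seg_sub hP hv hz⟩
      have hmove : ∀ y ∈ T, ∃ z ∈ W, dist y z ≤ l * δ / 1000 := by
        intro y hy
        rcases hT hy with h | h
        · obtain ⟨z, hz, hyz⟩ := hnode p w hpw rfl y h
          exact ⟨z, Or.inl hz, hyz⟩
        · obtain ⟨z, hz, hyz⟩ := hnode w q hwq hdq y h
          exact ⟨z, Or.inr hz, hyz⟩
      choose! f hf1 hf2 using hmove
      have hpackN : ∀ p' q' : H, p' ≠ q' →
          Pack (φ p' q' '' (V : Set H) ∪ φ p' q' '' edgeUnion E) (5 + 10000) := by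
        intro p' q' hpq'
        have hl' : 0 < dist p' q' := dist_pos.2 hpq'
        exact packUnion (PackCH.packSim hO.pack (φ p' q') hl' (hφ p' q' hpq').2.2)
          (PackCH.packSim hO.packG (φ p' q') hl' (hφ p' q' hpq').2.2)
      have hpackW : Pack W 20010 := packUnion (hpackN p w hpw) (hpackN w q hwq)
      have hsep' : ∀ y ∈ T, ∀ z ∈ T, y ≠ z → r / 2 < dist (f y) (f z) := by
        intro y hy z hz hyz
        have h1 := hs y hy z hz hyz
        have h2 := dist_triangle4 y (f y) (f z) z
        have h3 := hf2 y hy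
        have h4 := hf2 z hz
        rw [dist_comm (f z) z] at h2
        nlinarith
      have hcard : (T.image f).card = T.card := by
        apply Finset.card_image_of_injOn
        intro y hy z hz hyz
        by_contra hne
        have h1 := hsep' y hy z hz hne
        rw [hyz, dist_self] at h1
        linarith
      rw [← hcard]
      refine hi H W 20010 3 (by norm_num) (by norm_num) hpackW x (r / 2) (by positivity) _ ?_ ?_ ?_
      · intro z hz
        rw [Finset.coe_image] at hz
        obtain ⟨y, hy, rfl⟩ := hz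
        exact hf1 y hy
      · intro z hz
        obtain ⟨y, hy, rfl⟩ := Finset.mem_image.1 hz
        have h1 := hb y hy
        have h2 := hf2 y hy
        have h3 := dist_triangle (f y) y x
        rw [dist_comm (f y) y] at h3
        nlinarith
      · intro z hz z' hz' hne
        obtain ⟨y, hy, rfl⟩ := Finset.mem_image.1 hz
        obtain ⟨y', hy', rfl⟩ := Finset.mem_image.1 hz'
        exact hsep' y hy y' hy' (fun h => hne (by rw [h]))

end FinPack

theorem finPack (hl : LineLikeStmt) (hi : PackIterStmt.{0}) : FinPackStmt := by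
  refine ⟨20010 ^ 3, ?_⟩
  intro N D _ H _ _ V E a b hO P ed δ η hP φ hφ k p q hpq
  exact PackCH.packMono (FinPack.claimB hl hi hO hP hφ k p q hpq) Set.subset_union_left le_rfl

end Crest.Agent.R254
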