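import Crest.Agent.R254.FinNE

set_option autoImplicit false

namespace Crest.Agent.R254

theorem final (h1 : PiecesStmt) (h2 : FinNEStmt) (h3 : FinPackStmt) (h4 : SimStmt) :
    FinalStmt := by
  obtain ⟨m, hm⟩ := h3
  refine ⟨m, ?_⟩
  intro N D hD H _ _ V E a b hO
  obtain ⟨P, ed, δ, η, hP⟩ := h1 N D hD H V E a b hO
  obtain ⟨φ, hφ⟩ := h4 H a b hO.hab
  have hab : a ≠ b := by
    intro h
    have := hO.hab
    rw [h, dist_self] at this
    exact zero_ne_one this
  have hη := hP.hη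
  obtain ⟨K, hK⟩ := pow_unbounded_of_one_lt D (show (1 : ℝ) < 1 + η by linarith)
  refine ⟨finSet V P φ K a b, ⟨a, FinNE.mem_left hO.ha hφ K hab⟩,
    hm N D hD H V E a b hO P ed δ η hP φ hφ K a b hab, ?_⟩
  rintro ⟨f, hf⟩
  have h5 := h2 N D hD H V E a b hO P ed δ η hP φ hφ K a b hab f hf
  have h6 := (hf a (FinNE.mem_left hO.ha hφ K hab) b (FinNE.mem_right hO.hb hφ K hab)).1
  rw [hO.hab] at h5 h6
  have hpos : 0 < dist (f a) (f b) := by
    by_contra h
    have : dist (f a) (f b) = 0 := le_antisymm (not_lt.1 h) dist_nonneg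
    rw [this, mul_zero] at h6
    linarith
  have h7 : D * dist (f a) (f b) < (1 + η) ^ K * dist (f a) (f b) :=
    mul_lt_mul_of_pos_right hK hpos
  linarith

end Crest.Agent.R254
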