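import Crest.Agent.R254.Core

set_option autoImplicit false

namespace Crest.Agent.R254

namespace FTG

lemma dist_SS_sq {H : Type} [NormedAddCommGroup H] [InnerProductSpace ℝ H] (α : ℝ) (p0 : H)
    (z z' : ℝ × H) :
    dist (SS α p0 z) (SS α p0 z') ^ 2 = (z.1 - z'.1) ^ 2 + α ^ 2 * dist z.2 z'.2 ^ 2 := by
  rw [WithLp.prod_dist_eq_of_L2, Real.sq_sqrt (by positivity)]
  have h1 : dist (SS α p0 z).fst (SS α p0 z').fst ^ 2 = (z.1 - z'.1) ^ 2 := by
    rw [Real.dist_eq, sq_abs]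
    rfl
  have h2 : dist (SS α p0 z).snd (SS α p0 z').snd ^ 2 = α ^ 2 * dist z.2 z'.2 ^ 2 := by
    have : dist (SS α p0 z).snd (SS α p0 z').snd = dist (α • (z.2 - p0)) (α • (z'.2 - p0)) := rfl
    rw [this, dist_smul₀, dist_sub_right, mul_pow, Real.norm_eq_abs, sq_abs]
  rw [h1, h2]

end FTG

theorem ftoGh (hp : ProjStmt) : FtoGhStmt := by
  intro n D hD H _ _ p0 α hα V E _ f hlow hup hab
  set a := SS α p0 ((0 : ℝ), p0) with ha
  set b := SS α p0 ((1 : ℝ), p0) with hb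
  have hNpos : 0 < ‖f b - f a‖ := by
    rw [← dist_eq_norm, dist_comm]; linarith
  have hN1 : 1 ≤ ‖f b - f a‖ := by
    rw [← dist_eq_norm, dist_comm]; exact hab
  set w : EE (n + 1) := ‖f b - f a‖⁻¹ • (f b - f a) with hw
  have hwn : ‖w‖ = 1 := by
    rw [hw, norm_smul, norm_inv, norm_norm, inv_mul_cancel₀ hNpos.ne']
  obtain ⟨π, hπ⟩ := hp n w hwn
  set u : ℝ × H → ℝ := fun z => inner ℝ (f (SS α p0 z) - f a) w with hu
  set G : ℝ × H → EE n := fun z => α⁻¹ • π (f (SS α p0 z) - f a) with hG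
  set h : ℝ × H → ℝ := fun z => 2 * (u z - z.1) / α ^ 2 with hh
  have hu' : ∀ z, u z = z.1 + α ^ 2 * h z / 2 := by
    intro z
    simp only [hh]
    field_simp
    ring
  have hdist : ∀ z z', dist (f (SS α p0 z)) (f (SS α p0 z')) ^ 2
      = (u z - u z') ^ 2 + α ^ 2 * dist (G z) (G z') ^ 2 := by
    intro z z'
    rw [dist_eq_norm, hπ]
    have h1 : f (SS α p0 z) - f (SS α p0 z') =
        (f (SS α p0 z) - f a) - (f (SS α p0 z') - f a) := by abel
    have h2 : (inner ℝ (f (SS α p0 z) - f (SS α p0 z')) w : ℝ) = u z - u z' := by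
      rw [h1, inner_sub_left]
    have h3 : dist (G z) (G z') = α⁻¹ * ‖π (f (SS α p0 z) - f (SS α p0 z'))‖ := by
      simp only [hG]
      rw [dist_smul₀, Real.norm_of_nonneg (inv_nonneg.2 hα.le), dist_eq_norm, ← map_sub, ← h1]
    rw [h2, h3]
    field_simp
  refine ⟨G, h, ?_, ?_, ?_, ?_⟩
  · intro e he
    have h1 := hup e he
    have h2 : dist (f (SS α p0 e.1)) (f (SS α p0 e.2)) ^ 2
        ≤ dist (SS α p0 e.1) (SS α p0 e.2) ^ 2 := pow_le_pow_left₀ dist_nonneg h1 2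
    rw [hdist, FTG.dist_SS_sq, hu' e.1, hu' e.2] at h2
    unfold EdgeOK
    have h3 : 0 < α ^ 2 := by positivity
    have h4 : α ^ 2 * dist (G e.1) (G e.2) ^ 2 ≤
        α ^ 2 * (dist e.1.2 e.2.2 ^ 2 - (e.2.1 - e.1.1) * (h e.2 - h e.1)) := by
      nlinarith [sq_nonneg (α ^ 2 * (h e.2 - h e.1))]
    exact le_of_mul_le_mul_left h4 h3
  · intro v hv w' hw' ht
    have h1 := hlow v hv w' hw'
    have h2 : dist (SS α p0 v) (SS α p0 w') ^ 2
        ≤ (D * dist (f (SS α p0 v)) (f (SS α p0 w'))) ^ 2 := pow_le_pow_left₀ dist_nonneg h1 2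
    rw [mul_pow, hdist, FTG.dist_SS_sq, hu' v, hu' w', ht] at h2
    unfold LowOK
    have h3 : 0 < α ^ 2 := by positivity
    have hD0 : 0 < D ^ 2 := by positivity
    rw [div_pow]
    have h5 : α ^ 2 * (D ^ 2 * (dist v.2 w'.2 ^ 2 / D ^ 2)) ≤
        α ^ 2 * (D ^ 2 * (dist (G v) (G w') ^ 2 + (α * (h v - h w')) ^ 2 / 4)) := by
      have e1 : D ^ 2 * (dist v.2 w'.2 ^ 2 / D ^ 2) = dist v.2 w'.2 ^ 2 := by field_simp
      rw [e1]
      nlinarith
    have h6 := le_of_mul_le_mul_left (le_of_mul_le_mul_left h5 h3) hD0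
    linarith
  · simp only [hh, hu]
    rw [← ha]
    simp
  · have e1 : u ((1 : ℝ), p0) = ‖f b - f a‖ := by
      simp only [hu]
      rw [← hb, hw, real_inner_smul_right, real_inner_self_eq_norm_sq]
      field_simp
    simp only [hh]
    rw [e1]
    apply div_nonneg _ (by positivity)
    linarith

end Crest.Agent.R254
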