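import Crest.Agent.R254.Core

/-!
Row 254 (S0392): basic geometry of timed programs.
-/

set_option autoImplicit false

namespace Crest.Agent.R254

namespace Geo

variable {H : Type}

theorem of_mem_stat {x : H} {S : Finset ℝ} {e : (ℝ × H) × (ℝ × H)} (he : e ∈ statEdges x S) :
    ∃ t ∈ S, ∃ t' ∈ S, t < t' ∧ (∀ s ∈ S, ¬ (t < s ∧ s < t')) ∧ e = ((t, x), (t', x)) := by
  classical
  unfold statEdges at he
  rw [Finset.mem_image] at he
  obtain ⟨p, hp, rfl⟩ := he
  rw [Finset.mem_filter, Finset.mem_product] at hp
  exact ⟨p.1, hp.1.1, p.2, hp.1.2, hp.2.1, hp.2.2, rfl⟩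

theorem mem_stat {x : H} {S : Finset ℝ} {t t' : ℝ} (ht : t ∈ S) (ht' : t' ∈ S) (h : t < t')
    (hc : ∀ s ∈ S, ¬ (t < s ∧ s < t')) : (((t, x), (t', x)) : (ℝ × H) × (ℝ × H)) ∈ statEdges x S := by
  classical
  unfold statEdges
  rw [Finset.mem_image]
  refine ⟨(t, t'), ?_, rfl⟩
  rw [Finset.mem_filter, Finset.mem_product]
  exact ⟨⟨ht, ht'⟩, h, hc⟩

theorem mem_times {x : H} {V : Finset (ℝ × H)} {t : ℝ} : t ∈ timesOf x V ↔ (t, x) ∈ V := by
  classical
  unfold timesOf
  simp only [Finset.mem_image, Finset.mem_filter]
  constructor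
  · rintro ⟨⟨a, b⟩, ⟨h1, h2⟩, h3⟩
    simp only at h2 h3
    rw [← h2, ← h3]
    exact h1
  · intro h
    exact ⟨(t, x), ⟨h, rfl⟩, rfl⟩

theorem verts_push (R τ : ℝ) (p x : H) (A : TProg H) (s : ℝ) (v : ℝ × H) :
    v ∈ verts (.push R τ p x A) s ↔ v = (s + τ, p) ∨ v = (s + τ + R, x) ∨
      v = (s + 3 * τ + R + A.dur, x) ∨ v = (s + 3 * τ + 2 * R + A.dur, p) ∨
      v ∈ verts A (s + 2 * τ + R) := by
  classical
  simp only [verts, Finset.mem_union, Finset.mem_insert, Finset.mem_singleton]
  tauto

theorem verts_seq (A B : TProg H) (s : ℝ) (v : ℝ × H) :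
    v ∈ verts (.seq A B) s ↔ v ∈ verts A s ∨ v ∈ verts B (s + A.dur) := by
  classical
  simp only [verts, Finset.mem_union]

/-- the times used for the static edges in a push. -/
noncomputable def pS (R τ : ℝ) (x : H) (A : TProg H) (s : ℝ) : Finset ℝ :=
  insert (s + τ + R) (insert (s + 3 * τ + R + A.dur) (timesOf x (verts A (s + 2 * τ + R))))

theorem mem_pS (R τ : ℝ) (x : H) (A : TProg H) (s t : ℝ) :
    t ∈ pS R τ x A s ↔ t = s + τ + R ∨ t = s + 3 * τ + R + A.dur ∨
      (t, x) ∈ verts A (s + 2 * τ + R) := by
  unfold pS
  rw [Finset.mem_insert, Finset.mem_insert, mem_times]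

theorem edges_push (R τ : ℝ) (p x : H) (A : TProg H) (s : ℝ) (e : (ℝ × H) × (ℝ × H)) :
    e ∈ edges (.push R τ p x A) s ↔ e = ((s + τ, p), (s + τ + R, x)) ∨
      e = ((s + 3 * τ + R + A.dur, x), (s + 3 * τ + 2 * R + A.dur, p)) ∨
      e ∈ edges A (s + 2 * τ + R) ∨ e ∈ statEdges x (pS R τ x A s) := by
  classical
  simp only [edges, Finset.mem_union, Finset.mem_insert, Finset.mem_singleton, pS]
  tauto

theorem edges_seq (A B : TProg H) (s : ℝ) (e : (ℝ × H) × (ℝ × H)) :
    e ∈ edges (.seq A B) s ↔ e ∈ edges A s ∨ e ∈ edges B (s + A.dur) := by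
  classical
  simp only [edges, Finset.mem_union]

theorem dur_nonneg (TA : TProg H) (h : TA.Pos) : 0 ≤ TA.dur := by
  induction TA with
  | skip => exact le_refl _
  | seq A B ihA ihB => simp only [TProg.dur]; linarith [ihA h.1, ihB h.2]
  | test τ x y => simp only [TProg.dur, TProg.Pos] at *; linarith
  | low τ x y => simp only [TProg.dur, TProg.Pos] at *; linarith
  | push R τ p x A ih =>
    obtain ⟨h1, h2, h3⟩ := h
    simp only [TProg.dur]
    linarith [ih h3]

theorem range_v (TA : TProg H) (h : TA.Pos) :
    ∀ s : ℝ, ∀ v ∈ verts TA s, s < v.1 ∧ v.1 < s + TA.dur := by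
  induction TA with
  | skip => intro s v hv; simp [verts] at hv
  | seq A B ihA ihB =>
    intro s v hv
    have h1 := dur_nonneg A h.1
    have h2 := dur_nonneg B h.2
    rw [verts_seq] at hv
    simp only [TProg.dur]
    rcases hv with hv | hv
    · have := ihA h.1 s v hv
      constructor <;> linarith
    · have := ihB h.2 _ v hv
      constructor <;> linarith
  | test τ x y =>
    intro s v hv
    simp only [verts, Finset.mem_insert, Finset.mem_singleton] at hv
    simp only [TProg.dur, TProg.Pos] at *
    rcases hv with rfl | rfl <;> constructor <;> simp only <;> linarith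
  | low τ x y =>
    intro s v hv
    simp only [verts, Finset.mem_insert, Finset.mem_singleton] at hv
    simp only [TProg.dur, TProg.Pos] at *
    rcases hv with rfl | rfl <;> constructor <;> simp only <;> linarith
  | push R τ p x A ih =>
    intro s v hv
    obtain ⟨h1, h2, h3⟩ := h
    have h4 := dur_nonneg A h3
    rw [verts_push] at hv
    simp only [TProg.dur]
    rcases hv with rfl | rfl | rfl | rfl | hv
    · constructor <;> simp only <;> linarith
    · constructor <;> simp only <;> linarith
    · constructor <;> simp only <;> linarith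
    · constructor <;> simp only <;> linarith
    · have := ih h3 _ v hv
      constructor <;> linarith

theorem edges_v (TA : TProg H) (h : TA.Pos) :
    ∀ s : ℝ, ∀ e ∈ edges TA s, e.1 ∈ verts TA s ∧ e.2 ∈ verts TA s ∧ e.1.1 < e.2.1 := by
  induction TA with
  | skip => intro s e he; simp [edges] at he
  | seq A B ihA ihB =>
    intro s e he
    rw [edges_seq] at he
    rw [verts_seq, verts_seq]
    rcases he with he | he
    · have := ihA h.1 s e he
      exact ⟨Or.inl this.1, Or.inl this.2.1, this.2.2⟩
    · have := ihB h.2 _ e he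
      exact ⟨Or.inr this.1, Or.inr this.2.1, this.2.2⟩
  | test τ x y =>
    intro s e he
    simp only [edges, Finset.mem_singleton] at he
    subst he
    have hτ : 0 < τ := h
    refine ⟨?_, ?_, by simp only; linarith⟩
    · simp [verts]
    · simp [verts]
  | low τ x y => intro s e he; simp [edges] at he
  | push R τ p x A ih =>
    intro s e he
    obtain ⟨h1, h2, h3⟩ := h
    have h4 := dur_nonneg A h3
    rw [edges_push] at he
    rw [verts_push, verts_push]
    rcases he with rfl | rfl | he | he
    · exact ⟨Or.inl rfl, Or.inr (Or.inl rfl), by simp only; linarith⟩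
    · exact ⟨Or.inr (Or.inr (Or.inl rfl)), Or.inr (Or.inr (Or.inr (Or.inl rfl))), by
        simp only; linarith⟩
    · have := ih h3 _ e he
      exact ⟨Or.inr (Or.inr (Or.inr (Or.inr this.1))),
        Or.inr (Or.inr (Or.inr (Or.inr this.2.1))), this.2.2⟩
    · obtain ⟨t, ht, t', ht', htt, _, rfl⟩ := of_mem_stat he
      rw [mem_pS] at ht ht'
      refine ⟨?_, ?_, htt⟩
      · rcases ht with rfl | rfl | ht
        · exact Or.inr (Or.inl rfl)
        · exact Or.inr (Or.inr (Or.inl rfl))
        · exact Or.inr (Or.inr (Or.inr (Or.inr ht)))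
      · rcases ht' with rfl | rfl | ht'
        · exact Or.inr (Or.inl rfl)
        · exact Or.inr (Or.inr (Or.inl rfl))
        · exact Or.inr (Or.inr (Or.inr (Or.inr ht')))

theorem card_le_one {T : Finset (ℝ × H)} {w : ℝ × H} (h : ∀ v ∈ T, v = w) : T.card ≤ 2 := by
  have : T ⊆ {w} := fun v hv => by rw [Finset.mem_singleton]; exact h v hv
  exact (Finset.card_le_card this).trans (by simp)

theorem two_v (TA : TProg H) (h : TA.Pos) :
    ∀ s t : ℝ, ∀ T : Finset (ℝ × H), T ⊆ verts TA s → (∀ v ∈ T, v.1 = t) → T.card ≤ 2 := by
  classical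
  induction TA with
  | skip =>
    intro s t T hT _
    refine (Finset.card_le_card hT).trans ?_
    simp [verts]
  | seq A B ihA ihB =>
    intro s t T hT ht
    rcases le_or_gt t (s + A.dur) with hlt | hlt
    · apply ihA h.1 s t T _ ht
      intro v hv
      have h1 := hT hv
      rw [verts_seq] at h1
      rcases h1 with h1 | h1
      · exact h1
      · have := (range_v B h.2 _ v h1).1
        have := ht v hv
        linarith
    · apply ihB h.2 (s + A.dur) t T _ ht
      intro v hv
      have h1 := hT hv
      rw [verts_seq] at h1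
      rcases h1 with h1 | h1
      · have := (range_v A h.1 _ v h1).2
        have := ht v hv
        linarith
      · exact h1
  | test τ x y =>
    intro s t T hT ht
    refine (Finset.card_le_card hT).trans ?_
    simp only [verts]
    refine (Finset.card_insert_le _ _).trans ?_
    simp
  | low τ x y =>
    intro s t T hT ht
    refine (Finset.card_le_card hT).trans ?_
    simp only [verts]
    refine (Finset.card_insert_le _ _).trans ?_
    simp
  | push R τ p x A ih =>
    intro s t T hT ht
    obtain ⟨h1, h2, h3⟩ := h
    have h4 := dur_nonneg A h3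
    by_cases hTA : T ⊆ verts A (s + 2 * τ + R)
    · exact ih h3 _ t T hTA ht
    · obtain ⟨w, hw, hw'⟩ := Finset.not_subset.mp hTA
      apply card_le_one (w := w)
      intro v hv
      have a1 := ht w hw
      have a2 := ht v hv
      have b1 := hT hw
      have b2 := hT hv
      rw [verts_push] at b1 b2
      rcases b1 with rfl | rfl | rfl | rfl | b1
      · rcases b2 with rfl | rfl | rfl | rfl | b2
        · rfl
        · exfalso; simp only at a1 a2; linarith
        · exfalso; simp only at a1 a2; linarith
        · exfalso; simp only at a1 a2; linarith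
        · exfalso
          have := range_v A h3 _ v b2
          simp only at a1 a2
          linarith [this.1, this.2]
      · rcases b2 with rfl | rfl | rfl | rfl | b2
        · exfalso; simp only at a1 a2; linarith
        · rfl
        · exfalso; simp only at a1 a2; linarith
        · exfalso; simp only at a1 a2; linarith
        · exfalso
          have := range_v A h3 _ v b2
          simp only at a1 a2
          linarith [this.1, this.2]
      · rcases b2 with rfl | rfl | rfl | rfl | b2
        · exfalso; simp only at a1 a2; linarith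
        · exfalso; simp only at a1 a2; linarith
        · rfl
        · exfalso; simp only at a1 a2; linarith
        · exfalso
          have := range_v A h3 _ v b2
          simp only at a1 a2
          linarith [this.1, this.2]
      · rcases b2 with rfl | rfl | rfl | rfl | b2
        · exfalso; simp only at a1 a2; linarith
        · exfalso; simp only at a1 a2; linarith
        · exfalso; simp only at a1 a2; linarith
        · rfl
        · exfalso
          have := range_v A h3 _ v b2
          simp only at a1 a2
          linarith [this.1, this.2]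
      · exact absurd b1 hw'

end Geo

open Geo in
theorem geoBasic : GeoBasicStmt := by
  intro H TA hpos s
  exact ⟨dur_nonneg TA hpos, range_v TA hpos s, edges_v TA hpos s, two_v TA hpos s⟩

end Crest.Agent.R254
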