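import Crest.Agent.R254.Core

/-!
Row 254 (S0392): GEOCONN.
-/

set_option autoImplicit false
set_option linter.unusedSectionVars false

namespace Crest.Agent.R254

namespace GeoConn

variable {H : Type}

/-- connectedness through a set of edges. -/
def Cn (E : Finset ((ℝ × H) × (ℝ × H))) : ℝ × H → ℝ × H → Prop :=
  Relation.ReflTransGen (fun x y => (x, y) ∈ E ∨ (y, x) ∈ E)

variable {E E' : Finset ((ℝ × H) × (ℝ × H))} {u v w : ℝ × H}

theorem Cn.refl : Cn E u u := Relation.ReflTransGen.refl

theorem Cn.trans (h1 : Cn E u v) (h2 : Cn E v w) : Cn E u w :=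
  Relation.ReflTransGen.trans h1 h2

theorem Cn.symm (h : Cn E u v) : Cn E v u := by
  unfold Cn at h ⊢
  induction h with
  | refl => exact Relation.ReflTransGen.refl
  | tail _ hbc ih => exact Relation.ReflTransGen.head hbc.symm ih

theorem Cn.mono (h : Cn E u v) (hE : ∀ e ∈ E, e ∈ E') : Cn E' u v := by
  unfold Cn at h ⊢
  induction h with
  | refl => exact Relation.ReflTransGen.refl
  | tail _ hbc ih => exact Relation.ReflTransGen.tail ih (hbc.imp (hE _) (hE _))

theorem Cn.edge (h : (u, v) ∈ E) : Cn E u v :=
  Relation.ReflTransGen.single (Or.inl h)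

theorem mem_timesOf {x : H} {V : Finset (ℝ × H)} {t : ℝ} (ht : (t, x) ∈ V) :
    t ∈ timesOf x V := by
  unfold timesOf
  simp only [Finset.mem_image, Finset.mem_filter]
  exact ⟨(t, x), ⟨ht, rfl⟩, rfl⟩

theorem stat_lt (x : H) (S : Finset ℝ) : ∀ (n : ℕ) (t t' : ℝ), t ∈ S → t' ∈ S → t < t' →
    (S.filter (fun s => t < s ∧ s < t')).card ≤ n → Cn (statEdges x S) (t, x) (t', x) := by
  intro n
  induction n with
  | zero =>
    intro t t' ht ht' hlt hc
    apply Cn.edge
    unfold statEdges
    simp only [Finset.mem_image, Finset.mem_filter, Finset.mem_product]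
    refine ⟨(t, t'), ⟨⟨ht, ht'⟩, hlt, ?_⟩, rfl⟩
    intro s hs hss
    have : s ∈ S.filter (fun s => t < s ∧ s < t') := Finset.mem_filter.2 ⟨hs, hss⟩
    have h0 : S.filter (fun s => t < s ∧ s < t') = ∅ := Finset.card_eq_zero.1 (by omega)
    rw [h0] at this
    exact absurd this (Finset.notMem_empty s)
  | succ n ih =>
    intro t t' ht ht' hlt hc
    by_cases hne : (S.filter (fun s => t < s ∧ s < t')).Nonempty
    · obtain ⟨s, hs⟩ := hne
      have hs' := hs
      rw [Finset.mem_filter] at hs'
      obtain ⟨hsS, h1, h2⟩ := hs'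
      have hc1 : (S.filter (fun r => t < r ∧ r < s)).card ≤ n := by
        have : (S.filter (fun r => t < r ∧ r < s)).card
            < (S.filter (fun s => t < s ∧ s < t')).card := by
          apply Finset.card_lt_card
          rw [Finset.ssubset_iff_of_subset]
          · exact ⟨s, hs, by simp⟩
          · intro r hr
            rw [Finset.mem_filter] at hr ⊢
            exact ⟨hr.1, hr.2.1, hr.2.2.trans h2⟩
        omega
      have hc2 : (S.filter (fun r => s < r ∧ r < t')).card ≤ n := by
        have : (S.filter (fun r => s < r ∧ r < t')).card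
            < (S.filter (fun s => t < s ∧ s < t')).card := by
          apply Finset.card_lt_card
          rw [Finset.ssubset_iff_of_subset]
          · exact ⟨s, hs, by simp⟩
          · intro r hr
            rw [Finset.mem_filter] at hr ⊢
            exact ⟨hr.1, h1.trans hr.2.1, hr.2.2⟩
        omega
      exact (ih t s ht hsS h1 hc1).trans (ih s t' hsS ht' h2 hc2)
    · rw [Finset.not_nonempty_iff_eq_empty] at hne
      exact ih t t' ht ht' hlt (by rw [hne]; simp)

theorem stat (x : H) (S : Finset ℝ) {t t' : ℝ} (ht : t ∈ S) (ht' : t' ∈ S) :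
    Cn (statEdges x S) (t, x) (t', x) := by
  rcases lt_trichotomy t t' with h | h | h
  · exact stat_lt x S _ t t' ht ht' h le_rfl
  · subst h; exact Cn.refl
  · exact (stat_lt x S _ t' t ht' ht h le_rfl).symm

theorem block [NormedAddCommGroup H] [InnerProductSpace ℝ H] (TA : TProg H) :
    ∀ (X : Set H) (s : ℝ), WF TA.erase X → ∀ v ∈ verts TA s,
      ∃ (t : ℝ) (x' : H), x' ∈ X ∧ (t, x') ∈ verts TA s ∧ Cn (edges TA s) v (t, x') := by
  induction TA with
  | skip =>
    intro X s _ v hv
    simp only [verts, Finset.notMem_empty] at hv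
  | seq A B ihA ihB =>
    intro X s hW v hv
    simp only [verts, Finset.mem_union] at hv
    rcases hv with hv | hv
    · obtain ⟨t, x', h1, h2, h3⟩ := ihA X s hW.1 v hv
      refine ⟨t, x', h1, ?_, h3.mono ?_⟩
      · simp only [verts, Finset.mem_union]; exact Or.inl h2
      · intro e he
        simp only [edges, Finset.mem_union]; exact Or.inl he
    · obtain ⟨t, x', h1, h2, h3⟩ := ihB X (s + A.dur) hW.2 v hv
      refine ⟨t, x', h1, ?_, h3.mono ?_⟩
      · simp only [verts, Finset.mem_union]; exact Or.inr h2
      · intro e he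
        simp only [edges, Finset.mem_union]; exact Or.inr he
  | test τ x y =>
    intro X s hW v hv
    obtain ⟨hx, hy, -, -⟩ := hW
    have hv' := hv
    simp only [verts, Finset.mem_insert, Finset.mem_singleton] at hv
    rcases hv with rfl | rfl
    · exact ⟨_, x, hx, hv', Cn.refl⟩
    · exact ⟨_, y, hy, hv', Cn.refl⟩
  | low τ x y =>
    intro X s hW v hv
    obtain ⟨hx, hy, -⟩ := hW
    have hv' := hv
    simp only [verts, Finset.mem_insert, Finset.mem_singleton] at hv
    rcases hv with rfl | rfl
    · exact ⟨_, x, hx, hv', Cn.refl⟩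
    · exact ⟨_, y, hy, hv', Cn.refl⟩
  | push R τ p x A ih =>
    intro X s hW v hv
    obtain ⟨hp, -, -, hWA⟩ := hW
    -- the mover edges
    have hm1 : Cn (edges (TProg.push R τ p x A) s) (s + τ, p) (s + τ + R, x) := by
      apply Cn.edge
      simp only [edges, Finset.mem_union, Finset.mem_insert, true_or]
    have hm2 : Cn (edges (TProg.push R τ p x A) s) (s + 3 * τ + R + A.dur, x)
        (s + 3 * τ + 2 * R + A.dur, p) := by
      apply Cn.edge
      simp only [edges, Finset.mem_union, Finset.mem_insert, Finset.mem_singleton, or_true,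
        true_or]
    have hv1 : ((s + τ, p) : ℝ × H) ∈ verts (TProg.push R τ p x A) s := by
      simp only [verts, Finset.mem_union, Finset.mem_insert, true_or]
    have hv4 : ((s + 3 * τ + 2 * R + A.dur, p) : ℝ × H) ∈ verts (TProg.push R τ p x A) s := by
      simp only [verts, Finset.mem_union, Finset.mem_insert, Finset.mem_singleton, or_true,
        true_or]
    simp only [verts, Finset.mem_union, Finset.mem_insert, Finset.mem_singleton] at hv
    rcases hv with (rfl | rfl | rfl | rfl) | hv
    · exact ⟨_, p, hp, hv1, Cn.refl⟩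
    · exact ⟨_, p, hp, hv1, hm1.symm⟩
    · exact ⟨_, p, hp, hv4, hm2⟩
    · exact ⟨_, p, hp, hv4, Cn.refl⟩
    · obtain ⟨t, x', h1, h2, h3⟩ := ih (insert x X) (s + 2 * τ + R) hWA v hv
      have h3' : Cn (edges (TProg.push R τ p x A) s) v (t, x') := by
        refine h3.mono ?_
        intro e he
        simp only [edges, Finset.mem_union]
        exact Or.inl (Or.inr he)
      rcases h1 with h1 | h1
      · subst h1
        have hst : Cn (statEdges x' (insert (s + τ + R) (insert (s + 3 * τ + R + A.dur)
            (timesOf x' (verts A (s + 2 * τ + R)))))) (t, x') (s + τ + R, x') := by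
          refine stat x' _ ?_ ?_
          · exact Finset.mem_insert_of_mem (Finset.mem_insert_of_mem (mem_timesOf h2))
          · exact Finset.mem_insert_self _ _
        have hst' : Cn (edges (TProg.push R τ p x' A) s) (t, x') (s + τ + R, x') := by
          refine hst.mono ?_
          intro e he
          simp only [edges, Finset.mem_union]
          exact Or.inr he
        exact ⟨_, p, hp, hv1, (h3'.trans hst').trans hm1.symm⟩
      · refine ⟨t, x', h1, ?_, h3'⟩
        simp only [verts, Finset.mem_union]
        exact Or.inr h2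

end GeoConn

open GeoConn in
/-- GEOCONN. -/
theorem geoConn (_hg : GeoBasicStmt) : GeoConnStmt := by
  intro H _ _ TA p0 _ _ hW v hv
  change Cn (fullEdges TA p0) ((0 : ℝ), p0) v
  have hst : ∀ t ∈ (insert 0 (insert 1 (timesOf p0 (verts TA (1 / 4)))) : Finset ℝ),
      Cn (fullEdges TA p0) ((0 : ℝ), p0) (t, p0) := by
    intro t ht
    refine (stat p0 _ (Finset.mem_insert_self _ _) ht).mono ?_
    intro e he
    simp only [fullEdges, Finset.mem_union]
    exact Or.inr he
  simp only [fullVerts, Finset.mem_union, Finset.mem_insert, Finset.mem_singleton] at hv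
  rcases hv with (rfl | rfl) | hv
  · exact Cn.refl
  · exact hst 1 (Finset.mem_insert_of_mem (Finset.mem_insert_self _ _))
  · obtain ⟨t, x', h1, h2, h3⟩ := block TA {p0} (1 / 4) hW v hv
    rw [Set.mem_singleton_iff] at h1
    subst h1
    refine (hst t ?_).trans (Cn.symm (h3.mono ?_))
    · exact Finset.mem_insert_of_mem (Finset.mem_insert_of_mem (mem_timesOf h2))
    · intro e he
      simp only [fullEdges, Finset.mem_union]
      exact Or.inl he

end Crest.Agent.R254
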