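import Crest.Agent.R254.Core

/-!
Row 254 (S0392): GEOCOV.
-/

set_option autoImplicit false
set_option linter.unusedSectionVars false

namespace Crest.Agent.R254

namespace GeoCov

variable {H : Type}

section
variable [AddCommGroup H] [Module ℝ H] {Q : Set H → Prop} {G G' : Set (ℝ × H)} {a b c : ℝ}

theorem cov_le (h : Cov Q G a b) : a ≤ b := by
  induction h with
  | nil t => exact le_rfl
  | cons t1 t2 t3 C m hlt hC hcov h' ih => exact hlt.le.trans ih

theorem cov_trans (h1 : Cov Q G a b) (h2 : Cov Q G b c) : Cov Q G a c := by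
  induction h1 with
  | nil t => exact h2
  | cons t1 t2 t3 C m hlt hC hcov h' ih => exact Cov.cons t1 t2 _ C m hlt hC hcov (ih h2)

theorem cov_mono (h : Cov Q G' a b) (hG : ∀ z ∈ G, a ≤ z.1 → z.1 ≤ b → z ∈ G') :
    Cov Q G a b := by
  induction h with
  | nil t => exact Cov.nil t
  | cons t1 t2 t3 C m hlt hC hcov h' ih =>
    refine Cov.cons t1 t2 t3 C m hlt hC
      (fun z hz h1 h2 => hcov z (hG z hz h1 (h2.trans (cov_le h'))) h1 h2)
      (ih (fun z hz h1 h2 => hG z hz (by linarith) h2))

theorem cov_one (hlt : a < b) (C : Set H) (m : (ℝ × H) × (ℝ × H)) (hC : Q C)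
    (hcov : ∀ z ∈ G, a ≤ z.1 → z.1 ≤ b → z.2 ∈ C ∨ z ∈ segment ℝ m.1 m.2) : Cov Q G a b :=
  Cov.cons a b b C m hlt hC hcov (Cov.nil b)

theorem seg_fst {u v z : ℝ × H} (h : z ∈ segment ℝ u v) (huv : u.1 ≤ v.1) :
    u.1 ≤ z.1 ∧ z.1 ≤ v.1 := by
  obtain ⟨α, β, hα, hβ, hαβ, rfl⟩ := h
  simp only [Prod.fst_add, Prod.smul_fst, smul_eq_mul]
  obtain rfl : α = 1 - β := by linarith
  constructor
  · nlinarith [mul_nonneg hβ (sub_nonneg.2 huv)]
  · nlinarith [mul_nonneg hα (sub_nonneg.2 huv)]

theorem seg_snd {t t' : ℝ} {x : H} {z : ℝ × H} (h : z ∈ segment ℝ (t, x) (t', x)) :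
    z.2 = x := by
  obtain ⟨α, β, hα, hβ, hαβ, rfl⟩ := h
  simp only [Prod.snd_add, Prod.smul_snd]
  rw [← add_smul, hαβ, one_smul]

theorem mem_edgeUnion {E : Finset ((ℝ × H) × (ℝ × H))} {z : ℝ × H} :
    z ∈ edgeUnion E ↔ ∃ e ∈ E, z ∈ segment ℝ e.1 e.2 := by
  simp only [edgeUnion, Set.mem_iUnion, exists_prop]

theorem mem_statEdges {x : H} {S : Finset ℝ} {e : (ℝ × H) × (ℝ × H)}
    (he : e ∈ statEdges x S) : ∃ t ∈ S, ∃ t' ∈ S, t < t' ∧ e = ((t, x), (t', x)) := by
  unfold statEdges at he
  simp only [Finset.mem_image, Finset.mem_filter, Finset.mem_product] at he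
  obtain ⟨p, ⟨⟨h1, h2⟩, h3, _⟩, rfl⟩ := he
  exact ⟨p.1, h1, p.2, h2, h3, rfl⟩

theorem stat_point {x : H} {S : Finset ℝ} {l u : ℝ} (hS : ∀ t ∈ S, l ≤ t ∧ t ≤ u)
    {e : (ℝ × H) × (ℝ × H)} (he : e ∈ statEdges x S) {z : ℝ × H}
    (hz : z ∈ segment ℝ e.1 e.2) : z.2 = x ∧ l ≤ z.1 ∧ z.1 ≤ u := by
  obtain ⟨t, ht, t', ht', hlt, rfl⟩ := mem_statEdges he
  have h1 := seg_fst hz hlt.le
  have h2 := seg_snd hz
  simp only at h1
  exact ⟨h2, (hS t ht).1.trans h1.1, h1.2.trans (hS t' ht').2⟩

theorem mem_timesOf {x : H} {V : Finset (ℝ × H)} {t : ℝ} (ht : t ∈ timesOf x V) :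
    (t, x) ∈ V := by
  unfold timesOf at ht
  simp only [Finset.mem_image, Finset.mem_filter] at ht
  obtain ⟨v, ⟨h1, h2⟩, rfl⟩ := ht
  rw [← h2]
  exact h1

end

theorem allC_Q {Q : Set H → Prop} (A : Prog H) : ∀ X : Set H, AllC Q A X → Q X := by
  induction A with
  | skip => intro X h; exact h
  | seq A B ihA _ => intro X h; exact ihA X h.1
  | test x y => intro X h; exact h
  | low x y => intro X h; exact h
  | push p x A _ => intro X h; exact h.1

theorem edge_time (hg : GeoBasicStmt) [AddCommGroup H] [Module ℝ H] {TA : TProg H}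
    (hP : TA.Pos) {s : ℝ} {e : (ℝ × H) × (ℝ × H)} (he : e ∈ edges TA s) {z : ℝ × H}
    (hz : z ∈ segment ℝ e.1 e.2) : s < z.1 ∧ z.1 < s + TA.dur := by
  obtain ⟨_, h2, h3, _⟩ := hg H TA hP s
  obtain ⟨h4, h5, h6⟩ := h3 e he
  have h7 := seg_fst hz h6.le
  exact ⟨(h2 _ h4).1.trans_le h7.1, h7.2.trans_lt (h2 _ h5).2⟩

theorem block (hg : GeoBasicStmt) [AddCommGroup H] [Module ℝ H] {Q : Set H → Prop}
    (TA : TProg H) : ∀ (X : Set H) (s : ℝ), TA.Pos → AllC Q TA.erase X →
      Cov Q (edgeUnion (edges TA s) ∪ {z | z.2 ∈ X}) s (s + TA.dur) := by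
  induction TA with
  | skip =>
    intro X s _ _
    simp only [TProg.dur, add_zero]
    exact Cov.nil s
  | seq A B ihA ihB =>
    intro X s hP hQ
    have hA := ihA X s hP.1 hQ.1
    have hB := ihB X (s + A.dur) hP.2 hQ.2
    have hdur : s + (TProg.seq A B).dur = s + A.dur + B.dur := by
      simp only [TProg.dur]; ring
    rw [hdur]
    refine cov_trans (b := s + A.dur) (cov_mono hA ?_) (cov_mono hB ?_)
    · rintro z (hz | hz) h1 h2
      · rw [mem_edgeUnion] at hz
        obtain ⟨e, he, hze⟩ := hz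
        simp only [edges, Finset.mem_union] at he
        rcases he with he | he
        · exact Or.inl (mem_edgeUnion.2 ⟨e, he, hze⟩)
        · exact absurd (edge_time hg hP.2 he hze).1 (not_lt.2 h2)
      · exact Or.inr hz
    · rintro z (hz | hz) h1 h2
      · rw [mem_edgeUnion] at hz
        obtain ⟨e, he, hze⟩ := hz
        simp only [edges, Finset.mem_union] at he
        rcases he with he | he
        · exact absurd (edge_time hg hP.1 he hze).2 (not_lt.2 h1)
        · exact Or.inl (mem_edgeUnion.2 ⟨e, he, hze⟩)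
      · exact Or.inr hz
  | test τ x y =>
    intro X s hP hQ
    have hτ : 0 < τ := hP
    refine cov_one (by simp only [TProg.dur]; linarith) X ((s + τ, x), (s + 2 * τ, y)) hQ ?_
    rintro z (hz | hz) h1 h2
    · rw [mem_edgeUnion] at hz
      obtain ⟨e, he, hze⟩ := hz
      simp only [edges, Finset.mem_singleton] at he
      subst he
      exact Or.inr hze
    · exact Or.inl hz
  | low τ x y =>
    intro X s hP hQ
    have hτ : 0 < τ := hP
    refine cov_one (by simp only [TProg.dur]; linarith) X ((0, 0), (0, 0)) hQ ?_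
    rintro z (hz | hz) h1 h2
    · rw [mem_edgeUnion] at hz
      obtain ⟨e, he, hze⟩ := hz
      simp only [edges, Finset.notMem_empty] at he
    · exact Or.inl hz
  | push R τ p x A ih =>
    intro X s hP hQ
    obtain ⟨hR, hτ, hPA⟩ := hP
    obtain ⟨hQX, hQA⟩ := hQ
    have hA := ih (insert x X) (s + 2 * τ + R) hPA hQA
    have hQx : Q (insert x X) := allC_Q _ _ hQA
    obtain ⟨hd0, hvt, -, -⟩ := hg H A hPA (s + 2 * τ + R)
    have hS : ∀ t ∈ (insert (s + τ + R) (insert (s + 3 * τ + R + A.dur)
          (timesOf x (verts A (s + 2 * τ + R)))) : Finset ℝ),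
          s + τ + R ≤ t ∧ t ≤ s + 3 * τ + R + A.dur := by
      intro t ht
      simp only [Finset.mem_insert] at ht
      rcases ht with rfl | rfl | ht
      · constructor <;> linarith
      · constructor <;> linarith
      · have := hvt _ (mem_timesOf ht)
        simp only at this
        constructor <;> linarith
    -- classification of the points of the graph
    have key : ∀ z ∈ edgeUnion (edges (TProg.push R τ p x A) s) ∪ {z | z.2 ∈ X},
        (z ∈ segment ℝ ((s + τ, p) : ℝ × H) (s + τ + R, x) ∧ s + τ ≤ z.1 ∧ z.1 ≤ s + τ + R) ∨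
        (z ∈ segment ℝ ((s + 3 * τ + R + A.dur, x) : ℝ × H) (s + 3 * τ + 2 * R + A.dur, p) ∧
          s + 3 * τ + R + A.dur ≤ z.1 ∧ z.1 ≤ s + 3 * τ + 2 * R + A.dur) ∨
        (z ∈ edgeUnion (edges A (s + 2 * τ + R)) ∧ s + 2 * τ + R < z.1 ∧
          z.1 < s + 2 * τ + R + A.dur) ∨
        (z.2 = x ∧ s + τ + R ≤ z.1 ∧ z.1 ≤ s + 3 * τ + R + A.dur) ∨ z.2 ∈ X := by
      rintro z (hz | hz)
      · rw [mem_edgeUnion] at hz
        obtain ⟨e, he, hze⟩ := hz
        simp only [edges, Finset.mem_union, Finset.mem_insert, Finset.mem_singleton] at he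
        rcases he with ((he | he) | he) | he
        · subst he
          left
          have := seg_fst hze (by simp only; linarith)
          exact ⟨hze, this⟩
        · subst he
          right; left
          have := seg_fst hze (by simp only; linarith)
          exact ⟨hze, this⟩
        · right; right; left
          exact ⟨mem_edgeUnion.2 ⟨e, he, hze⟩, edge_time hg hPA he hze⟩
        · right; right; right; left
          exact stat_point hS he hze
      · right; right; right; right
        exact hz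
    have hdur : s + (TProg.push R τ p x A).dur = s + 4 * τ + 2 * R + A.dur := by
      simp only [TProg.dur]; ring
    rw [hdur]
    refine cov_trans (b := s + τ + R) ?_ (cov_trans (b := s + 2 * τ + R) ?_
      (cov_trans (b := s + 2 * τ + R + A.dur) ?_
        (cov_trans (b := s + 3 * τ + R + A.dur) ?_ ?_)))
    · refine cov_one (by linarith) X ((s + τ, p), (s + τ + R, x)) hQX ?_
      intro z hz h1 h2
      rcases key z hz with h | h | h | h | h
      · exact Or.inr h.1
      · exact absurd h.2.1 (by linarith)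
      · exact absurd h.2.1 (by linarith)
      · right
        have hz1 : z.1 = s + τ + R := le_antisymm h2 h.2.1
        have : z = (s + τ + R, x) := Prod.ext hz1 h.1
        rw [this]
        exact right_mem_segment _ _ _
      · exact Or.inl h
    · refine cov_one (by linarith) (insert x X) ((s + τ, p), (s + τ + R, x)) hQx ?_
      intro z hz h1 h2
      rcases key z hz with h | h | h | h | h
      · exact Or.inr h.1
      · exact absurd h.2.1 (by linarith)
      · exact absurd h.2.1 (by linarith)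
      · exact Or.inl (by rw [h.1]; exact Set.mem_insert _ _)
      · exact Or.inl (Set.mem_insert_of_mem _ h)
    · refine cov_mono hA ?_
      intro z hz h1 h2
      rcases key z hz with h | h | h | h | h
      · exact absurd h.2.2 (by linarith)
      · exact absurd h.2.1 (by linarith)
      · exact Or.inl h.1
      · exact Or.inr (by
          show z.2 ∈ insert x X
          rw [h.1]; exact Set.mem_insert _ _)
      · exact Or.inr (Set.mem_insert_of_mem _ h)
    · refine cov_one (by linarith) (insert x X)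
        ((s + 3 * τ + R + A.dur, x), (s + 3 * τ + 2 * R + A.dur, p)) hQx ?_
      intro z hz h1 h2
      rcases key z hz with h | h | h | h | h
      · exact absurd h.2.2 (by linarith)
      · exact Or.inr h.1
      · exact absurd h.2.2 (by linarith)
      · exact Or.inl (by rw [h.1]; exact Set.mem_insert _ _)
      · exact Or.inl (Set.mem_insert_of_mem _ h)
    · refine cov_one (by linarith) X
        ((s + 3 * τ + R + A.dur, x), (s + 3 * τ + 2 * R + A.dur, p)) hQX ?_
      intro z hz h1 h2
      rcases key z hz with h | h | h | h | h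
      · exact absurd h.2.2 (by linarith)
      · exact Or.inr h.1
      · exact absurd h.2.2 (by linarith)
      · right
        have hz1 : z.1 = s + 3 * τ + R + A.dur := le_antisymm h.2.2 h1
        have : z = (s + 3 * τ + R + A.dur, x) := Prod.ext hz1 h.1
        rw [this]
        exact left_mem_segment _ _ _
      · exact Or.inl h

end GeoCov

open GeoCov in
/-- GEOCOV. -/
theorem geoCov (hg : GeoBasicStmt) : GeoCovStmt := by
  intro H _ _ Q TA p0 hP hd _ hQ0 hQ
  have hB := block hg TA {p0} (1 / 4) hP hQ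
  obtain ⟨hd0, hvt, -, -⟩ := hg H TA hP (1 / 4)
  have key : ∀ z ∈ edgeUnion (fullEdges TA p0),
      (z ∈ edgeUnion (edges TA (1 / 4)) ∧ 1 / 4 < z.1 ∧ z.1 < 1 / 4 + TA.dur) ∨ z.2 = p0 := by
    intro z hz
    rw [mem_edgeUnion] at hz
    obtain ⟨e, he, hze⟩ := hz
    simp only [fullEdges, Finset.mem_union] at he
    rcases he with he | he
    · left
      exact ⟨mem_edgeUnion.2 ⟨e, he, hze⟩, edge_time hg hP he hze⟩
    · right
      obtain ⟨t, _, t', _, _, rfl⟩ := mem_statEdges he
      exact seg_snd hze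
  refine cov_trans (b := 1 / 4) ?_ (cov_trans (b := 1 / 4 + TA.dur) ?_ ?_)
  · refine cov_one (by norm_num) {p0} ((0, 0), (0, 0)) hQ0 ?_
    intro z hz h1 h2
    rcases key z hz with h | h
    · exact absurd h.2.1 (by linarith)
    · exact Or.inl h
  · refine cov_mono hB ?_
    intro z hz h1 h2
    rcases key z hz with h | h
    · exact Or.inl h.1
    · exact Or.inr h
  · refine cov_one (by linarith) {p0} ((0, 0), (0, 0)) hQ0 ?_
    intro z hz h1 h2
    rcases key z hz with h | h
    · exact absurd h.2.2 (by linarith)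
    · exact Or.inl h

end Crest.Agent.R254
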