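import Crest.Agent.R254.GeoSep

/-!
Row 254 (S0392): geometry of timed programs: two edges meet only at vertices.
-/

set_option autoImplicit false

namespace Crest.Agent.R254

namespace Geo

variable {H : Type} [NormedAddCommGroup H] [InnerProductSpace ℝ H]

theorem stat_stat {x : H} {S : Finset ℝ} {e e' : (ℝ × H) × (ℝ × H)} (he : e ∈ statEdges x S)
    (he' : e' ∈ statEdges x S) (hne : e ≠ e') {z : ℝ × H} (hz : z ∈ segment ℝ e.1 e.2)
    (hz' : z ∈ segment ℝ e'.1 e'.2) : z.1 ∈ S ∧ z = (z.1, x) := by
  obtain ⟨t1, ht1, t1', ht1', htt1, hcc1, rfl⟩ := of_mem_stat he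
  obtain ⟨t2, ht2, t2', ht2', htt2, hcc2, rfl⟩ := of_mem_stat he'
  obtain ⟨a1, a2, a3⟩ := seg_stat htt1 hz
  obtain ⟨b1, b2, _⟩ := seg_stat htt2 hz'
  refine ⟨?_, a3⟩
  rcases a1.eq_or_lt with h1 | h1
  · rw [← h1]; exact ht1
  rcases a2.eq_or_lt with h2 | h2
  · rw [h2]; exact ht1'
  rcases b1.eq_or_lt with h3 | h3
  · rw [← h3]; exact ht2
  rcases b2.eq_or_lt with h4 | h4
  · rw [h4]; exact ht2'
  exfalso
  have c1 : t2 ≤ t1 := by
    by_contra hc
    push Not at hc
    exact hcc1 t2 ht2 ⟨hc, by linarith⟩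
  have c2 : t1 ≤ t2 := by
    by_contra hc
    push Not at hc
    exact hcc2 t1 ht1 ⟨hc, by linarith⟩
  have c3 : t2' ≤ t1' := by
    by_contra hc
    push Not at hc
    exact hcc2 t1' ht1' ⟨by linarith, hc⟩
  have c4 : t1' ≤ t2' := by
    by_contra hc
    push Not at hc
    exact hcc1 t2' ht2' ⟨by linarith, hc⟩
  have d1 : t1 = t2 := le_antisymm c2 c1
  have d2 : t1' = t2' := le_antisymm c4 c3
  apply hne
  rw [d1, d2]

theorem edge_range {TA : TProg H} (h : TA.Pos) {s : ℝ} {e : (ℝ × H) × (ℝ × H)}
    (he : e ∈ edges TA s) {z : ℝ × H} (hz : z ∈ segment ℝ e.1 e.2) :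
    s < z.1 ∧ z.1 < s + TA.dur := by
  obtain ⟨a1, a2, a3⟩ := edges_v TA h _ e he
  have b1 := range_v TA h _ _ a1
  have b2 := range_v TA h _ _ a2
  obtain ⟨c1, c2, _⟩ := seg_time a3 hz
  constructor <;> linarith [b1.1, b2.2]

/-- a position of the base set is met only at vertices. -/
theorem block_alive (TA : TProg H) (h : TA.Pos) :
    ∀ (X : Set H), WF TA.erase X → ∀ s : ℝ, ∀ e ∈ edges TA s, ∀ x ∈ X, ∀ t : ℝ,
      (t, x) ∈ segment ℝ e.1 e.2 → (t, x) ∈ verts TA s := by
  induction TA with
  | skip => intro X _ s e he; simp [edges] at he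
  | seq A B ihA ihB =>
    intro X hw s e he x hx t ht
    rw [edges_seq] at he
    rw [verts_seq]
    rcases he with he | he
    · exact Or.inl (ihA h.1 X hw.1 s e he x hx t ht)
    · exact Or.inr (ihB h.2 X hw.2 _ e he x hx t ht)
  | test τ x y =>
    intro X hw s e he x' hx' t ht
    have hτ : 0 < τ := h
    obtain ⟨_, _, hxy, hw⟩ := hw
    simp only [edges, Finset.mem_singleton] at he
    subst he
    have hlt : s + τ < s + 2 * τ := by linarith
    simp only at ht
    obtain ⟨k1, k2, k3, k4, k5⟩ := seg_time (x := (s + τ, x)) (y := (s + 2 * τ, y)) hlt ht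
    have h1 := hw x' hx' k5
    obtain ⟨a, b, ha, hb, hab, hz⟩ := ht
    have hz1 : a * (s + τ) + b * (s + 2 * τ) = t := congrArg Prod.fst hz
    have hz2 : a • x + b • y = x' := congrArg Prod.snd hz
    obtain rfl : a = 1 - b := by linarith
    rcases h1 with h1 | h1
    · have h2 : b • (y - x) = 0 := by
        rw [h1] at hz2
        have : (1 - b) • x + b • y = x + b • (y - x) := by module
        rw [this] at hz2
        exact add_eq_left.mp hz2
      rcases smul_eq_zero.mp h2 with h3 | h3
      · have h4 : t = s + τ := by rw [h3] at hz1; linarith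
        have := k3 h4
        rw [this]
        simp [verts]
      · exact absurd (sub_eq_zero.mp h3).symm hxy
    · have h2 : (1 - b) • (x - y) = 0 := by
        rw [h1] at hz2
        have : (1 - b) • x + b • y = y + (1 - b) • (x - y) := by module
        rw [this] at hz2
        exact add_eq_left.mp hz2
      rcases smul_eq_zero.mp h2 with h3 | h3
      · have h5 : b = 1 := by linarith
        have h4 : t = s + 2 * τ := by rw [h5] at hz1; linarith
        have := k4 h4
        rw [this]
        simp [verts]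
      · exact absurd (sub_eq_zero.mp h3) hxy
  | low τ x y => intro X _ s e he; simp [edges] at he
  | push R τ p x A ih =>
    intro X hw s e he x' hx' t ht
    obtain ⟨hR, hτ, hA⟩ := h
    obtain ⟨hp, hx, hseg, hwA⟩ := hw
    have h4 := dur_nonneg A hA
    rw [edges_push] at he
    rw [verts_push]
    have hpx : p ≠ x := fun h => hx (h ▸ hp)
    rcases he with rfl | rfl | he | he
    · have hlt : s + τ < s + τ + R := by linarith
      simp only at ht
      obtain ⟨k1, k2, k3, k4, k5⟩ := seg_time (x := (s + τ, p)) (y := (s + τ + R, x)) hlt ht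
      have h1 := hseg x' hx' k5
      obtain ⟨a, b, ha, hb, hab, hz⟩ := ht
      have hz1 : a * (s + τ) + b * (s + τ + R) = t := congrArg Prod.fst hz
      have hz2 : a • p + b • x = x' := congrArg Prod.snd hz
      obtain rfl : a = 1 - b := by linarith
      have h2 : b • (x - p) = 0 := by
        rw [h1] at hz2
        have : (1 - b) • p + b • x = p + b • (x - p) := by module
        rw [this] at hz2
        exact add_eq_left.mp hz2
      rcases smul_eq_zero.mp h2 with h3 | h3
      · have h4 : t = s + τ := by rw [h3] at hz1; linarith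
        exact Or.inl (k3 h4)
      · exact absurd (sub_eq_zero.mp h3).symm hpx
    · have hlt : s + 3 * τ + R + A.dur < s + 3 * τ + 2 * R + A.dur := by linarith
      simp only at ht
      obtain ⟨k1, k2, k3, k4, k5⟩ := seg_time (x := (s + 3 * τ + R + A.dur, x))
        (y := (s + 3 * τ + 2 * R + A.dur, p)) hlt ht
      have k5' : x' ∈ segment ℝ p x := by rw [segment_symm]; exact k5
      have h1 := hseg x' hx' k5'
      obtain ⟨a, b, ha, hb, hab, hz⟩ := ht
      have hz1 : a * (s + 3 * τ + R + A.dur) + b * (s + 3 * τ + 2 * R + A.dur) = t :=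
        congrArg Prod.fst hz
      have hz2 : a • x + b • p = x' := congrArg Prod.snd hz
      obtain rfl : a = 1 - b := by linarith
      have h2 : (1 - b) • (x - p) = 0 := by
        rw [h1] at hz2
        have : (1 - b) • x + b • p = p + (1 - b) • (x - p) := by module
        rw [this] at hz2
        exact add_eq_left.mp hz2
      rcases smul_eq_zero.mp h2 with h3 | h3
      · have h5 : b = 1 := by linarith
        have h4 : t = s + 3 * τ + 2 * R + A.dur := by rw [h5] at hz1; linarith
        exact Or.inr (Or.inr (Or.inr (Or.inl (k4 h4))))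
      · exact absurd (sub_eq_zero.mp h3).symm hpx
    · exact Or.inr (Or.inr (Or.inr (Or.inr
        (ih hA (insert x X) hwA _ e he x' (Set.mem_insert_of_mem _ hx') t ht))))
    · exfalso
      obtain ⟨t1, ht1, t1', ht1', htt1, _, rfl⟩ := of_mem_stat he
      obtain ⟨_, _, a3⟩ := seg_stat htt1 ht
      have : x' = x := congrArg Prod.snd a3
      exact hx (this ▸ hx')

theorem block_emb (TA : TProg H) (h : TA.Pos) :
    ∀ (X : Set H), WF TA.erase X → ∀ s : ℝ, ∀ e ∈ edges TA s, ∀ e' ∈ edges TA s, e ≠ e' →
      ∀ z ∈ segment ℝ e.1 e.2, z ∈ segment ℝ e'.1 e'.2 → z ∈ verts TA s := by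
  induction TA with
  | skip => intro X _ s e he; simp [edges] at he
  | seq A B ihA ihB =>
    intro X hw s e he e' he' hne z hz hz'
    rw [edges_seq] at he he'
    rw [verts_seq]
    rcases he with he | he
    · rcases he' with he' | he'
      · exact Or.inl (ihA h.1 X hw.1 s e he e' he' hne z hz hz')
      · exfalso
        linarith [(edge_range h.1 he hz).2, (edge_range h.2 he' hz').1]
    · rcases he' with he' | he'
      · exfalso
        linarith [(edge_range h.2 he hz).1, (edge_range h.1 he' hz').2]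
      · exact Or.inr (ihB h.2 X hw.2 _ e he e' he' hne z hz hz')
  | test τ x y =>
    intro X hw s e he e' he' hne
    simp only [edges, Finset.mem_singleton] at he he'
    exact absurd (he.trans he'.symm) hne
  | low τ x y => intro X _ s e he; simp [edges] at he
  | push R τ p x A ih =>
    intro X hw s e he e' he' hne z hz hz'
    obtain ⟨hR, hτ, hA⟩ := h
    obtain ⟨hp, hx, hseg, hwA⟩ := hw
    have h4 := dur_nonneg A hA
    rw [edges_push] at he he'
    rw [verts_push]
    have m1 : ∀ e : (ℝ × H) × (ℝ × H), e = ((s + τ, p), (s + τ + R, x)) →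
        z ∈ segment ℝ e.1 e.2 → z.1 ≤ s + τ + R ∧ (z.1 = s + τ + R → z = (s + τ + R, x)) := by
      rintro e rfl hz
      obtain ⟨k1, k2, k3, k4, k5⟩ := seg_time (x := (s + τ, p)) (y := (s + τ + R, x))
        (by simp only; linarith) hz
      exact ⟨k2, k4⟩
    have m2 : ∀ e : (ℝ × H) × (ℝ × H),
        e = ((s + 3 * τ + R + A.dur, x), (s + 3 * τ + 2 * R + A.dur, p)) →
        z ∈ segment ℝ e.1 e.2 → s + 3 * τ + R + A.dur ≤ z.1 ∧
          (z.1 = s + 3 * τ + R + A.dur → z = (s + 3 * τ + R + A.dur, x)) := by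
      rintro e rfl hz
      obtain ⟨k1, k2, k3, k4, k5⟩ := seg_time (x := (s + 3 * τ + R + A.dur, x))
        (y := (s + 3 * τ + 2 * R + A.dur, p)) (by simp only; linarith) hz
      exact ⟨k1, k3⟩
    have m3 : ∀ e ∈ edges A (s + 2 * τ + R), z ∈ segment ℝ e.1 e.2 →
        s + 2 * τ + R < z.1 ∧ z.1 < s + 2 * τ + R + A.dur :=
      fun e he hz => edge_range hA he hz
    have m4 : ∀ e ∈ statEdges x (pS R τ x A s), z ∈ segment ℝ e.1 e.2 →
        s + τ + R ≤ z.1 ∧ z.1 ≤ s + 3 * τ + R + A.dur ∧ z = (z.1, x) := by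
      intro e he hz
      obtain ⟨t1, ht1, t1', ht1', htt1, _, rfl⟩ := of_mem_stat he
      obtain ⟨a1, a2, a3⟩ := seg_stat htt1 hz
      have b1 := (mem_pS_range hτ hA ht1).1
      have b2 := (mem_pS_range hτ hA ht1').2
      exact ⟨by linarith, by linarith, a3⟩
    have m34 : ∀ e ∈ edges A (s + 2 * τ + R), z ∈ segment ℝ e.1 e.2 → z = (z.1, x) →
        z ∈ verts A (s + 2 * τ + R) := by
      intro e he hz hzx
      rw [hzx] at hz ⊢
      exact block_alive A hA (insert x X) hwA _ e he x (Set.mem_insert _ _) z.1 hz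
    rcases he with he | he | he | he
    · have q1 := m1 e he hz
      rcases he' with he' | he' | he' | he'
      · exact absurd (he.trans he'.symm) hne
      · exfalso; linarith [(m2 e' he' hz').1]
      · exfalso; linarith [(m3 e' he' hz').1]
      · have := m4 e' he' hz'
        exact Or.inr (Or.inl (q1.2 (by linarith [this.1])))
    · have q1 := m2 e he hz
      rcases he' with he' | he' | he' | he'
      · exfalso; linarith [(m1 e' he' hz').1]
      · exact absurd (he.trans he'.symm) hne
      · exfalso; linarith [(m3 e' he' hz').2]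
      · have := m4 e' he' hz'
        exact Or.inr (Or.inr (Or.inl (q1.2 (by linarith [this.2.1]))))
    · have q1 := m3 e he hz
      rcases he' with he' | he' | he' | he'
      · exfalso; linarith [(m1 e' he' hz').1]
      · exfalso; linarith [(m2 e' he' hz').1]
      · exact Or.inr (Or.inr (Or.inr (Or.inr
          (ih hA (insert x X) hwA _ e he e' he' hne z hz hz'))))
      · have := m4 e' he' hz'
        exact Or.inr (Or.inr (Or.inr (Or.inr (m34 e he hz this.2.2))))
    · have q1 := m4 e he hz
      rcases he' with he' | he' | he' | he'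
      · have := m1 e' he' hz'
        exact Or.inr (Or.inl (this.2 (by linarith [this.1])))
      · have := m2 e' he' hz'
        exact Or.inr (Or.inr (Or.inl (this.2 (by linarith [this.1]))))
      · exact Or.inr (Or.inr (Or.inr (Or.inr (m34 e' he' hz' q1.2.2))))
      · obtain ⟨r1, r2⟩ := stat_stat he he' hne hz hz'
        rw [mem_pS] at r1
        rcases r1 with r1 | r1 | r1
        · right; left; rw [r2, r1]
        · right; right; left; rw [r2, r1]
        · right; right; right; right; rw [r2]; exact r1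

end Geo

open Geo in
theorem geoEmb : GeoEmbStmt := by
  intro H _ _ TA p0 hpos hdur hwf e he e' he' hne z hz hz'
  rw [mem_fullEdges] at he he'
  rw [mem_fullVerts]
  rcases he with he | he
  · rcases he' with he' | he'
    · exact Or.inr (Or.inr (block_emb TA hpos {p0} hwf _ e he e' he' hne z hz hz'))
    · obtain ⟨t, ht, t', ht', htt, _, rfl⟩ := of_mem_stat he'
      obtain ⟨_, _, a3⟩ := seg_stat htt hz'
      rw [a3] at hz ⊢
      exact Or.inr (Or.inr (block_alive TA hpos {p0} hwf _ e he p0 rfl z.1 hz))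
  · rcases he' with he' | he'
    · obtain ⟨t, ht, t', ht', htt, _, rfl⟩ := of_mem_stat he
      obtain ⟨_, _, a3⟩ := seg_stat htt hz
      rw [a3] at hz' ⊢
      exact Or.inr (Or.inr (block_alive TA hpos {p0} hwf _ e' he' p0 rfl z.1 hz'))
    · obtain ⟨r1, r2⟩ := stat_stat he he' hne hz hz'
      rw [r2]
      exact (mem_fullVerts _ _ _).mp (mem_S0_vert r1)

end Crest.Agent.R254
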