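import Crest.Agent.R254.GeoBasic

/-!
Row 254 (S0392): geometry of timed programs: vertices on edges, intersections of edges.
-/

set_option autoImplicit false

namespace Crest.Agent.R254

namespace Geo

variable {H : Type}

section
variable [AddCommGroup H] [Module ℝ H]

theorem seg_time {x y z : ℝ × H} (h : x.1 < y.1) (hz : z ∈ segment ℝ x y) :
    x.1 ≤ z.1 ∧ z.1 ≤ y.1 ∧ (z.1 = x.1 → z = x) ∧ (z.1 = y.1 → z = y) ∧
      z.2 ∈ segment ℝ x.2 y.2 := by
  obtain ⟨a, b, ha, hb, hab, rfl⟩ := hz
  obtain rfl : a = 1 - b := by linarith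
  simp only [Prod.fst_add, Prod.smul_fst, smul_eq_mul]
  refine ⟨by nlinarith, by nlinarith, ?_, ?_, ⟨1 - b, b, ha, hb, hab, rfl⟩⟩
  · intro h1
    have h2 : b * (y.1 - x.1) = 0 := by linarith
    rcases mul_eq_zero.mp h2 with h3 | h3
    · rw [h3]; simp
    · exfalso; linarith
  · intro h1
    have h2 : (1 - b) * (y.1 - x.1) = 0 := by linarith
    rcases mul_eq_zero.mp h2 with h3 | h3
    · have : b = 1 := by linarith
      rw [this]; simp
    · exfalso; linarith

theorem seg_stat {t t' : ℝ} {x : H} {z : ℝ × H} (h : t < t')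
    (hz : z ∈ segment ℝ ((t, x) : ℝ × H) (t', x)) : t ≤ z.1 ∧ z.1 ≤ t' ∧ z = (z.1, x) := by
  obtain ⟨h1, h2, _, _, h3⟩ := seg_time (x := (t, x)) (y := (t', x)) h hz
  refine ⟨h1, h2, ?_⟩
  simp only [segment_same, Set.mem_singleton_iff] at h3
  rw [← h3]

omit [AddCommGroup H] [Module ℝ H] in
theorem mem_pS_range {R τ : ℝ} {x : H} {A : TProg H} {s t : ℝ} (hτ : 0 < τ) (hA : A.Pos)
    (ht : t ∈ pS R τ x A s) : s + τ + R ≤ t ∧ t ≤ s + 3 * τ + R + A.dur := by
  have h4 := dur_nonneg A hA
  rw [mem_pS] at ht
  rcases ht with rfl | rfl | ht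
  · constructor <;> linarith
  · constructor <;> linarith
  · have := range_v A hA _ _ ht
    simp only at this
    constructor <;> linarith [this.1, this.2]

theorem block_sep (TA : TProg H) (h : TA.Pos) :
    ∀ s : ℝ, ∀ e ∈ edges TA s, ∀ v ∈ verts TA s, v ∈ segment ℝ e.1 e.2 →
      e.1.1 < v.1 → v.1 < e.2.1 → False := by
  induction TA with
  | skip => intro s e he; simp [edges] at he
  | seq A B ihA ihB =>
    intro s e he v hv hve h1 h2
    rw [edges_seq] at he
    rw [verts_seq] at hv
    rcases he with he | he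
    · rcases hv with hv | hv
      · exact ihA h.1 s e he v hv hve h1 h2
      · have q1 := range_v B h.2 _ v hv
        have q2 := range_v A h.1 _ e.2 (edges_v A h.1 s e he).2.1
        linarith [q1.1, q2.2]
    · rcases hv with hv | hv
      · have q1 := range_v A h.1 _ v hv
        have q2 := range_v B h.2 _ e.1 (edges_v B h.2 _ e he).1
        linarith [q1.2, q2.1]
      · exact ihB h.2 _ e he v hv hve h1 h2
  | test τ x y =>
    intro s e he v hv hve h1 h2
    simp only [edges, Finset.mem_singleton] at he
    subst he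
    simp only [verts, Finset.mem_insert, Finset.mem_singleton] at hv
    rcases hv with rfl | rfl <;> simp only at h1 h2 <;> linarith
  | low τ x y => intro s e he; simp [edges] at he
  | push R τ p x A ih =>
    intro s e he v hv hve q1 q2
    obtain ⟨h1, h2, h3⟩ := h
    have h4 := dur_nonneg A h3
    rw [edges_push] at he
    rw [verts_push] at hv
    rcases he with rfl | rfl | he | he
    · rcases hv with rfl | rfl | rfl | rfl | hv
      · simp only at q1 q2; linarith
      · simp only at q1 q2; linarith
      · simp only at q1 q2; linarith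
      · simp only at q1 q2; linarith
      · have := range_v A h3 _ v hv
        simp only at q1 q2
        linarith [this.1, this.2]
    · rcases hv with rfl | rfl | rfl | rfl | hv
      · simp only at q1 q2; linarith
      · simp only at q1 q2; linarith
      · simp only at q1 q2; linarith
      · simp only at q1 q2; linarith
      · have := range_v A h3 _ v hv
        simp only at q1 q2
        linarith [this.1, this.2]
    · obtain ⟨a1, a2, _⟩ := edges_v A h3 _ e he
      have b1 := range_v A h3 _ _ a1
      have b2 := range_v A h3 _ _ a2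
      rcases hv with rfl | rfl | rfl | rfl | hv
      · simp only at q1 q2; linarith [b1.1, b2.2]
      · simp only at q1 q2; linarith [b1.1, b2.2]
      · simp only at q1 q2; linarith [b1.1, b2.2]
      · simp only at q1 q2; linarith [b1.1, b2.2]
      · exact ih h3 _ e he v hv hve q1 q2
    · obtain ⟨t, ht, t', ht', htt, hcc, rfl⟩ := of_mem_stat he
      obtain ⟨_, _, hvx⟩ := seg_stat htt hve
      obtain ⟨c1, c2⟩ := mem_pS_range h2 h3 ht
      obtain ⟨c3, c4⟩ := mem_pS_range h2 h3 ht'
      simp only at q1 q2
      have hvS : v.1 ∈ pS R τ x A s := by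
        rw [mem_pS]
        rcases hv with hv | hv | hv | hv | hv
        · exfalso
          rw [hv] at q1
          simp only at q1
          linarith
        · left; rw [hv]
        · right; left; rw [hv]
        · exfalso
          rw [hv] at q2
          simp only at q2
          linarith
        · right; right
          rw [hvx] at hv
          exact hv
      exact hcc v.1 hvS ⟨q1, q2⟩

end

theorem mem_fullVerts (TA : TProg H) (p0 : H) (v : ℝ × H) :
    v ∈ fullVerts TA p0 ↔ v = (0, p0) ∨ v = (1, p0) ∨ v ∈ verts TA (1 / 4) := by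
  classical
  simp only [fullVerts, Finset.mem_union, Finset.mem_insert, Finset.mem_singleton, or_assoc]

/-- times of the trunk. -/
noncomputable def S0 (TA : TProg H) (p0 : H) : Finset ℝ :=
  insert 0 (insert 1 (timesOf p0 (verts TA (1 / 4))))

theorem mem_S0 (TA : TProg H) (p0 : H) (t : ℝ) :
    t ∈ S0 TA p0 ↔ t = 0 ∨ t = 1 ∨ (t, p0) ∈ verts TA (1 / 4) := by
  unfold S0
  rw [Finset.mem_insert, Finset.mem_insert, mem_times]

theorem mem_fullEdges (TA : TProg H) (p0 : H) (e : (ℝ × H) × (ℝ × H)) :
    e ∈ fullEdges TA p0 ↔ e ∈ edges TA (1 / 4) ∨ e ∈ statEdges p0 (S0 TA p0) := by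
  classical
  simp only [fullEdges, Finset.mem_union, S0]

theorem mem_S0_vert {TA : TProg H} {p0 : H} {t : ℝ} (h : t ∈ S0 TA p0) :
    (t, p0) ∈ fullVerts TA p0 := by
  rw [mem_fullVerts]
  rw [mem_S0] at h
  rcases h with rfl | rfl | h
  · exact Or.inl rfl
  · exact Or.inr (Or.inl rfl)
  · exact Or.inr (Or.inr h)

end Geo

open Geo in
theorem geoSep : GeoSepStmt := by
  intro H _ _ TA p0 hpos hdur e he v hv hve
  rw [mem_fullEdges] at he
  rw [mem_fullVerts] at hv
  have htime : e.1.1 < e.2.1 := by
    rcases he with he | he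
    · exact (edges_v TA hpos _ e he).2.2
    · obtain ⟨t, ht, t', ht', htt, _, rfl⟩ := of_mem_stat he
      exact htt
  obtain ⟨k1, k2, k3, k4, _⟩ := seg_time htime hve
  rcases k1.eq_or_lt with h1 | h1
  · left; exact k3 h1.symm
  rcases k2.eq_or_lt with h2 | h2
  · right; exact k4 h2
  exfalso
  rcases he with he | he
  · obtain ⟨a1, a2, _⟩ := edges_v TA hpos _ e he
    have b1 := range_v TA hpos _ _ a1
    have b2 := range_v TA hpos _ _ a2
    rcases hv with rfl | rfl | hv
    · simp only at h1 h2; linarith [b1.1, b2.2]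
    · simp only at h1 h2; linarith [b1.1, b2.2]
    · exact block_sep TA hpos _ e he v hv hve h1 h2
  · obtain ⟨t, ht, t', ht', htt, hcc, rfl⟩ := of_mem_stat he
    obtain ⟨_, _, hvx⟩ := seg_stat htt hve
    apply hcc v.1 _ ⟨h1, h2⟩
    rw [mem_S0]
    rcases hv with hv | hv | hv
    · left; rw [hv]
    · right; left; rw [hv]
    · right; right; rw [hvx] at hv; exact hv

end Crest.Agent.R254
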