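import Crest.Agent.R254.Defs

set_option autoImplicit false

open MeasureTheory

namespace Crest.Agent.R254

universe u v

namespace GLUE

/-- isometric embedding `EE n → EE k` for `n ≤ k`. -/
lemma exists_isometry {n k : ℕ} (h : n ≤ k) : Nonempty (EE n →ₗᵢ[ℝ] EE k) := by
  classical
  let w : Fin n → EE k := fun i => EuclideanSpace.single (Fin.castLE h i) (1 : ℝ)
  have hw : Orthonormal ℝ w := by
    have := (EuclideanSpace.basisFun (Fin k) ℝ).orthonormal.comp (Fin.castLE h)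
      (Fin.castLE_injective h)
    have hwe : w = (EuclideanSpace.basisFun (Fin k) ℝ) ∘ Fin.castLE h := by
      funext i; simp [w]
    rw [hwe]; exact this
  let b := EuclideanSpace.basisFun (Fin n) ℝ
  let f : EE n →ₗ[ℝ] EE k := b.toBasis.constr ℝ w
  refine ⟨LinearMap.isometryOfOrthonormal (v := b.toBasis) f ?_ ?_⟩
  · rw [OrthonormalBasis.coe_toBasis]; exact b.orthonormal
  · have : (f ∘ b.toBasis) = w := by
      funext i
      simp [f, Module.Basis.constr_basis]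
    rw [this]
    exact hw

lemma m_pos {m : ℕ} {d : ℕ} {A : Finset (EE d)} (hA : A.Nonempty)
    (hP : Pack (A : Set (EE d)) m) : 1 ≤ m := by
  obtain ⟨a, ha⟩ := hA
  have := hP a 1 one_pos {a} (by simpa using ha) (by simp) (by
    intro y hy z hz hyz
    simp only [Finset.mem_singleton] at hy hz
    exact absurd (hy.trans hz.symm) hyz)
  simpa using this

end GLUE

theorem glue (hc : CoreStmt) (hd : DvorStmt.{u}) (h1 : PackMapStmt.{u}) (h2 : SeqGlueStmt.{u})
    (h3 : PackDoublingStmt.{u}) :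
    ∃ Λ : ℕ, ∀ (B : Type u) [NormedAddCommGroup B] [NormedSpace ℝ B] [CompleteSpace B],
      ¬ FiniteDimensional ℝ B →
      ∃ K : Set B, IsCompact K ∧ Crest.GeometryTopology.DoublingConstLE K Λ ∧
        ∀ (Y : Type v) [NormedAddCommGroup Y] [NormedSpace ℝ Y] [FiniteDimensional ℝ Y]
          (f : K → Y) (c C : NNReal), ¬ (LipschitzWith C f ∧ AntilipschitzWith c f) := by
  classical
  obtain ⟨m, hm⟩ := hc
  have hm1 : 1 ≤ m := by
    obtain ⟨d, A, hA, hP, -⟩ := hm 0 1 le_rfl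
    exact GLUE.m_pos hA hP
  refine ⟨3 * m ^ 3 + 3, ?_⟩
  intro B _ _ _ hB
  haveI : Nontrivial B := by
    by_contra hnt
    rw [not_nontrivial_iff_subsingleton] at hnt
    exact hB inferInstance
  choose d A hA hP hno using fun k : ℕ => hm k ((k : ℝ) + 1) (by
    have : (0 : ℝ) ≤ (k : ℝ) := Nat.cast_nonneg k
    linarith)
  choose T hT using fun k : ℕ => hd B hB (d k)
  let S : ℕ → Finset B := fun k => (A k).image (T k)
  have hS : ∀ k, Pack (S k : Set B) (m ^ 3) := by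
    intro k
    have := h1 B (d k) m (A k : Set (EE (d k))) (T k) hm1 (hT k) (hP k)
    simpa [S] using this
  obtain ⟨K, hKc, hKP, hK⟩ := h2 B (m ^ 3) S hS
  refine ⟨K, hKc, h3 B K _ hKP, ?_⟩
  intro Y _ _ _ f c C hf
  obtain ⟨hfL, hfA⟩ := hf
  -- linear identification of `Y` with a Euclidean space
  set n := Module.finrank ℝ Y with hn
  have hfr : Module.finrank ℝ Y = Module.finrank ℝ (EE n) := by
    rw [finrank_euclideanSpace_fin]
  let L : Y ≃L[ℝ] EE n := ContinuousLinearEquiv.ofFinrankEq hfr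
  set a : ℝ := max ‖(L : Y →L[ℝ] EE n)‖ 1 with ha
  set b : ℝ := ‖(L.symm : EE n →L[ℝ] Y)‖ with hb
  set C' : ℝ := max (C : ℝ) 1 with hC'
  have ha1 : 1 ≤ a := le_max_right _ _
  have hC1 : 1 ≤ C' := le_max_right _ _
  have hb0 : 0 ≤ b := norm_nonneg _
  have hc0 : (0 : ℝ) ≤ c := c.2
  obtain ⟨k0, hk0⟩ := exists_nat_ge (2 * c * b * C' * a)
  set k := max n k0 with hk
  obtain ⟨J⟩ := GLUE.exists_isometry (le_max_left n k0 : n ≤ k)
  obtain ⟨p, ρ, hρ, hmem⟩ := hK k
  have hmemA : ∀ x ∈ A k, p + ρ • T k x ∈ K := by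
    intro x hx
    exact hmem _ (Finset.mem_image_of_mem _ hx)
  refine hno k ⟨fun x => if hx : x ∈ A k then
      (1 / (C' * a * (2 * ρ))) • J (L (f ⟨p + ρ • T k x, hmemA x hx⟩)) else 0, ?_⟩
  intro x hx y hy
  simp only [hx, hy, dif_pos]
  set X : K := ⟨p + ρ • T k x, hmemA x hx⟩ with hX
  set Z : K := ⟨p + ρ • T k y, hmemA y hy⟩ with hZ
  have hs0 : 0 < 1 / (C' * a * (2 * ρ)) := by positivity
  -- distances
  have hXZ : dist X Z = ρ * ‖T k (x - y)‖ := by
    rw [Subtype.dist_eq, hX, hZ]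
    simp only
    rw [dist_eq_norm]
    have : p + ρ • T k x - (p + ρ • T k y) = ρ • T k (x - y) := by
      rw [map_sub, smul_sub]; abel
    rw [this, norm_smul, Real.norm_of_nonneg hρ.le]
  have hF : dist ((1 / (C' * a * (2 * ρ))) • J (L (f X))) ((1 / (C' * a * (2 * ρ))) • J (L (f Z)))
      = (1 / (C' * a * (2 * ρ))) * ‖L (f X - f Z)‖ := by
    rw [dist_smul₀, Real.norm_of_nonneg hs0.le, J.dist_map, dist_eq_norm, map_sub]
  rw [hF]
  have hTl : dist x y ≤ ‖T k (x - y)‖ := by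
    rw [dist_eq_norm]; exact (hT k (x - y)).1
  have hTu : ‖T k (x - y)‖ ≤ 2 * dist x y := by
    rw [dist_eq_norm]; exact (hT k (x - y)).2
  have hLu : ‖L (f X - f Z)‖ ≤ a * dist (f X) (f Z) := by
    rw [dist_eq_norm]
    calc ‖L (f X - f Z)‖ ≤ ‖(L : Y →L[ℝ] EE n)‖ * ‖f X - f Z‖ :=
          (L : Y →L[ℝ] EE n).le_opNorm _
      _ ≤ a * ‖f X - f Z‖ := by gcongr; exact le_max_left _ _
  have hLl : dist (f X) (f Z) ≤ b * ‖L (f X - f Z)‖ := by
    rw [dist_eq_norm]
    calc ‖f X - f Z‖ = ‖(L.symm : EE n →L[ℝ] Y) (L (f X - f Z))‖ := by simp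
      _ ≤ b * ‖L (f X - f Z)‖ := (L.symm : EE n →L[ℝ] Y).le_opNorm _
  have hfu : dist (f X) (f Z) ≤ C' * dist X Z := by
    refine (hfL.dist_le_mul X Z).trans ?_
    gcongr
    exact le_max_left _ _
  have hfl : dist X Z ≤ c * dist (f X) (f Z) := hfA.le_mul_dist X Z
  have hd0 : 0 ≤ dist x y := dist_nonneg
  constructor
  · -- lower bound
    have h4 : ρ * dist x y ≤ c * (b * ‖L (f X - f Z)‖) := by
      calc ρ * dist x y ≤ ρ * ‖T k (x - y)‖ := by gcongr
        _ = dist X Z := hXZ.symm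
        _ ≤ c * dist (f X) (f Z) := hfl
        _ ≤ c * (b * ‖L (f X - f Z)‖) := by gcongr
    have hkk : 2 * c * b * C' * a ≤ (k : ℝ) + 1 := by
      have : (k0 : ℝ) ≤ (k : ℝ) := by exact_mod_cast le_max_right n k0
      linarith
    have hCa : 0 < C' * a * (2 * ρ) := by positivity
    have hN0 : 0 ≤ ‖L (f X - f Z)‖ := norm_nonneg _
    have h5 : dist x y ≤ (c * b / ρ) * ‖L (f X - f Z)‖ := by
      rw [div_mul_eq_mul_div, le_div_iff₀ hρ]
      calc dist x y * ρ = ρ * dist x y := mul_comm _ _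
        _ ≤ c * (b * ‖L (f X - f Z)‖) := h4
        _ = c * b * ‖L (f X - f Z)‖ := by ring
    have h6 : (c : ℝ) * b / ρ ≤ ((k : ℝ) + 1) * (1 / (C' * a * (2 * ρ))) := by
      rw [mul_one_div, div_le_div_iff₀ hρ hCa]
      have := mul_le_mul_of_nonneg_right hkk hρ.le
      nlinarith [this]
    calc dist x y ≤ (c * b / ρ) * ‖L (f X - f Z)‖ := h5
      _ ≤ (((k : ℝ) + 1) * (1 / (C' * a * (2 * ρ)))) * ‖L (f X - f Z)‖ := by gcongr
      _ = ((k : ℝ) + 1) * (1 / (C' * a * (2 * ρ)) * ‖L (f X - f Z)‖) := by ring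
  · -- upper bound
    have h4 : ‖L (f X - f Z)‖ ≤ a * (C' * (ρ * (2 * dist x y))) := by
      calc ‖L (f X - f Z)‖ ≤ a * dist (f X) (f Z) := hLu
        _ ≤ a * (C' * dist X Z) := by gcongr
        _ = a * (C' * (ρ * ‖T k (x - y)‖)) := by rw [hXZ]
        _ ≤ a * (C' * (ρ * (2 * dist x y))) := by gcongr
    calc 1 / (C' * a * (2 * ρ)) * ‖L (f X - f Z)‖
        ≤ 1 / (C' * a * (2 * ρ)) * (a * (C' * (ρ * (2 * dist x y)))) := by gcongr
      _ = dist x y := by
          field_simp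

end Crest.Agent.R254
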