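import Crest.Agent.R254.Defs

set_option autoImplicit false

open MeasureTheory ProbabilityTheory

namespace Crest.Agent.R254

open scoped RealInnerProductSpace in
theorem law : LawStmt := by
  intro d M a ha
  apply Measure.ext_of_charFun (E := EE M)
  ext t
  have hm : Measurable (fun G : Fin d → EE M => ∑ j, a j • G j) := by fun_prop
  rw [charFun_stdGaussian, charFun_apply, integral_map hm.aemeasurable
    (Measurable.aestronglyMeasurable (by fun_prop))]
  have h1 : ∀ G : Fin d → EE M, Complex.exp ((⟪∑ j, a j • G j, t⟫ : ℝ) * Complex.I) =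
      ∏ j, Complex.exp ((⟪G j, a j • t⟫ : ℝ) * Complex.I) := by
    intro G
    rw [← Complex.exp_sum, sum_inner]
    congr 1
    rw [Complex.ofReal_sum, Finset.sum_mul]
    apply Finset.sum_congr rfl
    intro j _
    rw [real_inner_smul_left, real_inner_smul_right]
  simp_rw [h1]
  rw [integral_fintype_prod_eq_prod (f := fun j x => Complex.exp ((⟪x, a j • t⟫ : ℝ) * Complex.I))]
  have h2 : ∀ j, ∫ x, Complex.exp ((⟪x, a j • t⟫ : ℝ) * Complex.I) ∂(stdGaussian (EE M)) =
      Complex.exp (- ‖a j • t‖ ^ 2 / 2) := by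
    intro j
    rw [← charFun_apply, charFun_stdGaussian]
  simp_rw [h2]
  rw [← Complex.exp_sum]
  congr 1
  have h3 : ∑ j, (a j) ^ 2 = 1 := by
    have := EuclideanSpace.real_norm_sq_eq a
    rw [ha] at this
    simpa using this.symm
  have h4 : ∑ j, ‖a j • t‖ ^ 2 = ‖t‖ ^ 2 := by
    simp_rw [norm_smul, mul_pow, Real.norm_eq_abs, sq_abs]
    rw [← Finset.sum_mul, h3, one_mul]
  rw [← Finset.sum_div, Finset.sum_neg_distrib]
  congr 2
  exact_mod_cast h4

end Crest.Agent.R254
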