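import Crest.Agent.R254.Core

set_option autoImplicit false

namespace Crest.Agent.R254

theorem lineLike : LineLikeStmt := by
  intro H _ _ p d x r T hd hr hball hsep hline
  classical
  -- coordinate along the line
  let s : H → ℝ := fun y => inner ℝ (y - p) d
  -- perpendicular part
  let w : H → H := fun y => (y - p) - s y • d
  have hdd : (inner ℝ d d : ℝ) = 1 := by rw [real_inner_self_eq_norm_sq, hd]; norm_num
  have hw_orth : ∀ y, (inner ℝ (w y) d : ℝ) = 0 := by
    intro y
    simp only [w, inner_sub_left, real_inner_smul_left, hdd, mul_one]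
    simp [s, inner_sub_left]
  have hwn : ∀ y ∈ T, ‖w y‖ ≤ r / 8 := by
    intro y hy
    obtain ⟨t, ht⟩ := hline y hy
    have h1 : y - (p + t • d) = w y + (s y - t) • d := by
      simp only [w]; module
    have h2 : ‖w y‖ ^ 2 ≤ ‖y - (p + t • d)‖ ^ 2 := by
      rw [h1, norm_add_sq_real, real_inner_smul_right, hw_orth, mul_zero, mul_zero, add_zero]
      have : 0 ≤ ‖(s y - t) • d‖ ^ 2 := sq_nonneg _
      linarith
    rw [dist_eq_norm] at ht
    have h3 : ‖w y‖ ≤ ‖y - (p + t • d)‖ := by
      exact (abs_le_of_sq_le_sq' h2 (norm_nonneg _)).2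
    exact h3.trans ht
  have hsd : ∀ y z, ‖y - z‖ ^ 2 = (s y - s z) ^ 2 + ‖w y - w z‖ ^ 2 := by
    intro y z
    have h1 : y - z = (w y - w z) + (s y - s z) • d := by
      simp only [w]; module
    have h2 : (inner ℝ (w y - w z) d : ℝ) = 0 := by rw [inner_sub_left, hw_orth, hw_orth, sub_zero]
    rw [h1, norm_add_sq_real, real_inner_smul_right, h2, mul_zero, mul_zero, add_zero, norm_smul,
      hd, mul_one, Real.norm_eq_abs, sq_abs]
    rw [add_comm]
  have hgap : ∀ y ∈ T, ∀ z ∈ T, y ≠ z → 24 / 25 * r < |s y - s z| := by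
    intro y hy z hz hyz
    have h1 := hsep y hy z hz hyz
    rw [dist_eq_norm] at h1
    have h2 := hsd y z
    have h3 : ‖w y - w z‖ ≤ r / 4 := by
      have := norm_sub_le (w y) (w z)
      have a1 := hwn y hy
      have a2 := hwn z hz
      linarith
    have h4 : ‖w y - w z‖ ^ 2 ≤ (r / 4) ^ 2 := by
      exact pow_le_pow_left₀ (norm_nonneg _) h3 2
    have h5 : r ^ 2 < ‖y - z‖ ^ 2 := by
      exact pow_lt_pow_left₀ h1 hr.le (by norm_num)
    have h6 : (24 / 25 * r) ^ 2 < |s y - s z| ^ 2 := by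
      rw [sq_abs]
      nlinarith
    exact lt_of_pow_lt_pow_left₀ 2 (abs_nonneg _) h6
  have hrange : ∀ y ∈ T, |s y - s x| ≤ 2 * r := by
    intro y hy
    have h1 := hball y hy
    rw [dist_eq_norm] at h1
    have h2 : s y - s x = inner ℝ (y - x) d := by
      simp only [s]
      rw [← inner_sub_left]
      congr 1
      abel
    rw [h2]
    calc |(inner ℝ (y - x) d : ℝ)| ≤ ‖y - x‖ * ‖d‖ := abs_real_inner_le_norm _ _
      _ ≤ 2 * r := by rw [hd, mul_one]; exact h1
  -- injective map to `Finset.range 5`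
  let g : H → ℕ := fun y => ⌊(s y - s x + 2 * r) / (24 / 25 * r)⌋₊
  have hc : 0 < 24 / 25 * r := by positivity
  have hmaps : ∀ y ∈ T, g y ∈ Finset.range 5 := by
    intro y hy
    rw [Finset.mem_range]
    have h1 := abs_le.1 (hrange y hy)
    have h2 : (s y - s x + 2 * r) / (24 / 25 * r) < 5 := by
      rw [div_lt_iff₀ hc]
      nlinarith
    have h0 : 0 ≤ (s y - s x + 2 * r) / (24 / 25 * r) := by
      apply div_nonneg _ hc.le
      linarith [h1.1]
    rw [Nat.floor_lt h0]
    exact_mod_cast h2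
  have hinj : Set.InjOn g T := by
    intro y hy z hz hyz
    by_contra hne
    have h1 := hgap y hy z hz hne
    have hy0 : 0 ≤ (s y - s x + 2 * r) / (24 / 25 * r) := by
      apply div_nonneg _ hc.le
      linarith [(abs_le.1 (hrange y hy)).1]
    have hz0 : 0 ≤ (s z - s x + 2 * r) / (24 / 25 * r) := by
      apply div_nonneg _ hc.le
      linarith [(abs_le.1 (hrange z hz)).1]
    have h2 : |(s y - s x + 2 * r) / (24 / 25 * r) - (s z - s x + 2 * r) / (24 / 25 * r)| < 1 := by
      have e1 := Nat.floor_le hy0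
      have e2 := Nat.lt_floor_add_one ((s y - s x + 2 * r) / (24 / 25 * r))
      have e3 := Nat.floor_le hz0
      have e4 := Nat.lt_floor_add_one ((s z - s x + 2 * r) / (24 / 25 * r))
      have e5 : (⌊(s y - s x + 2 * r) / (24 / 25 * r)⌋₊ : ℝ)
          = (⌊(s z - s x + 2 * r) / (24 / 25 * r)⌋₊ : ℝ) := by
        exact_mod_cast hyz
      rw [abs_lt]
      constructor <;> linarith
    rw [← sub_div, abs_div, abs_of_pos hc, div_lt_one hc] at h2
    have h3 : s y - s x + 2 * r - (s z - s x + 2 * r) = s y - s z := by ring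
    rw [h3] at h2
    linarith
  calc T.card ≤ (Finset.range 5).card := Finset.card_le_card_of_injOn g hmaps hinj
    _ = 5 := Finset.card_range 5

end Crest.Agent.R254
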