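import Crest.Agent.R254.Defs

/-!
# Row 254, task MEAN : the mean of a seminorm tends to infinity
-/

set_option autoImplicit false

open MeasureTheory ProbabilityTheory
open scoped RealInnerProductSpace

namespace Crest.Agent.R254.MEAN

variable {M : ℕ}

/-- `R_i` negates all coordinates except the `i`-th one. -/
noncomputable def Rf (i : Fin M) : EE M ≃ₗᵢ[ℝ] EE M :=
  Submodule.reflection (ℝ ∙ (EuclideanSpace.single i (1 : ℝ) : EE M))

lemma Rf_apply (i : Fin M) (x : EE M) :
    Rf i x = (2 * x i) • (EuclideanSpace.single i (1 : ℝ) : EE M) - x := by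
  unfold Rf
  rw [Submodule.reflection_apply, Submodule.starProjection_unit_singleton ℝ (by simp) x]
  have h : ⟪(EuclideanSpace.single i (1 : ℝ) : EE M), x⟫ = x i := by
    simp [EuclideanSpace.inner_single_left]
  rw [h, ← Nat.cast_smul_eq_nsmul ℝ, smul_smul]
  norm_num

lemma Rf_coord (i j : Fin M) (x : EE M) : |(Rf i x) j| = |x j| := by
  rw [Rf_apply]
  by_cases h : j = i
  · subst h
    simp
    congr 1
    ring
  · simp [h]

def AA (t : ℝ) (i : Fin M) : Set (EE M) := {x | t ≤ |x i| ∧ ∀ j < i, |x j| < t}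

lemma meas_coord (i : Fin M) : Measurable (fun x : EE M => x i) := by fun_prop

lemma AA_meas (t : ℝ) (i : Fin M) : MeasurableSet (AA t i) := by
  have : AA t i = {x : EE M | t ≤ |x i|} ∩ ⋂ j : Fin M, {x | j < i → |x j| < t} := by
    ext x; simp [AA]
  rw [this]
  refine (measurableSet_le measurable_const (by fun_prop)).inter (MeasurableSet.iInter fun j => ?_)
  by_cases h : j < i
  · simp only [h, true_imp_iff]
    exact measurableSet_lt (by fun_prop) measurable_const
  · simp [h]

lemma AA_pre (t : ℝ) (i : Fin M) : (Rf i) ⁻¹' (AA t i) = AA t i := by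
  ext x
  simp only [AA, Set.mem_preimage, Set.mem_ofPred_eq, Rf_coord]

lemma AA_disj (t : ℝ) : Pairwise (Function.onFun Disjoint (AA (M := M) t)) := by
  intro i j hij
  rw [Function.onFun, Set.disjoint_left]
  rintro x ⟨h1, h2⟩ ⟨h3, h4⟩
  rcases lt_or_gt_of_ne hij with h | h
  · linarith [h4 i h]
  · linarith [h2 j h]

lemma AA_union (t : ℝ) : (⋃ i, AA (M := M) t i) = {x : EE M | ∀ i, |x i| < t}ᶜ := by
  ext x
  simp only [Set.mem_iUnion, Set.mem_compl_iff, Set.mem_ofPred_eq, not_forall, not_lt]
  constructor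
  · rintro ⟨i, h1, h2⟩; exact ⟨i, h1⟩
  · intro h
    classical
    have hne : (Finset.univ.filter (fun i : Fin M => t ≤ |x i|)).Nonempty := by
      obtain ⟨i, hi⟩ := h
      exact ⟨i, by simpa using hi⟩
    refine ⟨Finset.min' _ hne, ?_, ?_⟩
    · have := Finset.min'_mem _ hne
      simpa using this
    · intro j hj
      by_contra hcon
      rw [not_lt] at hcon
      have := Finset.min'_le (Finset.univ.filter (fun i : Fin M => t ≤ |x i|)) j (by simpa using hcon)
      exact absurd hj (not_lt.2 this)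

section N

variable (N : Seminorm ℝ (EE M)) (hN : ∀ x, N x ≤ ‖x‖)

include hN

lemma N_cont : Continuous N := by
  have : LipschitzWith 1 N := by
    refine LipschitzWith.of_dist_le_mul fun x y => ?_
    rw [NNReal.coe_one, one_mul, Real.dist_eq, dist_eq_norm]
    exact (abs_sub_map_le_sub N x y).trans (hN _)
  exact this.continuous

lemma N_int : Integrable (fun x => N x) (stdGaussian (EE M)) := by
  refine Integrable.mono' (g := fun x : EE M => ‖x‖) ?_ (N_cont N hN).aestronglyMeasurable ?_
  · exact (IsGaussian.integrable_id (μ := stdGaussian (EE M))).norm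
  · refine Filter.Eventually.of_forall fun x => ?_
    rw [Real.norm_eq_abs, abs_of_nonneg (apply_nonneg N x)]
    exact hN x

lemma set_bound (hi : ∀ i : Fin M, 1 / 2 ≤ N (EuclideanSpace.single i 1)) (t : ℝ) (ht : 0 ≤ t)
    (i : Fin M) :
    t * (stdGaussian (EE M)).real (AA t i) ≤ 2 * ∫ x in AA t i, N x ∂(stdGaussian (EE M)) := by
  have hmp : MeasurePreserving (Rf (M := M) i) (stdGaussian (EE M)) (stdGaussian (EE M)) :=
    ⟨(Rf i).continuous.measurable, stdGaussian_map (Rf i)⟩
  have hemb : MeasurableEmbedding (Rf (M := M) i) := (Rf i).toHomeomorph.measurableEmbedding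
  have h1 : ∫ x in AA t i, N (Rf i x) ∂(stdGaussian (EE M)) =
      ∫ x in AA t i, N x ∂(stdGaussian (EE M)) := by
    have := hmp.setIntegral_preimage_emb hemb (fun x => N x) (AA t i)
    rwa [AA_pre] at this
  have hint := N_int N hN
  have hint2 : Integrable (fun x => N (Rf i x)) (stdGaussian (EE M)) :=
    hmp.integrable_comp_of_integrable hint
  have h2 : 2 * ∫ x in AA t i, N x ∂(stdGaussian (EE M)) =
      ∫ x in AA t i, (N x + N (Rf i x)) ∂(stdGaussian (EE M)) := by
    rw [integral_add hint.integrableOn hint2.integrableOn, h1]; ring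
  rw [h2]
  have h3 : t * (stdGaussian (EE M)).real (AA t i) = ∫ x in AA t i, t ∂(stdGaussian (EE M)) := by
    rw [setIntegral_const, smul_eq_mul, mul_comm]
  rw [h3]
  refine setIntegral_mono_on (integrable_const _).integrableOn
    (hint.add hint2).integrableOn (AA_meas t i) fun x hx => ?_
  have h4 : N (x + Rf i x) ≤ N x + N (Rf i x) := map_add_le_add N _ _
  refine le_trans ?_ h4
  have h5 : x + Rf i x = (2 * x i) • (EuclideanSpace.single i (1 : ℝ) : EE M) := by
    rw [Rf_apply]; abel
  rw [h5, map_smul_eq_mul, Real.norm_eq_abs, abs_mul, abs_two]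
  have h6 := hi i
  have h7 : t ≤ |x i| := hx.1
  have h8 : 0 ≤ |x i| := abs_nonneg _
  nlinarith

lemma total (hi : ∀ i : Fin M, 1 / 2 ≤ N (EuclideanSpace.single i 1)) (t : ℝ) (ht : 0 ≤ t) :
    t * (stdGaussian (EE M)).real (⋃ i, AA (M := M) t i) ≤ 2 * ∫ x, N x ∂(stdGaussian (EE M)) := by
  have hint := N_int N hN
  have h1 : (stdGaussian (EE M)).real (⋃ i, AA (M := M) t i) =
      ∑ i, (stdGaussian (EE M)).real (AA t i) :=
    measureReal_iUnion_fintype (AA_disj t) (AA_meas t)
  have h2 : ∫ x in ⋃ i, AA (M := M) t i, N x ∂(stdGaussian (EE M)) =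
      ∑ i, ∫ x in AA t i, N x ∂(stdGaussian (EE M)) :=
    integral_iUnion_fintype (AA_meas t) (AA_disj t) (fun i => hint.integrableOn)
  have h3 : ∫ x in ⋃ i, AA (M := M) t i, N x ∂(stdGaussian (EE M)) ≤
      ∫ x, N x ∂(stdGaussian (EE M)) :=
    setIntegral_le_integral hint (Filter.Eventually.of_forall fun x => apply_nonneg N x)
  rw [h1, Finset.mul_sum]
  calc ∑ i, t * (stdGaussian (EE M)).real (AA t i)
      ≤ ∑ i, 2 * ∫ x in AA t i, N x ∂(stdGaussian (EE M)) :=
        Finset.sum_le_sum fun i _ => set_bound N hN hi t ht i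
    _ = 2 * ∫ x in ⋃ i, AA (M := M) t i, N x ∂(stdGaussian (EE M)) := by
        rw [h2, Finset.mul_sum]
    _ ≤ _ := by linarith

end N

/-- probability that a standard Gaussian is smaller than `t` in absolute value -/
noncomputable def pt (t : ℝ) : ℝ := (gaussianReal 0 1).real {u | |u| < t}

lemma pt_lt (t : ℝ) : pt t < 1 := by
  unfold pt
  have hm : MeasurableSet {u : ℝ | |u| < t} := measurableSet_lt (by fun_prop) measurable_const
  have h1 : (gaussianReal 0 1).real {u : ℝ | |u| < t}ᶜ = 1 - (gaussianReal 0 1).real {u | |u| < t} :=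
    probReal_compl_eq_one_sub hm
  have h2 : 0 < (gaussianReal 0 1).real {u : ℝ | |u| < t}ᶜ := by
    rw [measureReal_def, ENNReal.toReal_pos_iff]
    refine ⟨?_, measure_lt_top _ _⟩
    rw [pos_iff_ne_zero]
    intro h0
    have h3 := gaussianReal_absolutelyContinuous' 0 (one_ne_zero (α := NNReal)) h0
    have h4 : Set.Ici (max t 0) ⊆ {u : ℝ | |u| < t}ᶜ := by
      intro u hu
      rw [Set.mem_Ici, max_le_iff] at hu
      simp only [Set.mem_compl_iff, Set.mem_ofPred_eq, not_lt]
      rw [abs_of_nonneg hu.2]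
      exact hu.1
    have h5 := measure_mono_null h4 h3
    rw [Real.volume_Ici] at h5
    exact ENNReal.top_ne_zero h5
  linarith

lemma prob_box (t : ℝ) : (stdGaussian (EE M)).real {x : EE M | ∀ i, |x i| < t} = pt t ^ M := by
  have hm : MeasurableSet {x : EE M | ∀ i, |x i| < t} := by
    have : {x : EE M | ∀ i, |x i| < t} = ⋂ i : Fin M, {x | |x i| < t} := by ext; simp
    rw [this]
    exact MeasurableSet.iInter fun i => measurableSet_lt (by fun_prop) measurable_const
  have h1 : stdGaussian (EE M) {x : EE M | ∀ i, |x i| < t} =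
      (gaussianReal 0 1 {u | |u| < t}) ^ M := by
    rw [← map_pi_eq_stdGaussian, Measure.map_apply (by fun_prop) hm]
    have : (WithLp.toLp 2 : (Fin M → ℝ) → EE M) ⁻¹' {x : EE M | ∀ i, |x i| < t} =
        Set.univ.pi (fun _ : Fin M => {u : ℝ | |u| < t}) := by
      ext x; simp
    rw [this, Measure.pi_pi, Finset.prod_const, Finset.card_univ, Fintype.card_fin]
  unfold pt
  rw [measureReal_def, h1, ENNReal.toReal_pow]
  rfl

end Crest.Agent.R254.MEAN

namespace Crest.Agent.R254

open MEAN

theorem mean : MeanStmt := by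
  intro R
  set t : ℝ := 4 * |R| + 1 with ht
  have htpos : 0 < t := by positivity
  obtain ⟨M, hM⟩ := exists_pow_lt_of_lt_one (show (0 : ℝ) < 1 / 2 by norm_num) (pt_lt t)
  refine ⟨M, fun N hN hi => ?_⟩
  have h1 := total N hN hi t htpos.le
  have hm : MeasurableSet {x : EE M | ∀ i, |x i| < t} := by
    have : {x : EE M | ∀ i, |x i| < t} = ⋂ i : Fin M, {x | |x i| < t} := by ext; simp
    rw [this]
    exact MeasurableSet.iInter fun i => measurableSet_lt (by fun_prop) measurable_const
  have h2 : (stdGaussian (EE M)).real (⋃ i, AA (M := M) t i) = 1 - pt t ^ M := by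
    rw [AA_union, probReal_compl_eq_one_sub hm, prob_box]
  rw [h2] at h1
  have h3 : R ≤ |R| := le_abs_self R
  nlinarith

end Crest.Agent.R254
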