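import Crest.Agent.R254.Defs

set_option autoImplicit false

open MeasureTheory ProbabilityTheory

namespace Crest.Agent.R254

universe u

namespace NET

/-- the linear map `x ↦ ∑ x_j G_j` -/
noncomputable def T0 {d M : ℕ} (G : Fin d → EE M) : EE d →ₗ[ℝ] EE M where
  toFun x := ∑ j, x j • G j
  map_add' x y := by
    simp [add_smul, Finset.sum_add_distrib]
  map_smul' c x := by
    simp [Finset.smul_sum, mul_smul]

/-- deterministic part: good values on a net give a good linear map. -/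
theorem det_part {B : Type u} [NormedAddCommGroup B] [NormedSpace ℝ B] {d : ℕ}
    (L : EE d →ₗ[ℝ] B) (E : ℝ) (hE : 0 < E) (Nn : Set (EE d))
    (hnet : Metric.sphere (0 : EE d) 1 ⊆ ⋃ a ∈ Nn, Metric.ball a (1 / 8))
    (hval : ∀ a ∈ Nn, |‖L a‖ - E| ≤ E / 8) (hd : (Metric.sphere (0 : EE d) 1).Nonempty) :
    ∃ T : EE d →ₗ[ℝ] B, ∀ x, ‖x‖ ≤ ‖T x‖ ∧ ‖T x‖ ≤ 2 * ‖x‖ := by
  have hcont : Continuous (fun x => ‖L x‖) :=
    (LinearMap.continuous_of_finiteDimensional L).norm
  obtain ⟨xs, hxs, hmax⟩ := (isCompact_sphere (0 : EE d) 1).exists_isMaxOn hd hcont.continuousOn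
  set A : ℝ := ‖L xs‖ with hA
  have hA0 : 0 ≤ A := norm_nonneg _
  have hmax' : ∀ x ∈ Metric.sphere (0 : EE d) 1, ‖L x‖ ≤ A := fun x hx => hmax hx
  have hbound : ∀ y, ‖L y‖ ≤ A * ‖y‖ := by
    intro y
    by_cases hy : y = 0
    · subst hy; simp
    · have hn : 0 < ‖y‖ := norm_pos_iff.mpr hy
      have h1 : (‖y‖⁻¹ • y) ∈ Metric.sphere (0 : EE d) 1 := by
        rw [mem_sphere_zero_iff_norm, norm_smul, norm_inv, norm_norm]
        field_simp
      have h2 := hmax' _ h1
      rw [map_smul, norm_smul, norm_inv, norm_norm] at h2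
      rw [inv_mul_le_iff₀ hn] at h2
      linarith
  have hA1 : A ≤ 9 * E / 7 := by
    have h1 := hnet hxs
    simp only [Set.mem_iUnion, Metric.mem_ball, exists_prop] at h1
    obtain ⟨a, ha, hd⟩ := h1
    have h2 := hval a ha
    rw [abs_le] at h2
    have h3 : ‖L xs‖ ≤ ‖L a‖ + ‖L (xs - a)‖ := by
      have : L xs = L a + L (xs - a) := by rw [← map_add]; congr 1; abel
      rw [this]
      exact norm_add_le _ _
    have h4 := hbound (xs - a)
    rw [dist_eq_norm] at hd
    have h5 : A * ‖xs - a‖ ≤ A * (1 / 8) := mul_le_mul_of_nonneg_left hd.le hA0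
    linarith
  have hlow : ∀ x ∈ Metric.sphere (0 : EE d) 1, 5 * E / 7 ≤ ‖L x‖ := by
    intro x hx
    have h1 := hnet hx
    simp only [Set.mem_iUnion, Metric.mem_ball, exists_prop] at h1
    obtain ⟨a, ha, hd⟩ := h1
    have h2 := hval a ha
    rw [abs_le] at h2
    have h3 : ‖L a‖ ≤ ‖L x‖ + ‖L (x - a)‖ := by
      have : L a = L x - L (x - a) := by rw [← map_sub]; congr 1; abel
      rw [this]
      exact norm_sub_le _ _
    have h4 := hbound (x - a)
    rw [dist_eq_norm] at hd
    have h5 : A * ‖x - a‖ ≤ A * (1 / 8) := mul_le_mul_of_nonneg_left hd.le hA0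
    linarith
  have hlow' : ∀ y, 5 * E / 7 * ‖y‖ ≤ ‖L y‖ := by
    intro y
    by_cases hy : y = 0
    · subst hy; simp
    · have hn : 0 < ‖y‖ := norm_pos_iff.mpr hy
      have h1 : (‖y‖⁻¹ • y) ∈ Metric.sphere (0 : EE d) 1 := by
        rw [mem_sphere_zero_iff_norm, norm_smul, norm_inv, norm_norm]
        field_simp
      have h2 := hlow _ h1
      rw [map_smul, norm_smul, norm_inv, norm_norm, le_inv_mul_iff₀ hn] at h2
      linarith
  refine ⟨(7 / (5 * E)) • L, ?_⟩
  intro x
  rw [LinearMap.smul_apply, norm_smul, Real.norm_eq_abs, abs_of_pos (by positivity)]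
  constructor
  · have h1 := hlow' x
    have h2 : 7 / (5 * E) * (5 * E / 7 * ‖x‖) = ‖x‖ := by field_simp
    calc ‖x‖ = 7 / (5 * E) * (5 * E / 7 * ‖x‖) := h2.symm
      _ ≤ _ := mul_le_mul_of_nonneg_left h1 (by positivity)
  · have h1 : ‖L x‖ ≤ 9 * E / 7 * ‖x‖ := by
      refine le_trans (hbound x) (mul_le_mul_of_nonneg_right hA1 (norm_nonneg _))
    calc 7 / (5 * E) * ‖L x‖ ≤ 7 / (5 * E) * (9 * E / 7 * ‖x‖) :=
          mul_le_mul_of_nonneg_left h1 (by positivity)
      _ = 9 / 5 * ‖x‖ := by field_simp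
      _ ≤ 2 * ‖x‖ := by
          apply mul_le_mul_of_nonneg_right (by norm_num) (norm_nonneg _)

end NET

open NET in
theorem dvor (h1 : DRStmt.{u}) (h2 : VarStmt) (h3 : LawStmt) (h4 : MeanStmt) : DvorStmt.{u} := by
  intro B _ _ hB d
  rcases Nat.eq_zero_or_pos d with hd | hd
  · subst hd
    refine ⟨0, fun x => ?_⟩
    have hx : x = 0 := Subsingleton.elim _ _
    subst hx
    simp
  have hne : (Metric.sphere (0 : EE d) 1).Nonempty := by
    refine ⟨EuclideanSpace.single ⟨0, hd⟩ 1, ?_⟩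
    simp
  obtain ⟨Nn, hNs, hNf, hNc⟩ := (isCompact_sphere (0 : EE d) 1).finite_cover_balls
    (by norm_num : (0 : ℝ) < 1 / 8)
  set K : ℕ := hNf.toFinset.card with hK
  set R : ℝ := 192 * K + 1 with hR
  have hR0 : 1 ≤ R := by rw [hR]; have : (0 : ℝ) ≤ K := by positivity
                         linarith
  obtain ⟨M, hM⟩ := h4 R
  obtain ⟨w, hw1, hw2⟩ := h1 B hB M
  set N : Seminorm ℝ (EE M) := (normSeminorm ℝ B).comp w with hN
  have hNw : ∀ x, N x = ‖w x‖ := fun x => rfl
  have hN1 : ∀ x, N x ≤ ‖x‖ := hw1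
  have hE := hM N hN1 hw2
  have hvar := h2 M N hN1
  set E : ℝ := ∫ x, N x ∂(stdGaussian (EE M)) with hEdef
  have hE0 : 0 < E := by linarith
  have hNcont : Continuous (fun x => N x) :=
    (LinearMap.continuous_of_finiteDimensional w).norm
  have hmem : MemLp (fun x => N x) 2 (stdGaussian (EE M)) := by
    have hid : MemLp (fun x : EE M => x) 2 (stdGaussian (EE M)) := IsGaussian.memLp_two_id
    refine hid.mono hNcont.aestronglyMeasurable ?_
    apply Filter.Eventually.of_forall
    intro x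
    rw [Real.norm_eq_abs, abs_of_nonneg (apply_nonneg N x)]
    exact hN1 x
  have hcheb := meas_ge_le_variance_div_sq hmem (by positivity : (0 : ℝ) < E / 8)
  have hcheb2 : stdGaussian (EE M) {x | E / 8 ≤ |N x - E|} ≤ ENNReal.ofReal (192 / R) := by
    refine le_trans hcheb (ENNReal.ofReal_le_ofReal ?_)
    have e1 : Var[fun x => N x; stdGaussian (EE M)] / (E / 8) ^ 2 ≤ 3 / (E / 8) ^ 2 :=
      div_le_div_of_nonneg_right hvar (by positivity)
    have e2 : 3 / (E / 8) ^ 2 = 192 / E ^ 2 := by field_simp; norm_num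
    have e3 : 192 / E ^ 2 ≤ 192 / R := by
      apply div_le_div_of_nonneg_left (by norm_num) (by linarith)
      nlinarith
    linarith
  -- probability space of G
  set P : Measure (Fin d → EE M) := Measure.pi (fun _ : Fin d => stdGaussian (EE M)) with hP
  have hmeasT : ∀ a : EE d, Measurable (fun G : Fin d → EE M => ∑ j, a j • G j) := by
    intro a; fun_prop
  have hev : ∀ a ∈ Nn, P {G | E / 8 ≤ |N (∑ j, a j • G j) - E|} ≤ ENNReal.ofReal (192 / R) := by
    intro a ha
    have ha1 : ‖a‖ = 1 := by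
      have := hNs ha
      simpa using this
    have hlaw := h3 d M a ha1
    have hms : MeasurableSet {x : EE M | E / 8 ≤ |N x - E|} := by
      apply measurableSet_le measurable_const
      exact ((hNcont.sub continuous_const).abs).measurable
    have e1 : P {G | E / 8 ≤ |N (∑ j, a j • G j) - E|} =
        (P.map (fun G => ∑ j, a j • G j)) {x : EE M | E / 8 ≤ |N x - E|} := by
      rw [Measure.map_apply (hmeasT a) hms]
      rfl
    rw [e1, hP, hlaw]
    exact hcheb2
  have hunion : P (⋃ a ∈ hNf.toFinset, {G | E / 8 ≤ |N (∑ j, a j • G j) - E|}) < 1 := by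
    calc P (⋃ a ∈ hNf.toFinset, {G | E / 8 ≤ |N (∑ j, a j • G j) - E|})
        ≤ ∑ a ∈ hNf.toFinset, P {G | E / 8 ≤ |N (∑ j, a j • G j) - E|} :=
          measure_biUnion_finset_le _ _
      _ ≤ ∑ a ∈ hNf.toFinset, ENNReal.ofReal (192 / R) := by
          apply Finset.sum_le_sum
          intro a ha
          exact hev a (hNf.mem_toFinset.mp ha)
      _ = ENNReal.ofReal (K * (192 / R)) := by
          rw [Finset.sum_const, nsmul_eq_mul, ENNReal.ofReal_mul (by positivity),
            ENNReal.ofReal_natCast]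
      _ < 1 := by
          rw [ENNReal.ofReal_lt_one]
          rw [← mul_div_assoc, div_lt_one (by linarith)]
          rw [hR]
          linarith
  obtain ⟨G, hG⟩ : ∃ G : Fin d → EE M,
      G ∉ (⋃ a ∈ hNf.toFinset, {G : Fin d → EE M | E / 8 ≤ |N (∑ j, a j • G j) - E|}) := by
    by_contra hcon
    push Not at hcon
    have : (⋃ a ∈ hNf.toFinset, {G : Fin d → EE M | E / 8 ≤ |N (∑ j, a j • G j) - E|}) =
        Set.univ := Set.eq_univ_of_forall hcon
    rw [this, measure_univ] at hunion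
    exact lt_irrefl _ hunion
  simp only [Set.mem_iUnion, exists_prop, not_exists, not_and, Set.mem_ofPred_eq, not_le,
    Set.Finite.mem_toFinset] at hG
  apply det_part (w ∘ₗ T0 G) E hE0 Nn hNc _ hne
  intro a ha
  exact (hG a ha).le

end Crest.Agent.R254
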