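import Crest.Agent.R254.Core

/-!
Row 254 (S0392), part III: NODEALLC.
-/

set_option autoImplicit false

namespace Crest.Agent.R254

namespace NodeAllC

theorem allC_pushAll {H : Type} (Q : Set H → Prop) (p : H) (l : List H) (A : Prog H) :
    ∀ X : Set H, (∀ Z : Set H, Z ⊆ {z | z ∈ l} → Q (X ∪ Z)) → AllC Q A (X ∪ {z | z ∈ l}) →
      AllC Q (pushAll p l A) X := by
  induction l with
  | nil =>
    intro X _ hA
    have : X ∪ {z | z ∈ ([] : List H)} = X := by ext z; simp
    rw [this] at hA
    exact hA
  | cons y l ih =>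
    intro X hQ hA
    refine ⟨?_, ih _ ?_ ?_⟩
    · have := hQ ∅ (Set.empty_subset _)
      rwa [Set.union_empty] at this
    · intro Z hZ
      have := hQ (insert y Z) (by
        intro z hz
        rcases hz with h | h
        · simp [h]
        · have := hZ h
          simp only [Set.mem_setOf_eq] at this ⊢
          exact List.mem_cons_of_mem _ this)
      have e : X ∪ insert y Z = insert y X ∪ Z := by
        ext z; simp only [Set.mem_union, Set.mem_insert_iff]; tauto
      rwa [e] at this
    · have e : insert y X ∪ {z | z ∈ l} = X ∪ {z | z ∈ y :: l} := by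
        ext z; simp only [Set.mem_union, Set.mem_insert_iff, Set.mem_setOf_eq, List.mem_cons]; tauto
      rw [e]; exact hA

theorem allC_seqAll {H : Type} (Q : Set H → Prop) (l : List (Prog H)) (X : Set H) (hX : Q X)
    (h : ∀ A ∈ l, AllC Q A X) : AllC Q (seqAll l) X := by
  induction l with
  | nil => exact hX
  | cons A l ih =>
    exact ⟨h A (by simp), ih (fun B hB => h B (by simp [hB]))⟩

theorem ch_empty {H : Type} [NormedAddCommGroup H] [InnerProductSpace ℝ H] (V : Finset H)
    (E : Finset (H × H)) (φ : H → H → (H →ᵃ[ℝ] H)) (B : ℕ) (k : ℕ) (p q : H) :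
    CH V E φ B k p q ∅ := by
  cases k with
  | zero => exact CH.zero p q ∅ (Set.empty_subset _)
  | succ k => exact CH.vert k p q ∅ (Set.empty_subset _)

theorem mem_subList {H : Type} [NormedAddCommGroup H] [InnerProductSpace ℝ H] (b : ℕ) (z z' w : H)
    (h : w ∈ subList b z z') : ∃ j ≤ b, w = sub b z z' j := by
  simp only [subList, List.mem_map, List.mem_range] at h
  obtain ⟨j, hj, hj2⟩ := h
  exact ⟨b - 1 - j, by omega, hj2.symm⟩

end NodeAllC

open NodeAllC in
theorem nodeAllC : NodeAllCStmt := by
  intro H _ _ V E a b L LE hL ha hb hE φ hφ B hB Q k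
  induction k with
  | zero =>
    intro X p q hQ
    have := hQ ∅ (ch_empty V E φ B 0 p q)
    rwa [Set.union_empty] at this
  | succ k ih =>
    intro X p q hQ
    have hQX : Q X := by
      have := hQ ∅ (ch_empty V E φ B (k + 1) p q)
      rwa [Set.union_empty] at this
    have hLsub : {z | z ∈ L.map (φ p q)} ⊆ φ p q '' (V : Set H) := by
      intro z hz
      obtain ⟨x, hx, rfl⟩ := List.mem_map.1 hz
      exact ⟨x, ((hL.mem x).1 hx).1, rfl⟩
    refine ⟨hQX, allC_pushAll Q p _ _ X ?_ ⟨?_, ?_⟩⟩
    · intro Z hZ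
      exact hQ Z (CH.vert k p q Z (hZ.trans hLsub))
    · refine allC_seqAll Q _ _ (hQ _ (CH.vert k p q _ hLsub)) ?_
      intro A hA
      obtain ⟨xy, -, rfl⟩ := List.mem_map.1 hA
      exact hQ _ (CH.vert k p q _ hLsub)
    · refine allC_seqAll Q _ _ (hQ _ (CH.vert k p q _ hLsub)) ?_
      intro A hA
      obtain ⟨e, he, rfl⟩ := List.mem_map.1 hA
      have heE : e ∈ E := (hL.memE e).1 he
      have hstep0 : ∀ Z : Set H, Z ⊆ {z | z ∈ subList B (φ p q e.1) (φ p q e.2)} →
          Q (X ∪ {z | z ∈ L.map (φ p q)} ∪ Z) := by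
        intro Z hZ
        rw [Set.union_assoc]
        refine hQ _ (CH.step k p q e 0 ∅ _ heE (by omega) (ch_empty V E φ B k _ _) ?_)
        intro z hz
        rcases hz with h | h
        · exact Or.inl (Or.inl (hLsub h))
        · exact Or.inl (Or.inr (mem_subList _ _ _ _ (hZ h)))
      refine allC_pushAll Q _ _ _ _ hstep0 ?_
      refine allC_seqAll Q _ _ (hstep0 _ subset_rfl) ?_
      intro A hA
      obtain ⟨i, hi, rfl⟩ := List.mem_map.1 hA
      apply ih
      intro Y' hY'
      rw [Set.union_assoc, Set.union_assoc]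
      refine hQ _ (CH.step k p q e i Y' _ heE (List.mem_range.1 hi) hY' ?_)
      intro z hz
      rcases hz with h | h | h
      · exact Or.inl (Or.inl (hLsub h))
      · exact Or.inl (Or.inr (mem_subList _ _ _ _ h))
      · exact Or.inr h

end Crest.Agent.R254
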