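import Crest.Agent.R254.Core

/-!
Row 254 (S0392), part III: NODEWF.
-/

set_option autoImplicit false

namespace Crest.Agent.R254

namespace NodeWF

theorem exists_lb {ι : Type*} (S : Finset ι) (d : ι → ℝ) (hd : ∀ i, 0 < d i) :
    ∃ s : ℝ, 0 < s ∧ ∀ i ∈ S, s ≤ d i := by
  classical
  induction S using Finset.induction_on with
  | empty => exact ⟨1, one_pos, by simp⟩
  | insert i S _ ih =>
    obtain ⟨s, hs, h⟩ := ih
    refine ⟨min s (d i), lt_min hs (hd i), ?_⟩
    intro j hj
    rcases Finset.mem_insert.1 hj with rfl | hj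
    · exact min_le_right _ _
    · exact (min_le_left _ _).trans (h j hj)

theorem exists_ub {ι : Type*} (S : Finset ι) (d : ι → ℝ) :
    ∃ s : ℝ, 0 < s ∧ ∀ i ∈ S, d i ≤ s := by
  classical
  induction S using Finset.induction_on with
  | empty => exact ⟨1, one_pos, by simp⟩
  | insert i S _ ih =>
    obtain ⟨s, hs, h⟩ := ih
    refine ⟨max s (d i), lt_max_of_lt_left hs, ?_⟩
    intro j hj
    rcases Finset.mem_insert.1 hj with rfl | hj
    · exact le_max_right _ _
    · exact (h j hj).trans (le_max_left _ _)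

section
variable {H : Type} [NormedAddCommGroup H] [InnerProductSpace ℝ H]

theorem mem_seg {x y w : H} : w ∈ segment ℝ x y ↔
    ∃ t ∈ Set.Icc (0 : ℝ) 1, AffineMap.lineMap x y t = w := by
  rw [segment_eq_image_lineMap]; rfl

theorem seg_compact (x y : H) : IsCompact (segment ℝ x y) := by
  rw [segment_eq_image_lineMap]
  exact isCompact_Icc.image (by fun_prop)

theorem map_seg (φ : H →ᵃ[ℝ] H) {x y w : H} (h : w ∈ segment ℝ x y) :
    φ w ∈ segment ℝ (φ x) (φ y) := by
  obtain ⟨t, ht, rfl⟩ := mem_seg.1 h
  exact mem_seg.2 ⟨t, ht, (AffineMap.apply_lineMap φ x y t).symm⟩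

theorem seg_preimage (φ : H →ᵃ[ℝ] H) {x y w : H} (h : w ∈ segment ℝ (φ x) (φ y)) :
    ∃ w' ∈ segment ℝ x y, φ w' = w := by
  obtain ⟨t, ht, rfl⟩ := mem_seg.1 h
  exact ⟨AffineMap.lineMap x y t, mem_seg.2 ⟨t, ht, rfl⟩, AffineMap.apply_lineMap φ x y t⟩

theorem seg_preimage_inj (φ : H →ᵃ[ℝ] H) (hφ : Function.Injective φ) {x y w : H}
    (h : φ w ∈ segment ℝ (φ x) (φ y)) : w ∈ segment ℝ x y := by
  obtain ⟨w', hw, hw'⟩ := seg_preimage φ h
  rwa [hφ hw'] at hw

theorem dist_left_of_mem {x y w : H} (h : w ∈ segment ℝ x y) : dist x w ≤ dist x y := by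
  obtain ⟨t, ht, rfl⟩ := mem_seg.1 h
  rw [dist_left_lineMap, Real.norm_of_nonneg ht.1]
  exact mul_le_of_le_one_left dist_nonneg ht.2

theorem eq_of_mem_of_dist_ge {x y w : H} (h : w ∈ segment ℝ x y) (hd : dist x y ≤ dist x w) :
    w = y := by
  obtain ⟨t, ht, rfl⟩ := mem_seg.1 h
  rw [dist_left_lineMap, Real.norm_of_nonneg ht.1] at hd
  by_cases hxy : x = y
  · subst hxy; simp
  have hp : 0 < dist x y := dist_pos.2 hxy
  have : 1 ≤ t := by
    by_contra hcon
    push Not at hcon
    nlinarith
  have : t = 1 := le_antisymm ht.2 this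
  rw [this, AffineMap.lineMap_apply_one]

theorem thick_convex (a b : H) (c : ℝ) : Convex ℝ {x : H | ∃ w ∈ segment ℝ a b, dist x w ≤ c} := by
  intro x hx y hy s t hs ht hst
  obtain ⟨w, hw, hxw⟩ := hx
  obtain ⟨w', hw', hyw⟩ := hy
  refine ⟨s • w + t • w', (convex_segment a b) hw hw' hs ht hst, ?_⟩
  rw [dist_eq_norm] at *
  have e : s • x + t • y - (s • w + t • w') = s • (x - w) + t • (y - w') := by
    rw [smul_sub, smul_sub]; abel
  rw [e]
  calc ‖s • (x - w) + t • (y - w')‖ ≤ ‖s • (x - w)‖ + ‖t • (y - w')‖ := norm_add_le _ _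
    _ = s * ‖x - w‖ + t * ‖y - w'‖ := by
        rw [norm_smul, norm_smul, Real.norm_of_nonneg hs, Real.norm_of_nonneg ht]
    _ ≤ s * c + t * c := by gcongr
    _ = c := by rw [← add_mul, hst, one_mul]

theorem wfPushAll (p : H) (l : List H) (A : Prog H) :
    ∀ X : Set H, p ∈ X → (∀ y ∈ l, y ∉ X) → l.Nodup →
      (∀ y ∈ l, ∀ z ∈ X, z ∈ segment ℝ p y → z = p) →
      l.Pairwise (fun x y => x ∉ segment ℝ p y) → WF A (X ∪ {z | z ∈ l}) →
      WF (pushAll p l A) X := by
  induction l with
  | nil =>
    intro X _ _ _ _ _ hA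
    have : X ∪ {z | z ∈ ([] : List H)} = X := by ext z; simp
    rw [this] at hA
    exact hA
  | cons y l ih =>
    intro X hp hX hnd hseg hpw hA
    rw [List.nodup_cons] at hnd
    rw [List.pairwise_cons] at hpw
    refine ⟨hp, hX y (by simp), hseg y (by simp), ih _ (Set.mem_insert_of_mem _ hp) ?_ hnd.2 ?_
      hpw.2 ?_⟩
    · intro y' hy' hmem
      rcases hmem with h | h
      · subst h; exact hnd.1 hy'
      · exact hX y' (by simp [hy']) h
    · intro y' hy' z hz hz2
      rcases hz with h | h
      · subst h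
        exact absurd hz2 (hpw.1 y' hy')
      · exact hseg y' (by simp [hy']) z h hz2
    · have e : insert y X ∪ {z | z ∈ l} = X ∪ {z | z ∈ y :: l} := by
        ext z; simp only [Set.mem_union, Set.mem_insert_iff, Set.mem_setOf_eq, List.mem_cons]; tauto
      rw [e]; exact hA

theorem wfSeqAll (l : List (Prog H)) (X : Set H) (h : ∀ A ∈ l, WF A X) : WF (seqAll l) X := by
  induction l with
  | nil => trivial
  | cons A l ih => exact ⟨h A (by simp), ih (fun B hB => h B (by simp [hB]))⟩

theorem sub_zero' (b : ℕ) (z z' : H) : sub b z z' 0 = z := by simp [sub]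

theorem sub_last (b : ℕ) (hb : 1 ≤ b) (z z' : H) : sub b z z' b = z' := by
  have : (b : ℝ) ≠ 0 := by positivity
  simp [sub, div_self this]

theorem sub_inj (b : ℕ) (hb : 1 ≤ b) (z z' : H) (hz : z ≠ z') (i j : ℕ)
    (h : sub b z z' i = sub b z z' j) : i = j := by
  have hb' : (b : ℝ) ≠ 0 := by positivity
  have := (AffineMap.lineMap_injective ℝ hz) h
  have h2 : (i : ℝ) = j := by
    field_simp at this
    exact this
  exact_mod_cast h2

theorem sub_mem (b : ℕ) (hb : 1 ≤ b) (z z' : H) (j : ℕ) (hj : j ≤ b) :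
    sub b z z' j ∈ segment ℝ z z' := by
  refine mem_seg.2 ⟨(j : ℝ) / b, ⟨by positivity, ?_⟩, rfl⟩
  rw [div_le_one (by positivity)]
  exact_mod_cast hj

theorem dist_sub_succ (b : ℕ) (z z' : H) (i : ℕ) :
    dist (sub b z z' i) (sub b z z' (i + 1)) = dist z z' / b := by
  unfold sub
  rw [dist_lineMap_lineMap, Real.dist_eq]
  have : (i : ℝ) / b - ((i + 1 : ℕ) : ℝ) / b = - (1 / b) := by
    push_cast; ring
  rw [this, abs_neg, abs_of_nonneg (by positivity)]
  ring

theorem dist_left_sub (b : ℕ) (z z' : H) (i : ℕ) :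
    dist z (sub b z z' i) = (i : ℝ) / b * dist z z' := by
  unfold sub
  rw [dist_left_lineMap, Real.norm_of_nonneg (by positivity)]

theorem mem_subList (b : ℕ) (hb : 1 ≤ b) (z z' w : H) :
    w ∈ subList b z z' ↔ ∃ j, 1 ≤ j ∧ j < b ∧ w = sub b z z' j := by
  simp only [subList, List.mem_map, List.mem_range]
  constructor
  · rintro ⟨j, hj, hj2⟩
    exact ⟨b - 1 - j, by omega, by omega, hj2.symm⟩
  · rintro ⟨j, h1, h2, rfl⟩
    refine ⟨b - 1 - j, by omega, ?_⟩
    congr 1
    omega

theorem nodup_subList (b : ℕ) (hb : 1 ≤ b) (z z' : H) (hz : z ≠ z') :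
    (subList b z z').Nodup := by
  unfold subList
  refine List.Nodup.map_on ?_ List.nodup_range
  intro x hx y hy hxy
  rw [List.mem_range] at hx hy
  have := sub_inj b hb z z' hz _ _ hxy
  omega

theorem pairwise_subList (b : ℕ) (hb : 1 ≤ b) (z z' : H) (hz : z ≠ z') :
    (subList b z z').Pairwise (fun x y => x ∉ segment ℝ z y) := by
  unfold subList
  rw [List.pairwise_map]
  have h1 : (List.range (b - 1)).Pairwise (fun i j => i < j ∧ j < b - 1) := by
    have h2 := List.pairwise_lt_range (n := b - 1)
    refine List.Pairwise.imp_of_mem ?_ h2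
    intro i j hi hj hij
    exact ⟨hij, List.mem_range.1 hj⟩
  refine h1.imp ?_
  rintro i j ⟨hij, hj⟩ hmem
  have h3 := dist_left_of_mem hmem
  rw [dist_left_sub, dist_left_sub] at h3
  have hp : 0 < dist z z' := dist_pos.2 hz
  have h4 := le_of_mul_le_mul_right h3 hp
  have hb' : (0 : ℝ) < b := by positivity
  rw [div_le_div_iff_of_pos_right hb'] at h4
  have h5 : b - 1 - i ≤ b - 1 - j := by exact_mod_cast h4
  omega

/-- distance from another subdivision point to a piece. -/
theorem dist_piece (b : ℕ) (hb : 1 ≤ b) (z z' : H) (i j : ℕ) (hj : j ≠ i) (hj' : j ≠ i + 1)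
    (w : H) (hw : w ∈ segment ℝ (sub b z z' i) (sub b z z' (i + 1))) :
    dist z z' / b ≤ dist (sub b z z' j) w := by
  have hb' : (0 : ℝ) < b := by positivity
  obtain ⟨t, ht, rfl⟩ := mem_seg.1 hw
  have e : AffineMap.lineMap (sub b z z' i) (sub b z z' (i + 1)) t =
      AffineMap.lineMap z z' (((i : ℝ) + t) / b) := by
    unfold sub
    rw [show (AffineMap.lineMap z z' (((i : ℝ) + t) / b) : H) =
      AffineMap.lineMap z z' (AffineMap.lineMap ((i : ℝ) / b) (((i + 1 : ℕ) : ℝ) / b) t) from ?_]
    · rw [AffineMap.apply_lineMap]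
    · congr 1
      rw [AffineMap.lineMap_apply_module]
      push_cast
      simp only [smul_eq_mul]
      field_simp
      ring
  rw [e]
  unfold sub
  rw [dist_lineMap_lineMap, Real.dist_eq]
  have h1 : 1 / (b : ℝ) ≤ |(j : ℝ) / b - ((i : ℝ) + t) / b| := by
    rw [← sub_div, abs_div, abs_of_pos hb']
    apply div_le_div_of_nonneg_right _ hb'.le
    rcases lt_or_gt_of_ne hj with h | h
    · have h2 : (j : ℝ) + 1 ≤ i := by exact_mod_cast h
      rw [abs_sub_comm]
      exact le_trans (by linarith [ht.1]) (le_abs_self _)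
    · have h2 : i + 2 ≤ j := by omega
      have h3 : (i : ℝ) + 2 ≤ j := by exact_mod_cast h2
      exact le_trans (by linarith [ht.2]) (le_abs_self _)
  calc dist z z' / b = 1 / (b : ℝ) * dist z z' := by ring
    _ ≤ _ := by gcongr

end

end NodeWF

open NodeWF in
theorem nodeWF : NodeWFStmt := by
  intro n D hD H _ _ V E a b hO L LE hL φ hφ
  have hab : a ≠ b := by
    intro h
    have := hO.hab
    rw [h, dist_self] at this
    norm_num at this
  -- separation constant
  obtain ⟨s, hs, hsep⟩ : ∃ s : ℝ, 0 < s ∧ ∀ e ∈ E, ∀ v ∈ V, v ≠ e.1 → v ≠ e.2 →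
      ∀ w ∈ segment ℝ e.1 e.2, s ≤ dist v w := by
    classical
    obtain ⟨s, hs, h⟩ := exists_lb (E ×ˢ V)
      (fun x => if x.2 ∈ segment ℝ x.1.1 x.1.2 then 1 else
        Metric.infDist x.2 (segment ℝ x.1.1 x.1.2)) (by
        intro x
        split_ifs with hx
        · exact one_pos
        · exact ((seg_compact _ _).isClosed.notMem_iff_infDist_pos
            ⟨x.1.1, left_mem_segment ℝ _ _⟩).1 hx)
    refine ⟨s, hs, ?_⟩
    intro e he v hv h1 h2 w hw
    have h3 : v ∉ segment ℝ e.1 e.2 := by
      intro h4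
      rcases hO.sep e he v hv h4 with h5 | h5
      · exact h1 h5
      · exact h2 h5
    have h4 := h (e, v) (Finset.mk_mem_product he hv)
    simp only [h3, if_false] at h4
    exact h4.trans (Metric.infDist_le_dist_of_mem hw)
  obtain ⟨M, hM, hMb⟩ := exists_ub E (fun e => dist e.1 e.2)
  obtain ⟨B0, hB0⟩ := exists_nat_gt (M / min s (1 / 2))
  refine ⟨B0 + 1, fun B hB => ?_⟩
  have hB1 : 1 ≤ B := by omega
  have hBpos : (0 : ℝ) < B := by positivity
  have hms : 0 < min s (1 / 2) := lt_min hs (by norm_num)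
  have hpiece : ∀ e ∈ E, dist e.1 e.2 / B ≤ s ∧ dist e.1 e.2 / B ≤ 1 / 2 := by
    intro e he
    have h1 : (B0 : ℝ) ≤ B := by exact_mod_cast (by omega : B0 ≤ B)
    have h2 : M / min s (1 / 2) ≤ B := by linarith
    rw [div_le_iff₀ hms] at h2
    have h3 : dist e.1 e.2 / B ≤ min s (1 / 2) := by
      rw [div_le_iff₀ hBpos]
      have := hMb e he
      linarith
    exact ⟨h3.trans (min_le_left _ _), h3.trans (min_le_right _ _)⟩
  -- thin for all points of the convex hull
  have hthinV : ∀ v ∈ V, v ∈ {x : H | ∃ w ∈ segment ℝ a b, dist x w ≤ 1 / 2000} := by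
    intro v hv
    obtain ⟨t, ht, h⟩ := hO.thin v hv
    exact ⟨_, mem_seg.2 ⟨t, ht, rfl⟩, h⟩
  have hthin : ∀ v ∈ V, ∀ v' ∈ V, ∀ x ∈ segment ℝ v v', ∃ w ∈ segment ℝ a b, dist x w ≤ 1 / 2000 := by
    intro v hv v' hv' x hx
    exact (thick_convex a b (1 / 2000)).segment_subset (hthinV v hv) (hthinV v' hv') hx
  intro k
  induction k with
  | zero =>
    intro X p q hI
    obtain ⟨hpq, hp, hq, hiso⟩ := hI
    refine ⟨hp, hq, hpq, ?_⟩
    intro z hz hzs
    by_contra hcon
    push Not at hcon
    have h1 := hiso z hz hcon.1 hcon.2 z hzs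
    have h2 : 0 < dist p q := dist_pos.2 hpq
    rw [dist_self] at h1
    linarith
  | succ k ih =>
    intro X p q hI
    have hI' := hI
    obtain ⟨hpq, hp, hq, hiso⟩ := hI
    have hl : 0 < dist p q := dist_pos.2 hpq
    obtain ⟨hφa, hφb, hφd⟩ := hφ p q hpq
    set F := φ p q with hF
    have hinj : Function.Injective F := by
      intro x y hxy
      have h2 := hφd x y
      rw [hxy, dist_self] at h2
      have : dist x y = 0 := by
        rcases mul_eq_zero.1 h2.symm with h3 | h3
        · exact absurd h3 hl.ne'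
        · exact h3
      exact dist_eq_zero.1 this
    -- distance from far alive points to images of thin points
    have hfar : ∀ y ∈ X, y ≠ p → y ≠ q → ∀ v ∈ V, ∀ v' ∈ V, ∀ x ∈ segment ℝ v v',
        dist p q / 2 - dist p q / 2000 ≤ dist y (F x) := by
      intro y hy hyp hyq v hv v' hv' x hx
      obtain ⟨w, hw, hxw⟩ := hthin v hv v' hv' x hx
      have h1 := map_seg F hw
      rw [hφa, hφb] at h1
      have h2 := hiso y hy hyp hyq _ h1
      have h3 := dist_triangle y (F x) (F w)
      rw [hφd x w] at h3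
      have h4 : dist p q * dist x w ≤ dist p q * (1 / 2000) := by gcongr
      linarith
    have hnotX : ∀ v ∈ V, ∀ v' ∈ V, ∀ x ∈ segment ℝ v v', F x ∈ X → F x = p ∨ F x = q := by
      intro v hv v' hv' x hx hX
      by_contra hcon
      push Not at hcon
      have := hfar _ hX hcon.1 hcon.2 v hv v' hv' x hx
      rw [dist_self] at this
      linarith
    have hLV : ∀ v ∈ L, v ∈ V ∧ v ≠ a ∧ v ≠ b := fun v hv => (hL.mem v).1 hv
    set X1 := X ∪ {z | z ∈ L.map F} with hX1
    have hVX1 : ∀ v ∈ V, F v ∈ X1 := by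
      intro v hv
      by_cases hva : v = a
      · subst hva; rw [hφa]; exact Or.inl hp
      by_cases hvb : v = b
      · subst hvb; rw [hφb]; exact Or.inl hq
      exact Or.inr (List.mem_map_of_mem ((hL.mem v).2 ⟨hv, hva, hvb⟩))
    -- classification of points in X1
    have hX1cl : ∀ u ∈ X1, (∃ v ∈ V, F v = u) ∨ (u ∈ X ∧ u ≠ p ∧ u ≠ q) := by
      intro u hu
      rcases hu with h | h
      · by_cases hup : u = p
        · exact Or.inl ⟨a, hO.ha, by rw [hφa, hup]⟩
        by_cases huq : u = q
        · exact Or.inl ⟨b, hO.hb, by rw [hφb, huq]⟩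
        exact Or.inr ⟨h, hup, huq⟩
      · obtain ⟨v, hv, rfl⟩ := List.mem_map.1 h
        exact Or.inl ⟨v, (hLV v hv).1, rfl⟩
    refine ⟨?_, wfPushAll p _ _ X hp ?_ ?_ ?_ ?_ ⟨?_, ?_⟩⟩
    · refine ⟨hp, hq, hpq, ?_⟩
      intro z hz hzs
      by_contra hcon
      push Not at hcon
      have h1 := hiso z hz hcon.1 hcon.2 z hzs
      rw [dist_self] at h1
      linarith
    · intro y hy hyX
      obtain ⟨v, hv, rfl⟩ := List.mem_map.1 hy
      obtain ⟨hvV, hva, hvb⟩ := hLV v hv
      rcases hnotX v hvV v hvV v (left_mem_segment ℝ _ _) hyX with h | h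
      · rw [← hφa] at h; exact hva (hinj h)
      · rw [← hφb] at h; exact hvb (hinj h)
    · exact hL.nodup.map hinj
    · intro y hy z hz hzs
      obtain ⟨v, hv, rfl⟩ := List.mem_map.1 hy
      obtain ⟨hvV, hva, hvb⟩ := hLV v hv
      change z ∈ segment ℝ p (F v) at hzs
      rw [← hφa] at hzs
      obtain ⟨w, hw, rfl⟩ := seg_preimage F hzs
      rcases hnotX a hO.ha v hvV w hw hz with h | h
      · exact h
      · exfalso
        rw [← hφb] at h
        have hwb := hinj h
        subst hwb
        obtain ⟨t, ht, htw⟩ := mem_seg.1 hw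
        have hslab := hO.slab v hvV
        rcases hslab with h1 | h1 | h1
        · exact hva h1
        · exact hvb h1
        · have h2 : (inner ℝ (w - a) (w - a) : ℝ) = t * inner ℝ (v - a) (w - a) := by
            conv_lhs => rw [show w - a = t • (v - a) + (w - a - t • (v - a)) by abel]
            have h3 : w - a - t • (v - a) = 0 := by
              rw [← htw, AffineMap.lineMap_apply, vsub_eq_sub, vadd_eq_add]
              abel
            rw [h3, add_zero]
            have h4 : t • (v - a) = w - a := by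
              rw [sub_eq_zero] at h3; exact h3.symm
            conv_lhs => rw [inner_smul_left]
            rw [h4]
            simp
          have h3 : (inner ℝ (w - a) (w - a) : ℝ) = 1 := by
            rw [real_inner_self_eq_norm_sq, ← dist_eq_norm, dist_comm, hO.hab]; norm_num
          rw [h3] at h2
          have h5 : t * (inner ℝ (v - a) (w - a) : ℝ) ≤ 1 * (3 / 4) :=
            mul_le_mul ht.2 h1.2 (by linarith [h1.1]) zero_le_one
          linarith
    · rw [List.pairwise_map]
      have h1 := hL.sorted.and hL.nodup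
      refine h1.imp ?_
      rintro x y ⟨hxy, hne⟩ hmem
      change F x ∈ segment ℝ p (F y) at hmem
      rw [← hφa] at hmem
      have h2 := seg_preimage_inj F hinj hmem
      exact hne (eq_of_mem_of_dist_ge h2 hxy)
    · refine wfSeqAll _ _ ?_
      intro A hA
      obtain ⟨xy, hxy, rfl⟩ := List.mem_map.1 hA
      rw [List.mem_filter] at hxy
      obtain ⟨h1, h2⟩ := hxy
      have hmem : ∀ u ∈ (a :: b :: L).map F, u ∈ X1 := by
        intro u hu
        obtain ⟨v, hv, rfl⟩ := List.mem_map.1 hu
        apply hVX1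
        simp only [List.mem_cons] at hv
        rcases hv with rfl | rfl | hv
        · exact hO.ha
        · exact hO.hb
        · exact (hLV v hv).1
      have h3 := List.mem_product.1 (show (xy.1, xy.2) ∈ _ from h1)
      exact ⟨hmem _ h3.1, hmem _ h3.2, by simpa using h2⟩
    · refine wfSeqAll _ _ ?_
      intro A hA
      obtain ⟨e, heLE, rfl⟩ := List.mem_map.1 hA
      have he : e ∈ E := (hL.memE e).1 heLE
      obtain ⟨he1, he2, hene⟩ := hO.hE e he
      set z := F e.1 with hz
      set z' := F e.2 with hz'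
      have hzz : z ≠ z' := fun h => hene (hinj h)
      have hdz : dist z z' = dist p q * dist e.1 e.2 := hφd _ _
      have hFsub : ∀ j, F (sub B e.1 e.2 j) = sub B z z' j := by
        intro j
        unfold sub
        rw [AffineMap.apply_lineMap]
      -- point of X1 on the segment z z'
      have hon : ∀ u ∈ X1, u ∈ segment ℝ z z' → u = z ∨ u = z' := by
        intro u hu hus
        obtain ⟨w, hw, rfl⟩ := seg_preimage F hus
        rcases hX1cl _ hu with ⟨v, hv, hvw⟩ | ⟨h1, h2, h3⟩
        · have := hinj hvw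
          subst this
          rcases hO.sep e he v hv hw with h | h
          · left; rw [h]
          · right; rw [h]
        · exfalso
          rcases hnotX _ he1 _ he2 w hw h1 with h | h
          · exact h2 h
          · exact h3 h
      refine wfPushAll z _ _ X1 (hVX1 _ he1) ?_ (nodup_subList B hB1 z z' hzz) ?_
        (pairwise_subList B hB1 z z' hzz) ?_
      · intro y hy hyX
        obtain ⟨j, hj1, hj2, rfl⟩ := (mem_subList B hB1 z z' y).1 hy
        rcases hon _ hyX (sub_mem B hB1 z z' j hj2.le) with h | h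
        · have h1 : sub B z z' j = sub B z z' 0 := by rw [sub_zero', h]
          have := sub_inj B hB1 z z' hzz _ _ h1
          omega
        · have h1 : sub B z z' j = sub B z z' B := by rw [sub_last B hB1, h]
          have := sub_inj B hB1 z z' hzz _ _ h1
          omega
      · intro y hy u hu hus
        obtain ⟨j, hj1, hj2, rfl⟩ := (mem_subList B hB1 z z' y).1 hy
        have h1 : u ∈ segment ℝ z z' :=
          (convex_segment z z').segment_subset (left_mem_segment ℝ _ _)
            (sub_mem B hB1 z z' j hj2.le) hus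
        rcases hon _ hu h1 with h | h
        · exact h
        · exfalso
          have h2 := dist_left_of_mem hus
          rw [h, dist_left_sub] at h2
          have hp' : 0 < dist z z' := dist_pos.2 hzz
          have h3 : (1 : ℝ) ≤ (j : ℝ) / B := by
            by_contra hcon
            push Not at hcon
            nlinarith
          rw [le_div_iff₀ hBpos] at h3
          have h4 : (j : ℝ) < B := by exact_mod_cast hj2
          linarith
      · refine wfSeqAll _ _ ?_
        intro A hA
        obtain ⟨i, hi, rfl⟩ := List.mem_map.1 hA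
        have hiB : i < B := List.mem_range.1 hi
        apply ih
        have hne : sub B z z' i ≠ sub B z z' (i + 1) := by
          intro h
          have := sub_inj B hB1 z z' hzz _ _ h
          omega
        have hsubmem : ∀ j ≤ B, sub B z z' j ∈ X1 ∪ {u | u ∈ subList B z z'} := by
          intro j hj
          by_cases h0 : j = 0
          · subst h0; rw [sub_zero']; exact Or.inl (hVX1 _ he1)
          by_cases h1 : j = B
          · subst h1; rw [sub_last j hB1]; exact Or.inl (hVX1 _ he2)
          exact Or.inr ((mem_subList B hB1 z z' _).2 ⟨j, by omega, by omega, rfl⟩)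
        refine ⟨hne, hsubmem i (by omega), hsubmem (i + 1) (by omega), ?_⟩
        intro y hy hy1 hy2 w hw
        rw [dist_sub_succ]
        have hlpos : 0 ≤ dist z z' / B := by positivity
        have hcase : ∀ j, y = sub B z z' j → dist z z' / B / 2 ≤ dist y w := by
          intro j hj
          have h1 : j ≠ i := by rintro rfl; exact hy1 hj
          have h2 : j ≠ i + 1 := by rintro rfl; exact hy2 hj
          have := dist_piece B hB1 z z' i j h1 h2 w hw
          rw [hj]
          linarith
        have hwz : w ∈ segment ℝ z z' :=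
          (convex_segment z z').segment_subset (sub_mem B hB1 z z' i (by omega))
            (sub_mem B hB1 z z' (i + 1) (by omega)) hw
        obtain ⟨w', hw', hww⟩ := seg_preimage F hwz
        rcases hy with hy | hy
        · rcases hX1cl _ hy with ⟨v, hv, hvy⟩ | ⟨h1, h2, h3⟩
          · by_cases hv1 : v = e.1
            · exact hcase 0 (by rw [sub_zero', ← hvy, hv1])
            by_cases hv2 : v = e.2
            · exact hcase B (by rw [sub_last B hB1, ← hvy, hv2])
            have h4 := hsep e he v hv hv1 hv2 w' hw'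
            rw [← hvy, ← hww, hdz, hφd v w']
            have h5 := (hpiece e he).1
            have h6 : 0 ≤ dist e.1 e.2 / B := by positivity
            calc dist p q * dist e.1 e.2 / B / 2 = dist p q * (dist e.1 e.2 / B / 2) := by ring
              _ ≤ dist p q * dist v w' := by
                  apply mul_le_mul_of_nonneg_left _ hl.le
                  linarith
          · have h4 := hfar y h1 h2 h3 _ he1 _ he2 w' hw'
            rw [← hww, hdz]
            have h5 := (hpiece e he).2
            have h6 : dist p q * (dist e.1 e.2 / B) ≤ dist p q * (1 / 2) := by gcongr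
            have h7 : dist p q * dist e.1 e.2 / B / 2 = dist p q * (dist e.1 e.2 / B) / 2 := by ring
            rw [h7]
            linarith
        · obtain ⟨j, -, -, hj⟩ := (mem_subList B hB1 z z' y).1 hy
          exact hcase j hj

end Crest.Agent.R254
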