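import Crest.Agent.R254.Core

set_option autoImplicit false

namespace Crest.Agent.R254

open Filter Topology

theorem obsComp : ObsCompStmt := by
  intro n D hD H _ _ V E a b hO
  by_contra hcon
  push Not at hcon
  have hη : ∀ k : ℕ, (0:ℝ) < 1 / ((k:ℝ) + 1) := fun k => by positivity
  choose f σ hσ hσ1 hlow hab hedge using fun k : ℕ => hcon (1 / ((k:ℝ) + 1)) (hη k)
  -- normalised maps
  let F : ℕ → H → EE n := fun k x => (σ k)⁻¹ • (f k x - f k a)
  have hdist : ∀ k x y, dist (F k x) (F k y) = (σ k)⁻¹ * dist (f k x) (f k y) := by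
    intro k x y
    simp only [F]
    rw [dist_smul₀, dist_sub_right, Real.norm_eq_abs, abs_of_pos (inv_pos.mpr (hσ k))]
  have hFlow : ∀ k, ∀ x ∈ V, ∀ y ∈ V, dist x y ≤ D * dist (F k x) (F k y) := by
    intro k x hx y hy
    refine (hlow k x hx y hy).trans ?_
    rw [hdist]
    have h1 : 1 ≤ (σ k)⁻¹ := (one_le_inv₀ (hσ k)).mpr (hσ1 k)
    have h2 : dist (f k x) (f k y) ≤ (σ k)⁻¹ * dist (f k x) (f k y) := by
      nlinarith [dist_nonneg (x := f k x) (y := f k y)]
    exact mul_le_mul_of_nonneg_left h2 (by linarith)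
  have hFedge : ∀ k, ∀ e ∈ E, dist (F k e.1) (F k e.2) ≤ (1 + 1 / ((k:ℝ) + 1)) * dist e.1 e.2 := by
    intro k e he
    rw [hdist, inv_mul_le_iff₀ (hσ k)]
    have := hedge k e he
    linarith
  have hFab : ∀ k, dist a b ≤ dist (F k a) (F k b) := by
    intro k
    rw [hdist, hO.hab, le_inv_mul_iff₀ (hσ k)]
    simpa using hab k
  have hFa : ∀ k, F k a = 0 := by
    intro k
    simp [F]
  have hbound : ∀ v, Relation.ReflTransGen (fun x y => (x, y) ∈ E ∨ (y, x) ∈ E) a v →
      ∃ M : ℝ, ∀ k, ‖F k v‖ ≤ M := by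
    intro v hv
    induction hv with
    | refl => exact ⟨0, fun k => by rw [hFa]; simp⟩
    | @tail x y _ hxy ih =>
      obtain ⟨M, hM⟩ := ih
      refine ⟨M + 2 * dist x y, fun k => ?_⟩
      have h1 : dist (F k x) (F k y) ≤ 2 * dist x y := by
        have hk : (1:ℝ) / ((k:ℝ) + 1) ≤ 1 := by
          rw [div_le_one (by positivity)]
          have : (0:ℝ) ≤ k := Nat.cast_nonneg k
          linarith
        rcases hxy with h | h
        · have := hFedge k (x, y) h
          simp only at this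
          nlinarith [dist_nonneg (x := x) (y := y)]
        · have := hFedge k (y, x) h
          simp only at this
          rw [dist_comm (F k x), dist_comm x]
          nlinarith [dist_nonneg (x := y) (y := x)]
      have h2 : ‖F k y‖ ≤ ‖F k x‖ + dist (F k x) (F k y) := by
        rw [dist_comm, dist_eq_norm]
        calc ‖F k y‖ = ‖F k x + (F k y - F k x)‖ := by congr 1; abel
          _ ≤ _ := norm_add_le _ _
      linarith [hM k]
  have hM : ∀ v : V, ∃ M : ℝ, ∀ k, ‖F k v‖ ≤ M := fun v => hbound v (hO.conn v v.2)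
  choose M hM using hM
  let u : ℕ → (V → EE n) := fun k v => F k v
  have hu : ∀ k, u k ∈ Set.pi Set.univ (fun v : V => Metric.closedBall (0 : EE n) (M v)) := by
    intro k v _
    simp only [Metric.mem_closedBall, dist_zero_right, u]
    exact hM v k
  have hcomp : IsCompact (Set.pi Set.univ (fun v : V => Metric.closedBall (0 : EE n) (M v))) :=
    isCompact_univ_pi (fun v => isCompact_closedBall _ _)
  obtain ⟨w, _, φ, hφ, hlim⟩ := hcomp.tendsto_subseq hu
  have hlimv : ∀ v : V, Tendsto (fun k => F (φ k) v) atTop (𝓝 (w v)) := by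
    intro v
    exact (tendsto_pi_nhds.mp hlim) v
  classical
  let G : H → EE n := fun x => if h : x ∈ V then w ⟨x, h⟩ else 0
  have hG : ∀ x (h : x ∈ V), G x = w ⟨x, h⟩ := fun x h => dif_pos h
  have hd : ∀ x ∈ V, ∀ y ∈ V,
      Tendsto (fun k => dist (F (φ k) x) (F (φ k) y)) atTop (𝓝 (dist (G x) (G y))) := by
    intro x hx y hy
    rw [hG x hx, hG y hy]
    exact (hlimv ⟨x, hx⟩).dist (hlimv ⟨y, hy⟩)
  apply hO.noemb
  refine ⟨G, ?_, ?_, ?_⟩
  · intro x hx y hy
    refine ge_of_tendsto ((hd x hx y hy).const_mul D) (Eventually.of_forall (fun k => ?_))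
    exact hFlow (φ k) x hx y hy
  · intro e he
    obtain ⟨h1, h2, _⟩ := hO.hE e he
    have hr : Tendsto (fun k : ℕ => (1 + 1 / ((φ k : ℝ) + 1)) * dist e.1 e.2) atTop
        (𝓝 ((1 + 0) * dist e.1 e.2)) := by
      refine Tendsto.mul_const _ (Tendsto.const_add _ ?_)
      exact tendsto_one_div_add_atTop_nhds_zero_nat.comp hφ.tendsto_atTop
    rw [add_zero, one_mul] at hr
    exact le_of_tendsto_of_tendsto (hd _ h1 _ h2) hr (Eventually.of_forall (fun k =>
      hFedge (φ k) e he))
  · refine ge_of_tendsto (hd a hO.ha b hO.hb) (Eventually.of_forall (fun k => ?_))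
    exact hFab (φ k)

end Crest.Agent.R254
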