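import Crest.Agent.R254.Core

set_option autoImplicit false

namespace Crest.Agent.R254

namespace PackCH

variable {H : Type} [NormedAddCommGroup H] [InnerProductSpace ℝ H]

lemma near_conv {S : Set H} (hS : Convex ℝ S) {δ : ℝ} {x y z : H}
    (hx : ∃ w ∈ S, dist x w ≤ δ) (hy : ∃ w ∈ S, dist y w ≤ δ) (hz : z ∈ segment ℝ x y) :
    ∃ w ∈ S, dist z w ≤ δ := by
  obtain ⟨w1, hw1, h1⟩ := hx
  obtain ⟨w2, hw2, h2⟩ := hy
  obtain ⟨α, β, hα, hβ, hαβ, rfl⟩ := hz
  refine ⟨α • w1 + β • w2, hS hw1 hw2 hα hβ hαβ, ?_⟩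
  rw [dist_eq_norm] at *
  have : α • x + β • y - (α • w1 + β • w2) = α • (x - w1) + β • (y - w2) := by
    simp only [smul_sub]; abel
  rw [this]
  calc _ ≤ ‖α • (x - w1)‖ + ‖β • (y - w2)‖ := norm_add_le _ _
    _ = α * ‖x - w1‖ + β * ‖y - w2‖ := by
      rw [norm_smul, norm_smul, Real.norm_of_nonneg hα, Real.norm_of_nonneg hβ]
    _ ≤ α * δ + β * δ := by gcongr
    _ = δ := by rw [← add_mul, hαβ, one_mul]

lemma line5 (hl : LineLikeStmt) (u v : H) (huv : u ≠ v) (x : H) (r : ℝ) (T : Finset H)
    (hr : 0 < r)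
    (h1 : ∀ y ∈ T, dist y x ≤ 2 * r) (h2 : ∀ y ∈ T, ∀ z ∈ T, y ≠ z → r < dist y z)
    (h3 : ∀ y ∈ T, ∃ w ∈ segment ℝ u v, dist y w ≤ r / 8) : T.card ≤ 5 := by
  have hn : 0 < ‖v - u‖ := norm_pos_iff.2 (sub_ne_zero.2 huv.symm)
  refine hl H u (‖v - u‖⁻¹ • (v - u)) x r T ?_ hr h1 h2 ?_
  · rw [norm_smul, norm_inv, norm_norm, inv_mul_cancel₀ hn.ne']
  · intro y hy
    obtain ⟨w, hw, hyw⟩ := h3 y hy
    rw [segment_eq_image'] at hw
    obtain ⟨t, -, rfl⟩ := hw
    refine ⟨t * ‖v - u‖, ?_⟩
    rwa [mul_smul, smul_inv_smul₀ hn.ne']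

lemma packMono {S S' : Set H} {m m' : ℕ} (h : Pack S m) (hS : S' ⊆ S) (hm : m ≤ m') :
    Pack S' m' := fun x r hr T hT h1 h2 => (h x r hr T (hT.trans hS) h1 h2).trans hm

/-- packing is invariant under (possibly non surjective) similarities. -/
lemma packSim {V : Set H} {m : ℕ} (hV : Pack V m) (f : H →ᵃ[ℝ] H) {l : ℝ} (hl : 0 < l)
    (hf : ∀ x y, dist (f x) (f y) = l * dist x y) : Pack (f '' V) m := by
  classical
  intro x r hr T hT h1 h2
  have hinj : Function.Injective f := by
    intro y z hyz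
    have := hf y z
    rw [hyz, dist_self] at this
    have h3 : dist y z = 0 := by
      rcases mul_eq_zero.1 this.symm with h | h
      · exact absurd h hl.ne'
      · exact h
    exact dist_eq_zero.1 h3
  have hch : ∀ y ∈ T, ∃ v ∈ V, f v = y := fun y hy => hT hy
  choose! g hg1 hg2 using hch
  set T' : Finset H := T.image g with hT'
  have hcard : T'.card = T.card := by
    apply Finset.card_image_of_injOn
    intro y hy z hz hyz
    have := congrArg f hyz
    rwa [hg2 y hy, hg2 z hz] at this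
  let W : Submodule ℝ H := Submodule.span ℝ ((T.image (fun y => y - f 0) : Finset H) : Set H)
  haveI : FiniteDimensional ℝ W := FiniteDimensional.span_finset ℝ _
  set u : H := W.starProjection (x - f 0) with hu
  have huW : u ∈ W := W.starProjection_apply_mem _
  have hWle : W ≤ LinearMap.range f.linear := by
    refine Submodule.span_le.2 ?_
    intro w hw
    simp only [Finset.coe_image, Set.mem_image] at hw
    obtain ⟨y, hy, rfl⟩ := hw
    refine ⟨g y, ?_⟩
    have h4 := f.linearMap_vsub (g y) 0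
    simp only [vsub_eq_sub, sub_zero] at h4
    rw [h4, hg2 y hy]
  obtain ⟨w, hw⟩ := hWle huW
  have hfw : f w = u + f 0 := by
    have h4 := f.linearMap_vsub w 0
    simp only [vsub_eq_sub, sub_zero] at h4
    rw [← hw, h4]; abel
  rw [← hcard]
  refine hV w (r / l) (by positivity) T' ?_ ?_ ?_
  · intro y hy
    simp only [hT', Finset.coe_image, Set.mem_image] at hy
    obtain ⟨z, hz, rfl⟩ := hy
    exact hg1 z hz
  · intro y hy
    simp only [hT', Finset.mem_image] at hy
    obtain ⟨z, hz, rfl⟩ := hy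
    have h5 := hf (g z) w
    rw [hg2 z hz, hfw] at h5
    have hzW : z - f 0 ∈ W := by
      apply Submodule.subset_span
      simp only [Finset.coe_image, Set.mem_image]
      exact ⟨z, hz, rfl⟩
    have h6 : dist z (u + f 0) ≤ dist z x := by
      rw [dist_eq_norm, dist_eq_norm]
      have h7 : z - (u + f 0) = W.starProjection (z - x) := by
        have h8 : z - x = (z - f 0) - (x - f 0) := by abel
        rw [h8, map_sub, Submodule.starProjection_eq_self_iff.2 hzW, ← hu]
        abel
      rw [h7]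
      exact W.norm_starProjection_apply_le _
    have h9 : l * dist (g z) w ≤ 2 * r := by
      rw [← h5]; exact h6.trans (h1 z hz)
    rw [mul_div_assoc', le_div_iff₀ hl]
    linarith
  · intro y hy z hz hyz
    simp only [hT', Finset.mem_image] at hy hz
    obtain ⟨y', hy', rfl⟩ := hy
    obtain ⟨z', hz', rfl⟩ := hz
    have hne : y' ≠ z' := fun h => hyz (by rw [h])
    have h5 := h2 y' hy' z' hz' hne
    have h6 := hf (g y') (g z')
    rw [hg2 y' hy', hg2 z' hz'] at h6
    rw [div_lt_iff₀ hl]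
    linarith

lemma sub_dist (B : ℕ) (P Q : H) (i j : ℕ) :
    dist (sub B P Q i) (sub B P Q j) = |(i : ℝ) / B - j / B| * dist P Q := by
  unfold sub
  rw [dist_lineMap_lineMap, Real.dist_eq]

lemma mem_piece {P Q : H} {s t : ℝ} (hst : s ≤ t) {w : H}
    (hw : w ∈ segment ℝ (AffineMap.lineMap P Q s : H) (AffineMap.lineMap P Q t)) :
    ∃ u, s ≤ u ∧ u ≤ t ∧ w = AffineMap.lineMap P Q u := by
  rw [← image_segment ℝ (AffineMap.lineMap P Q : ℝ →ᵃ[ℝ] H) s t, segment_eq_Icc hst] at hw
  obtain ⟨u, hu, rfl⟩ := hw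
  exact ⟨u, hu.1, hu.2, rfl⟩

lemma mem_seg {P Q : H} {u : ℝ} (h0 : 0 ≤ u) (h1 : u ≤ 1) :
    (AffineMap.lineMap P Q u : H) ∈ segment ℝ P Q := by
  rw [segment_eq_image_lineMap]
  exact ⟨u, ⟨h0, h1⟩, rfl⟩

lemma sub_mem {B : ℕ} (hB : 1 ≤ B) (P Q : H) {j : ℕ} (hj : j ≤ B) :
    sub B P Q j ∈ segment ℝ P Q := by
  have hB' : (0 : ℝ) < B := by exact_mod_cast hB
  refine mem_seg (by positivity) ?_
  rw [div_le_one hB']
  exact_mod_cast hj

lemma piece_sub {B : ℕ} (hB : 1 ≤ B) (P Q : H) {i : ℕ} (hi : i < B) {w : H}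
    (hw : w ∈ segment ℝ (sub B P Q i) (sub B P Q (i + 1))) : w ∈ segment ℝ P Q :=
  (convex_segment P Q).segment_subset (sub_mem hB P Q hi.le) (sub_mem hB P Q hi) hw

lemma piece_far {B : ℕ} (hB : 1 ≤ B) (P Q : H) {i j : ℕ} (hj1 : j ≠ i) (hj2 : j ≠ i + 1)
    {w : H} (hw : w ∈ segment ℝ (sub B P Q i) (sub B P Q (i + 1))) :
    dist P Q / B ≤ dist (sub B P Q j) w := by
  have hB' : (0 : ℝ) < B := by exact_mod_cast hB
  have hst : (i : ℝ) / B ≤ ((i + 1 : ℕ) : ℝ) / B := by
    gcongr; simp
  obtain ⟨u, h1, h2, rfl⟩ := mem_piece hst hw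
  unfold sub
  rw [dist_lineMap_lineMap, Real.dist_eq]
  have h3 : 1 / (B : ℝ) ≤ |(j : ℝ) / B - u| := by
    rcases lt_or_ge j i with h | h
    · have h4 : (j : ℝ) / B + 1 / B ≤ i / B := by
        rw [← add_div]
        gcongr
        exact_mod_cast h
      rw [abs_sub_comm]
      refine le_trans ?_ (le_abs_self _)
      linarith
    · have h5 : i + 2 ≤ j := by omega
      have h4 : ((i + 1 : ℕ) : ℝ) / B + 1 / B ≤ j / B := by
        rw [← add_div]
        gcongr
        exact_mod_cast h5
      refine le_trans ?_ (le_abs_self _)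
      linarith
  calc dist P Q / B = 1 / (B : ℝ) * dist P Q := by ring
    _ ≤ _ := by gcongr

section main

variable {V : Finset H} {E : Finset (H × H)} {a b : H} {φ : H → H → (H →ᵃ[ℝ] H)}

lemma CH_union {B : ℕ} (hφ : SimFam a b φ) (ha : a ∈ V) (hb : b ∈ V) {k : ℕ} {p q : H} {Y : Set H}
    (hpq : p ≠ q) (h : CH V E φ B k p q Y) : CH V E φ B k p q (Y ∪ {p, q}) := by
  obtain ⟨h1, h2, -⟩ := hφ p q hpq
  have h3 : ({p, q} : Set H) ⊆ φ p q '' (V : Set H) := by
    intro y hy
    rcases hy with hy | hy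
    · rw [hy]; exact ⟨a, ha, h1⟩
    · rw [Set.mem_singleton_iff.1 hy]; exact ⟨b, hb, h2⟩
  cases h with
  | zero _ _ _ hY => exact CH.zero _ _ _ (Set.union_subset hY subset_rfl)
  | vert k _ _ _ hY => exact CH.vert _ _ _ _ (Set.union_subset hY h3)
  | step k _ _ e i Y' _ he hi h' hY =>
    refine CH.step k _ _ e i Y' _ he hi h' (Set.union_subset hY ?_)
    exact h3.trans (Set.subset_union_left.trans Set.subset_union_left)

lemma claim1 (hφ : SimFam a b φ)
    (thin : ∀ v ∈ V, ∃ t ∈ Set.Icc (0 : ℝ) 1, dist v (AffineMap.lineMap a b t) ≤ 1 / 2000)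
    (hE : ∀ e ∈ E, e.1 ∈ V ∧ e.2 ∈ V ∧ e.1 ≠ e.2) {M : ℝ} (hM : ∀ e ∈ E, dist e.1 e.2 ≤ M)
    {B : ℕ} (hB : 1 ≤ B) (hB2 : M / B ≤ 1 / 2) :
    ∀ (k : ℕ) (p q : H) (Y : Set H), p ≠ q → CH V E φ B k p q Y →
      ∀ y ∈ Y, ∃ w ∈ segment ℝ p q, dist y w ≤ dist p q / 1000 := by
  have hB' : (0 : ℝ) < B := by exact_mod_cast hB
  have key : ∀ p q : H, p ≠ q → ∀ v ∈ V, ∃ w ∈ segment ℝ p q, dist (φ p q v) w ≤ dist p q / 2000 := by
    intro p q hpq v hv
    obtain ⟨h1, h2, h3⟩ := hφ p q hpq
    obtain ⟨t, ht, hvt⟩ := thin v hv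
    refine ⟨φ p q (AffineMap.lineMap a b t), ?_, ?_⟩
    · rw [AffineMap.apply_lineMap, h1, h2]
      exact mem_seg ht.1 ht.2
    · rw [h3]
      calc dist p q * dist v (AffineMap.lineMap a b t) ≤ dist p q * (1 / 2000) := by gcongr
        _ = _ := by ring
  intro k
  induction k with
  | zero =>
    intro p q Y hpq h y hy
    cases h with
    | zero _ _ _ hY =>
      refine ⟨y, ?_, by rw [dist_self]; positivity⟩
      rcases hY hy with h | h
      · rw [h]; exact left_mem_segment ℝ p q
      · rw [Set.mem_singleton_iff.1 h]; exact right_mem_segment ℝ p q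
  | succ k ih =>
    intro p q Y hpq h y hy
    have hl : 0 < dist p q := dist_pos.2 hpq
    cases h with
    | vert _ _ _ _ hY =>
      obtain ⟨v, hv, rfl⟩ := hY hy
      obtain ⟨w, hw, hvw⟩ := key p q hpq v hv
      exact ⟨w, hw, hvw.trans (by linarith)⟩
    | step _ _ _ e i Y' _ he hi h' hY =>
      obtain ⟨h1, h2, h3⟩ := hφ p q hpq
      obtain ⟨he1, he2, he3⟩ := hE e he
      set P := φ p q e.1 with hP
      set Q := φ p q e.2 with hQ
      have hPQ : dist P Q = dist p q * dist e.1 e.2 := h3 _ _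
      have hePos : 0 < dist e.1 e.2 := dist_pos.2 he3
      have hseg : ∀ z ∈ segment ℝ P Q, ∃ w ∈ segment ℝ p q, dist z w ≤ dist p q / 2000 :=
        fun z hz => near_conv (convex_segment p q) (key p q hpq _ he1) (key p q hpq _ he2) hz
      rcases hY hy with (h | h) | h
      · obtain ⟨v, hv, rfl⟩ := h
        obtain ⟨w, hw, hvw⟩ := key p q hpq v hv
        exact ⟨w, hw, hvw.trans (by linarith)⟩
      · obtain ⟨j, hj, rfl⟩ := h
        obtain ⟨w, hw, hvw⟩ := hseg _ (sub_mem hB P Q hj)
        exact ⟨w, hw, hvw.trans (by linarith)⟩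
      · have hz : dist (sub B P Q i) (sub B P Q (i + 1)) = dist P Q / B := by
          rw [sub_dist]
          have : (i : ℝ) / B - ((i + 1 : ℕ) : ℝ) / B = -(1 / B) := by push_cast; ring
          rw [this, abs_neg, abs_of_pos (by positivity)]; ring
        have hne : sub B P Q i ≠ sub B P Q (i + 1) := by
          rw [← dist_pos, hz, hPQ]; positivity
        obtain ⟨w, hw, hyw⟩ := ih _ _ _ hne h' y h
        obtain ⟨w', hw', hww'⟩ := hseg w (piece_sub hB P Q hi hw)
        refine ⟨w', hw', (dist_triangle y w w').trans ?_⟩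
        have h6 : dist P Q / B ≤ dist p q / 2 := by
          rw [hPQ, mul_div_assoc]
          have : dist e.1 e.2 / B ≤ 1 / 2 := le_trans (by gcongr; exact hM e he) hB2
          calc dist p q * (dist e.1 e.2 / B) ≤ dist p q * (1 / 2) := by gcongr
            _ = _ := by ring
        rw [hz] at hyw
        linarith

lemma main (hl : LineLikeStmt) (hφ : SimFam a b φ) (ha : a ∈ V) (hb : b ∈ V)
    (thin : ∀ v ∈ V, ∃ t ∈ Set.Icc (0 : ℝ) 1, dist v (AffineMap.lineMap a b t) ≤ 1 / 2000)
    (hE : ∀ e ∈ E, e.1 ∈ V ∧ e.2 ∈ V ∧ e.1 ≠ e.2) (pack : Pack (V : Set H) 5)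
    {s M : ℝ} (hsep : ∀ e ∈ E, ∀ v ∈ V, v ≠ e.1 → v ≠ e.2 →
      ∀ w ∈ segment ℝ e.1 e.2, s ≤ dist v w)
    (hM : ∀ e ∈ E, dist e.1 e.2 ≤ M)
    {B : ℕ} (hB : 1 ≤ B) (hBs : M / B ≤ s) (hB2 : M / B ≤ 1 / 2) :
    ∀ (k : ℕ) (p q : H) (Y : Set H), p ≠ q → CH V E φ B k p q Y → Pack Y 15 := by
  classical
  have hB' : (0 : ℝ) < B := by exact_mod_cast hB
  intro k
  induction k with
  | zero =>
    intro p q Y hpq h
    cases h with
    | zero _ _ _ hY =>
      intro x r hr T hT _ _
      have h1 : T ⊆ ({p, q} : Finset H) := by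
        intro y hy
        have := hY (hT hy)
        simpa using this
      have h2 := Finset.card_le_card h1
      have h3 : ({p, q} : Finset H).card ≤ 2 := Finset.card_le_two
      omega
  | succ k ih =>
    intro p q Y hpq h
    have hlpos : 0 < dist p q := dist_pos.2 hpq
    obtain ⟨hφ1, hφ2, hφ3⟩ := hφ p q hpq
    have hpackφ : Pack (φ p q '' (V : Set H)) 5 := packSim pack _ hlpos hφ3
    cases h with
    | vert _ _ _ _ hY => exact packMono hpackφ hY (by norm_num)
    | step _ _ _ e i Y' _ he hi h' hY =>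
      obtain ⟨he1, he2, he3⟩ := hE e he
      set P := φ p q e.1 with hP
      set Q := φ p q e.2 with hQ
      have hPQ : dist P Q = dist p q * dist e.1 e.2 := hφ3 _ _
      have hePos : 0 < dist e.1 e.2 := dist_pos.2 he3
      have hPQpos : 0 < dist P Q := by rw [hPQ]; positivity
      have hPQne : P ≠ Q := dist_pos.1 hPQpos
      set l' := dist P Q / B with hl'
      have hl'pos : 0 < l' := by positivity
      have hz : dist (sub B P Q i) (sub B P Q (i + 1)) = l' := by
        rw [sub_dist]
        have : (i : ℝ) / B - ((i + 1 : ℕ) : ℝ) / B = -(1 / B) := by push_cast; ring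
        rw [this, abs_neg, abs_of_pos (by positivity)]; ring
      have hne : sub B P Q i ≠ sub B P Q (i + 1) := by
        rw [← dist_pos, hz]; exact hl'pos
      have hnear := claim1 hφ thin hE hM hB hB2 k _ _ _ hne h'
      rw [hz] at hnear
      have hdiam : ∀ w ∈ segment ℝ (sub B P Q i) (sub B P Q (i + 1)),
          ∀ w' ∈ segment ℝ (sub B P Q i) (sub B P Q (i + 1)), dist w w' ≤ l' := by
        intro w hw w' hw'
        have hst : (i : ℝ) / B ≤ ((i + 1 : ℕ) : ℝ) / B := by
          gcongr; simp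
        obtain ⟨u, h1, h2, rfl⟩ := mem_piece hst hw
        obtain ⟨u', h1', h2', rfl⟩ := mem_piece hst hw'
        rw [dist_lineMap_lineMap, Real.dist_eq]
        have h3 : |u - u'| ≤ 1 / B := by
          have : ((i + 1 : ℕ) : ℝ) / B = i / B + 1 / B := by push_cast; ring
          rw [abs_le]; constructor <;> linarith
        calc |u - u'| * dist P Q ≤ 1 / B * dist P Q := by gcongr
          _ = l' := by rw [hl']; ring
      intro x r hr T hT h1 h2
      set T1 := T.filter (fun y => y ∈ φ p q '' (V : Set H)) with hT1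
      set T2 := T.filter (fun y => ∃ j ≤ B, y = sub B P Q j) with hT2
      set T3 := T.filter (fun y => y ∈ Y') with hT3
      have hTu : T ⊆ T1 ∪ T2 ∪ T3 := by
        intro y hy
        rcases hY (hT hy) with (h | h) | h
        · exact Finset.mem_union_left _ (Finset.mem_union_left _ (Finset.mem_filter.2 ⟨hy, h⟩))
        · exact Finset.mem_union_left _ (Finset.mem_union_right _ (Finset.mem_filter.2 ⟨hy, h⟩))
        · exact Finset.mem_union_right _ (Finset.mem_filter.2 ⟨hy, h⟩)
      have hcard : T.card ≤ T1.card + T2.card + T3.card :=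
        (Finset.card_le_card hTu).trans ((Finset.card_union_le _ _).trans
          (Nat.add_le_add_right (Finset.card_union_le _ _) _))
      have hc1 : T1.card ≤ 5 := by
        refine hpackφ x r hr T1 ?_ ?_ ?_
        · intro y hy
          exact (Finset.mem_filter.1 hy).2
        · exact fun y hy => h1 y (Finset.mem_filter.1 hy).1
        · exact fun y hy z hz => h2 y (Finset.mem_filter.1 hy).1 z (Finset.mem_filter.1 hz).1
      have hc2 : T2.card ≤ 5 := by
        refine line5 hl P Q hPQne x r T2 hr ?_ ?_ ?_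
        · exact fun y hy => h1 y (Finset.mem_filter.1 hy).1
        · exact fun y hy z hz => h2 y (Finset.mem_filter.1 hy).1 z (Finset.mem_filter.1 hz).1
        · intro y hy
          obtain ⟨j, hj, rfl⟩ := (Finset.mem_filter.1 hy).2
          exact ⟨_, sub_mem hB P Q hj, by rw [dist_self]; positivity⟩
      rcases le_or_gt (l' / 10) r with hcase | hcase
      · -- r ≥ l'/10
        have hc3 : T3.card ≤ 5 := by
          refine line5 hl _ _ hne x r T3 hr ?_ ?_ ?_
          · exact fun y hy => h1 y (Finset.mem_filter.1 hy).1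
          · exact fun y hy z hz => h2 y (Finset.mem_filter.1 hy).1 z (Finset.mem_filter.1 hz).1
          · intro y hy
            obtain ⟨w, hw, hyw⟩ := hnear y (Finset.mem_filter.1 hy).2
            exact ⟨w, hw, hyw.trans (by linarith)⟩
        omega
      · rcases T3.eq_empty_or_nonempty with hT3e | ⟨y0, hy0⟩
        · rw [hT3e, Finset.card_empty] at hcard
          omega
        · obtain ⟨hy0T, hy0Y⟩ := Finset.mem_filter.1 hy0
          obtain ⟨w0, hw0, hyw0⟩ := hnear y0 hy0Y
          have hclose : ∀ y ∈ T, dist y w0 < l' := by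
            intro y hy
            have h3 := h1 y hy
            have h4 := h1 y0 hy0T
            have h5 : dist y w0 ≤ dist y x + dist x y0 + dist y0 w0 := dist_triangle4 _ _ _ _
            rw [dist_comm x y0] at h5
            linarith
          have hsub : (T : Set H) ⊆ Y' ∪ {sub B P Q i, sub B P Q (i + 1)} := by
            have hZ : ∀ j, j ≤ B → sub B P Q j ∈ T →
                sub B P Q j ∈ ({sub B P Q i, sub B P Q (i + 1)} : Set H) := by
              intro j hj hjT
              by_contra hcon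
              have hj1 : j ≠ i := by
                rintro rfl; exact hcon (Or.inl rfl)
              have hj2 : j ≠ i + 1 := by
                rintro rfl; exact hcon (Or.inr rfl)
              have h6 := piece_far hB P Q hj1 hj2 hw0
              have h7 := hclose _ hjT
              linarith
            intro y hy
            rcases hY (hT hy) with (h | h) | h
            · right
              obtain ⟨v, hv, rfl⟩ := h
              by_cases hv1 : v = e.1
              · have h8 : φ p q v = sub B P Q 0 := by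
                  rw [hv1, ← hP]; simp [sub]
                rw [h8] at hy ⊢
                exact hZ 0 (Nat.zero_le _) hy
              by_cases hv2 : v = e.2
              · have h8 : φ p q v = sub B P Q B := by
                  rw [hv2, ← hQ]
                  unfold sub
                  rw [div_self hB'.ne', AffineMap.lineMap_apply_one]
                rw [h8] at hy ⊢
                exact hZ B le_rfl hy
              · exfalso
                have h9 := piece_sub hB P Q hi hw0
                rw [hP, hQ, ← image_segment ℝ (φ p q)] at h9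
                obtain ⟨w1, hw1, hw1'⟩ := h9
                have h10 := hsep e he v hv hv1 hv2 w1 hw1
                have h11 := hclose _ hy
                rw [← hw1', hφ3] at h11
                have h12 : l' ≤ dist p q * s := by
                  rw [hl', hPQ, mul_div_assoc]
                  gcongr
                  refine le_trans ?_ hBs
                  gcongr
                  exact hM e he
                have h13 : dist p q * s ≤ dist p q * dist v w1 := by gcongr
                linarith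
            · right
              obtain ⟨j, hj, rfl⟩ := h
              exact hZ j hj hy
            · exact Or.inl h
          exact ih _ _ _ hne (CH_union hφ ha hb hne h') x r hr T hsub h1 h2

end main

end PackCH

open PackCH in
theorem packCH (hl : LineLikeStmt) : PackCHStmt := by
  classical
  intro n D hD H _ _ V E a b hobs φ hφ
  have hs : ∃ s : ℝ, 0 < s ∧ ∀ e ∈ E, ∀ v ∈ V, v ≠ e.1 → v ≠ e.2 →
      ∀ w ∈ segment ℝ e.1 e.2, s ≤ dist v w := by
    have h1 : ∀ e ∈ E, ∀ v ∈ V, v ≠ e.1 → v ≠ e.2 → ∃ s : ℝ, 0 < s ∧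
        ∀ w ∈ segment ℝ e.1 e.2, s ≤ dist v w := by
      intro e he v hv hv1 hv2
      have hnot : v ∉ segment ℝ e.1 e.2 := fun h => by
        rcases hobs.sep e he v hv h with h | h
        · exact hv1 h
        · exact hv2 h
      have hcpt : IsCompact (segment ℝ e.1 e.2) := by
        rw [segment_eq_image_lineMap]
        exact isCompact_Icc.image (AffineMap.lineMap_continuous)
      have hne : (segment ℝ e.1 e.2).Nonempty := ⟨_, left_mem_segment ℝ _ _⟩
      refine ⟨Metric.infDist v (segment ℝ e.1 e.2), ?_, ?_⟩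
      · exact (hcpt.isClosed.notMem_iff_infDist_pos hne).1 hnot
      · exact fun w hw => Metric.infDist_le_dist_of_mem hw
    have h2 : ∀ᶠ s : ℝ in nhdsWithin 0 (Set.Ioi 0), ∀ e ∈ E, ∀ v ∈ V, v ≠ e.1 → v ≠ e.2 →
      ∀ w ∈ segment ℝ e.1 e.2, s ≤ dist v w := by
      rw [Filter.eventually_all_finset]
      intro e he
      rw [Filter.eventually_all_finset]
      intro v hv
      by_cases hv1 : v = e.1
      · exact Filter.Eventually.of_forall fun _ h => absurd hv1 h
      by_cases hv2 : v = e.2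
      · exact Filter.Eventually.of_forall fun _ _ h => absurd hv2 h
      obtain ⟨s, hs, hs'⟩ := h1 e he v hv hv1 hv2
      filter_upwards [Ioo_mem_nhdsGT hs] with t ht _ _ w hw
      exact ht.2.le.trans (hs' w hw)
    obtain ⟨s, hs1, hs2⟩ := (h2.and self_mem_nhdsWithin).exists
    exact ⟨s, hs2, hs1⟩
  obtain ⟨s, hs0, hs⟩ := hs
  set M : ℝ := ∑ e ∈ E, dist e.1 e.2 with hMdef
  have hM : ∀ e ∈ E, dist e.1 e.2 ≤ M := fun e he =>
    Finset.single_le_sum (f := fun e : H × H => dist e.1 e.2) (fun _ _ => dist_nonneg) he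
  have hM0 : 0 ≤ M := Finset.sum_nonneg fun _ _ => dist_nonneg
  refine ⟨⌈M / s⌉₊ + ⌈2 * M⌉₊ + 1, ?_⟩
  intro B hB
  have hB1 : 1 ≤ B := by omega
  have hB' : (0 : ℝ) < B := by exact_mod_cast hB1
  refine main hl hφ hobs.ha hobs.hb hobs.thin hobs.hE hobs.pack hs hM hB1 ?_ ?_
  · have h1 : M / s ≤ B := (Nat.le_ceil _).trans (by exact_mod_cast (by omega : ⌈M / s⌉₊ ≤ B))
    rw [div_le_iff₀ hs0] at h1
    rw [div_le_iff₀ hB']; linarith
  · have h1 : 2 * M ≤ B := (Nat.le_ceil _).trans (by exact_mod_cast (by omega : ⌈2 * M⌉₊ ≤ B))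
    rw [div_le_iff₀ hB']; linarith

end Crest.Agent.R254
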