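import Crest.Agent.R254.Core
import Crest.Agent.R254.PackCH

set_option autoImplicit false

namespace Crest.Agent.R254

namespace PackG

variable {H : Type}

section cov

variable [AddCommGroup H] [Module ℝ H] (Q : Set H → Prop) (G : Set (ℝ × H))

/-- strict version of the slicing property -/
def Pst (t1 t3 : ℝ) : Prop :=
  ∃ μ : ℝ, 0 < μ ∧
    (∃ (C0 : Set H) (m0 : (ℝ × H) × (ℝ × H)), Q C0 ∧
      ∀ z ∈ G, t1 < z.1 → z.1 ≤ t3 → z.1 ≤ t1 + μ → z.2 ∈ C0 ∨ z ∈ segment ℝ m0.1 m0.2) ∧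
    ∀ c : ℝ, ∃ (C1 : Set H) (m1 : (ℝ × H) × (ℝ × H)) (C2 : Set H) (m2 : (ℝ × H) × (ℝ × H)),
      Q C1 ∧ Q C2 ∧ ∀ z ∈ G, t1 < z.1 → z.1 ≤ t3 → c ≤ z.1 → z.1 ≤ c + μ →
        (z.2 ∈ C1 ∨ z ∈ segment ℝ m1.1 m1.2) ∨ (z.2 ∈ C2 ∨ z ∈ segment ℝ m2.1 m2.2)

def Pns (t1 t3 : ℝ) : Prop :=
  ∃ μ : ℝ, 0 < μ ∧
    (∃ (C0 : Set H) (m0 : (ℝ × H) × (ℝ × H)), Q C0 ∧
      ∀ z ∈ G, t1 ≤ z.1 → z.1 ≤ t3 → z.1 ≤ t1 + μ → z.2 ∈ C0 ∨ z ∈ segment ℝ m0.1 m0.2) ∧
    ∀ c : ℝ, ∃ (C1 : Set H) (m1 : (ℝ × H) × (ℝ × H)) (C2 : Set H) (m2 : (ℝ × H) × (ℝ × H)),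
      Q C1 ∧ Q C2 ∧ ∀ z ∈ G, t1 ≤ z.1 → z.1 ≤ t3 → c ≤ z.1 → z.1 ≤ c + μ →
        (z.2 ∈ C1 ∨ z ∈ segment ℝ m1.1 m1.2) ∨ (z.2 ∈ C2 ∨ z ∈ segment ℝ m2.1 m2.2)

variable {Q G}

lemma Pns.st {t1 t3 : ℝ} (h : Pns Q G t1 t3) : Pst Q G t1 t3 := by
  obtain ⟨μ, hμ, ⟨C0, m0, hC0, h0⟩, h1⟩ := h
  refine ⟨μ, hμ, ⟨C0, m0, hC0, fun z hz h => h0 z hz h.le⟩, fun c => ?_⟩
  obtain ⟨C1, m1, C2, m2, hC1, hC2, h2⟩ := h1 c
  exact ⟨C1, m1, C2, m2, hC1, hC2, fun z hz h => h2 z hz h.le⟩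

lemma step {t1 t2 t3 : ℝ} (C : Set H) (m : (ℝ × H) × (ℝ × H)) (h12 : t1 < t2) (hC : Q C)
    (hcov : ∀ z ∈ G, t1 ≤ z.1 → z.1 ≤ t2 → z.2 ∈ C ∨ z ∈ segment ℝ m.1 m.2)
    (h : Pst Q G t2 t3) : Pns Q G t1 t3 := by
  obtain ⟨μ, hμ, ⟨C0, m0, hC0, h0⟩, h1⟩ := h
  refine ⟨min μ (t2 - t1), lt_min hμ (by linarith), ⟨C, m, hC, ?_⟩, fun c => ?_⟩
  · intro z hz hz1 _ hz3
    refine hcov z hz hz1 ?_
    have := min_le_right μ (t2 - t1)
    linarith
  · by_cases hc : c ≤ t2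
    · refine ⟨C, m, C0, m0, hC, hC0, fun z hz hz1 hz3 hz4 hz5 => ?_⟩
      rcases le_or_gt z.1 t2 with h | h
      · exact Or.inl (hcov z hz hz1 h)
      · right
        refine h0 z hz h hz3 ?_
        have := min_le_left μ (t2 - t1)
        linarith
    · obtain ⟨C1, m1, C2, m2, hC1, hC2, h2⟩ := h1 c
      refine ⟨C1, m1, C2, m2, hC1, hC2, fun z hz hz1 hz3 hz4 hz5 => ?_⟩
      refine h2 z hz (by linarith) hz3 hz4 ?_
      have := min_le_left μ (t2 - t1)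
      linarith

lemma pst (hQ : Q ∅) {t1 t3 : ℝ} (h : Cov Q G t1 t3) : Pst Q G t1 t3 := by
  induction h with
  | nil t =>
    refine ⟨1, one_pos, ⟨∅, ((0, 0), (0, 0)), hQ, fun z _ h1 h2 => absurd h2 (not_le.2 h1)⟩,
      fun c => ⟨∅, ((0, 0), (0, 0)), ∅, ((0, 0), (0, 0)), hQ, hQ,
        fun z _ h1 h2 => absurd h2 (not_le.2 h1)⟩⟩
  | cons t1 t2 t3 C m h12 hC hcov _ ih => exact (step C m h12 hC hcov ih).st

lemma pns (hQ : Q ∅) {t1 t3 : ℝ} (ht : t1 < t3) (h : Cov Q G t1 t3) : Pns Q G t1 t3 := by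
  cases h with
  | nil t => exact absurd ht (lt_irrefl _)
  | cons t1 t2 t3 C m h12 hC hcov hr => exact step C m h12 hC hcov (pst hQ hr)

end cov

variable [NormedAddCommGroup H] [InnerProductSpace ℝ H]

lemma ss_dist_sq (α : ℝ) (p0 : H) (z w : ℝ × H) :
    dist (SS α p0 z) (SS α p0 w) ^ 2 = (z.1 - w.1) ^ 2 + α ^ 2 * dist z.2 w.2 ^ 2 := by
  rw [dist_eq_norm, WithLp.prod_norm_sq_eq_of_L2]
  have h1 : (SS α p0 z - SS α p0 w).fst = z.1 - w.1 := rfl
  have h2 : (SS α p0 z - SS α p0 w).snd = α • (z.2 - w.2) := by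
    have : (SS α p0 z - SS α p0 w).snd = α • (z.2 - p0) - α • (w.2 - p0) := rfl
    rw [this, ← smul_sub]; congr 1; abel
  rw [h1, h2, norm_smul, mul_pow, Real.norm_eq_abs, Real.norm_eq_abs, sq_abs, sq_abs, dist_eq_norm]

lemma ss_seg (α : ℝ) (p0 : H) {z u v : ℝ × H} (hz : z ∈ segment ℝ u v) :
    SS α p0 z ∈ segment ℝ (SS α p0 u) (SS α p0 v) := by
  obtain ⟨a, b, ha, hb, hab, rfl⟩ := hz
  refine ⟨a, b, ha, hb, hab, ?_⟩
  have e : ∀ w : ℝ × H, SS α p0 w = WithLp.toLp 2 (w.1, α • (w.2 - p0)) := fun _ => rfl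
  rw [e, e, e, ← WithLp.toLp_smul, ← WithLp.toLp_smul, ← WithLp.toLp_add]
  congr 1
  ext
  · simp
  · simp only [Prod.snd_add, Prod.smul_snd]
    have : b = 1 - a := by linarith
    subst this
    module

/-- a moving part has at most 5 points -/
lemma moving (hl : LineLikeStmt) (α : ℝ) (p0 : H) (m : (ℝ × H) × (ℝ × H))
    (x : WithLp 2 (ℝ × H)) (r : ℝ) (T : Finset (WithLp 2 (ℝ × H))) (hr : 0 < r)
    (h1 : ∀ y ∈ T, dist y x ≤ 2 * r) (h2 : ∀ y ∈ T, ∀ z ∈ T, y ≠ z → r < dist y z)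
    (h3 : ∀ y ∈ T, ∃ z ∈ segment ℝ m.1 m.2, y = SS α p0 z) : T.card ≤ 5 := by
  by_cases hne : SS α p0 m.1 = SS α p0 m.2
  · have : T.card ≤ 1 := by
      rw [Finset.card_le_one]
      intro y hy y' hy'
      obtain ⟨z, hz, rfl⟩ := h3 y hy
      obtain ⟨z', hz', rfl⟩ := h3 y' hy'
      have e1 := ss_seg α p0 hz
      have e2 := ss_seg α p0 hz'
      rw [hne, segment_same] at e1 e2
      rw [Set.mem_singleton_iff.1 e1, Set.mem_singleton_iff.1 e2]
    omega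
  · refine PackCH.line5 hl _ _ hne x r T hr h1 h2 ?_
    intro y hy
    obtain ⟨z, hz, rfl⟩ := h3 y hy
    exact ⟨_, ss_seg α p0 hz, by rw [dist_self]; positivity⟩

/-- a static part has at most `17 * 225` points -/
lemma static (hi : PackIterStmt.{0}) {α : ℝ} (hα : 0 < α) (p0 : H) (C : Set H) (hC : Pack C 15)
    (x : WithLp 2 (ℝ × H)) (r : ℝ) (T : Finset (WithLp 2 (ℝ × H))) (hr : 0 < r)
    (h1 : ∀ y ∈ T, dist y x ≤ 2 * r) (h2 : ∀ y ∈ T, ∀ z ∈ T, y ≠ z → r < dist y z)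
    (g : WithLp 2 (ℝ × H) → ℝ × H) (hg : ∀ y ∈ T, SS α p0 (g y) = y)
    (h3 : ∀ y ∈ T, (g y).2 ∈ C) : T.card ≤ 225 * 17 := by
  classical
  have htime : ∀ y ∈ T, |(g y).1 - x.fst| ≤ 2 * r := by
    intro y hy
    have h4 := WithLp.norm_fst_le _ (y - x)
    have h5 : (y - x).fst = (g y).1 - x.fst := by
      conv_lhs => rw [← hg y hy]
      rfl
    rw [h5, Real.norm_eq_abs] at h4
    exact h4.trans (by rw [← dist_eq_norm]; exact h1 y hy)
  set c : ℝ := x.fst - 2 * r with hc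
  set F : WithLp 2 (ℝ × H) → ℕ := fun y => ⌊((g y).1 - c) / (r / 4)⌋₊ with hF
  have hFmem : ∀ y ∈ T, F y ∈ Finset.range 17 := by
    intro y hy
    have h4 := abs_le.1 (htime y hy)
    rw [Finset.mem_range, hF]
    have h5 : ((g y).1 - c) / (r / 4) < 17 := by
      rw [div_lt_iff₀ (by positivity)]
      rw [hc]; linarith [h4.2]
    exact (Nat.floor_lt' (by norm_num)).2 (by exact_mod_cast h5)
  have key := Finset.card_le_mul_card_image_of_maps_to hFmem 225 ?_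
  · rwa [Finset.card_range] at key
  intro b _
  set Tb := T.filter (fun a => F a = b) with hTb
  have hTbT : ∀ y ∈ Tb, y ∈ T := fun y hy => (Finset.mem_filter.1 hy).1
  have htb : ∀ y ∈ Tb, ∀ z ∈ Tb, |(g y).1 - (g z).1| ≤ r / 4 := by
    have haux : ∀ y ∈ Tb, (b : ℝ) * (r / 4) ≤ (g y).1 - c ∧ (g y).1 - c ≤ (b + 1) * (r / 4) := by
      intro y hy
      have h4 := abs_le.1 (htime y (hTbT y hy))
      have h5 : F y = b := (Finset.mem_filter.1 hy).2
      have h6 : 0 ≤ ((g y).1 - c) / (r / 4) := by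
        apply div_nonneg _ (by positivity)
        rw [hc]; linarith [h4.1]
      have h7 := Nat.floor_le h6
      have h8 := Nat.lt_floor_add_one (((g y).1 - c) / (r / 4))
      have h5' : ⌊((g y).1 - c) / (r / 4)⌋₊ = b := h5
      rw [h5'] at h7 h8
      rw [le_div_iff₀ (by positivity)] at h7
      rw [div_lt_iff₀ (by positivity)] at h8
      exact ⟨h7, h8.le⟩
    intro y hy z hz
    obtain ⟨a1, a2⟩ := haux y hy
    obtain ⟨b1, b2⟩ := haux z hz
    rw [abs_le]; constructor <;> nlinarith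
  have hdist : ∀ y ∈ Tb, ∀ z ∈ Tb, y ≠ z → r / (2 * α) < dist (g y).2 (g z).2 := by
    intro y hy z hz hyz
    have h4 := h2 y (hTbT y hy) z (hTbT z hz) hyz
    have h5 := ss_dist_sq α p0 (g y) (g z)
    rw [hg y (hTbT y hy), hg z (hTbT z hz)] at h5
    have h6 := htb y hy z hz
    have h7 : ((g y).1 - (g z).1) ^ 2 ≤ (r / 4) ^ 2 := by
      rw [← sq_abs]; gcongr
    have h8 : r ^ 2 < dist y z ^ 2 := by gcongr
    rw [div_lt_iff₀ (by positivity)]
    have h9 : r ^ 2 < (dist (g y).2 (g z).2 * (2 * α)) ^ 2 := by nlinarith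
    exact lt_of_pow_lt_pow_left₀ 2 (by positivity) h9
  have hinj : Set.InjOn (fun y => (g y).2) (Tb : Set (WithLp 2 (ℝ × H))) := by
    intro y hy z hz hyz
    by_contra hne
    have h4 := hdist y hy z hz hne
    have h5 : (g y).2 = (g z).2 := hyz
    rw [h5, dist_self] at h4
    have : 0 < r / (2 * α) := by positivity
    linarith
  rw [← Finset.card_image_of_injOn hinj]
  have := hi H C 15 2 (by norm_num) (by norm_num) hC (p0 + (1 / α) • x.snd) (r / (2 * α))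
    (by positivity) (Tb.image (fun y => (g y).2)) ?_ ?_ ?_
  · norm_num at this; exact this
  · intro y hy
    simp only [Finset.coe_image, Set.mem_image] at hy
    obtain ⟨z, hz, rfl⟩ := hy
    exact h3 z (hTbT z hz)
  · intro y hy
    obtain ⟨z, hz, rfl⟩ := Finset.mem_image.1 hy
    have h4 := WithLp.norm_snd_le _ (z - x)
    have h5 : (z - x).snd = α • ((g z).2 - (p0 + (1 / α) • x.snd)) := by
      have h6 : (z - x).snd = α • ((g z).2 - p0) - x.snd := by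
        conv_lhs => rw [← hg z (hTbT z hz)]
        rfl
      rw [h6, smul_sub, smul_sub, smul_add, smul_smul, mul_one_div_cancel hα.ne', one_smul]
      abel
    rw [h5, norm_smul, Real.norm_of_nonneg hα.le, ← dist_eq_norm, ← dist_eq_norm] at h4
    have h6 := h4.trans (h1 z (hTbT z hz))
    have : (2 : ℝ) ^ 2 * (r / (2 * α)) = 2 * r / α := by field_simp
    rw [this, le_div_iff₀ hα]
    linarith
  · intro y hy z hz hyz
    obtain ⟨y', hy', rfl⟩ := Finset.mem_image.1 hy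
    obtain ⟨z', hz', rfl⟩ := Finset.mem_image.1 hz
    exact hdist y' hy' z' hz' (fun h => hyz (by rw [h]))

end PackG

open PackG in
theorem packG (hl : LineLikeStmt) (hi : PackIterStmt.{0}) : PackGStmt := by
  classical
  intro H _ _ p0 G Y hG hcov
  have hQ : (fun X : Set H => Pack X 15) ∅ := by
    intro x r hr T hT _ _
    have : T = ∅ := by
      rw [Finset.eq_empty_iff_forall_notMem]
      intro y hy
      exact hT hy
    rw [this]; simp
  obtain ⟨μ, hμ, -, hμ2⟩ := pns hQ zero_lt_one hcov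
  have hY : 0 < |Y| + 1 := by positivity
  refine ⟨μ / (64 * (|Y| + 1)), by positivity, ?_⟩
  intro α hα hα0 x r hr T hT h1 h2
  rw [le_div_iff₀ (by positivity)] at hα0
  rcases le_or_gt (8 * α * (|Y| + 1)) r with hcase | hcase
  · have hd : ‖(WithLp.toLp 2 ((1 : ℝ), (0 : H)) : WithLp 2 (ℝ × H))‖ = 1 := by
      rw [WithLp.prod_norm_eq_of_L2]; simp
    refine (hl (WithLp 2 (ℝ × H)) 0 (WithLp.toLp 2 ((1 : ℝ), (0 : H))) x r T hd hr h1 h2
      ?_).trans (by norm_num)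
    intro y hy
    obtain ⟨z, hz, rfl⟩ := hT hy
    refine ⟨z.1, ?_⟩
    have h3 : (0 : WithLp 2 (ℝ × H)) + z.1 • (WithLp.toLp 2 ((1 : ℝ), (0 : H)))
        = SS α p0 (z.1, p0) := by
      rw [zero_add, ← WithLp.toLp_smul]
      unfold SS
      simp
    rw [h3]
    have h4 := ss_dist_sq α p0 z (z.1, p0)
    have h5 : dist (SS α p0 z) (SS α p0 (z.1, p0)) ^ 2 ≤ (α * (|Y| + 1)) ^ 2 := by
      rw [h4]
      have h6 : dist z.2 p0 ≤ |Y| + 1 := (hG z hz).2.2.trans (by linarith [le_abs_self Y])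
      have h7 : α ^ 2 * dist z.2 p0 ^ 2 ≤ α ^ 2 * (|Y| + 1) ^ 2 := by gcongr
      simp only [sub_self]
      nlinarith
    have h6 := le_of_sq_le_sq h5 (by positivity)
    linarith
  · have hch : ∀ y ∈ T, ∃ z ∈ G, SS α p0 z = y := fun y hy => hT hy
    choose! g hg1 hg2 using hch
    have htime : ∀ y ∈ T, |(g y).1 - x.fst| ≤ 2 * r := by
      intro y hy
      have h4 := WithLp.norm_fst_le _ (y - x)
      have h5 : (y - x).fst = (g y).1 - x.fst := by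
        conv_lhs => rw [← hg2 y hy]
        rfl
      rw [h5, Real.norm_eq_abs] at h4
      exact h4.trans (by rw [← dist_eq_norm]; exact h1 y hy)
    obtain ⟨C1, m1, C2, m2, hC1, hC2, h3⟩ := hμ2 (x.fst - 2 * r)
    set S1 := T.filter (fun y => (g y).2 ∈ C1) with hS1
    set S2 := T.filter (fun y => (g y).2 ∈ C2) with hS2
    set M1 := T.filter (fun y => g y ∈ segment ℝ m1.1 m1.2) with hM1
    set M2 := T.filter (fun y => g y ∈ segment ℝ m2.1 m2.2) with hM2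
    have hTu : T ⊆ (S1 ∪ M1) ∪ (S2 ∪ M2) := by
      intro y hy
      have h4 := abs_le.1 (htime y hy)
      have h5 := h3 (g y) (hg1 y hy) (hG _ (hg1 y hy)).1 (hG _ (hg1 y hy)).2.1
        (by linarith [h4.1]) (by nlinarith [h4.2])
      simp only [Finset.mem_union, hS1, hS2, hM1, hM2, Finset.mem_filter]
      tauto
    have hcard : T.card ≤ (S1.card + M1.card) + (S2.card + M2.card) :=
      (Finset.card_le_card hTu).trans ((Finset.card_union_le _ _).trans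
        (Nat.add_le_add (Finset.card_union_le _ _) (Finset.card_union_le _ _)))
    have hst : ∀ C : Set H, Pack C 15 → (T.filter (fun y => (g y).2 ∈ C)).card ≤ 225 * 17 := by
      intro C hC
      refine static hi hα p0 C hC x r _ hr ?_ ?_ g ?_ ?_
      · exact fun y hy => h1 y (Finset.mem_filter.1 hy).1
      · exact fun y hy z hz => h2 y (Finset.mem_filter.1 hy).1 z (Finset.mem_filter.1 hz).1
      · exact fun y hy => hg2 y (Finset.mem_filter.1 hy).1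
      · exact fun y hy => (Finset.mem_filter.1 hy).2
    have hmv : ∀ m : (ℝ × H) × (ℝ × H),
        (T.filter (fun y => g y ∈ segment ℝ m.1 m.2)).card ≤ 5 := by
      intro m
      refine moving hl α p0 m x r _ hr ?_ ?_ ?_
      · exact fun y hy => h1 y (Finset.mem_filter.1 hy).1
      · exact fun y hy z hz => h2 y (Finset.mem_filter.1 hy).1 z (Finset.mem_filter.1 hz).1
      · exact fun y hy => ⟨g y, (Finset.mem_filter.1 hy).2, (hg2 y (Finset.mem_filter.1 hy).1).symm⟩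
    have a1 : S1.card ≤ 225 * 17 := hst C1 hC1
    have a2 : S2.card ≤ 225 * 17 := hst C2 hC2
    have a3 : M1.card ≤ 5 := hmv m1
    have a4 : M2.card ≤ 5 := hmv m2
    omega

end Crest.Agent.R254
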