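import Crest.Agent.R254.Defs

/-! Row 254: iterated packing, packing of images, packing implies doubling. -/

set_option autoImplicit false

namespace Crest.Agent.R254

universe u v

namespace PI

/-- maximal separated subsets are nets -/
theorem exists_maxsep {H : Type u} [PseudoMetricSpace H] (P : Set H) (R : ℝ) (hR : 0 ≤ R) (m : ℕ)
    (hb : ∀ T : Finset H, (T : Set H) ⊆ P → (∀ y ∈ T, ∀ z ∈ T, y ≠ z → R < dist y z) →
      T.card ≤ m) :
    ∃ T : Finset H, (T : Set H) ⊆ P ∧ (∀ y ∈ T, ∀ z ∈ T, y ≠ z → R < dist y z) ∧ T.card ≤ m ∧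
      ∀ y ∈ P, ∃ t ∈ T, dist y t ≤ R := by
  classical
  let Q : ℕ → Prop := fun n => ∃ T : Finset H, (T : Set H) ⊆ P ∧
    (∀ y ∈ T, ∀ z ∈ T, y ≠ z → R < dist y z) ∧ T.card = n
  have h0 : Q 0 := ⟨∅, by simp, by simp, rfl⟩
  obtain ⟨T, hT1, hT2, hT3⟩ : Q (Nat.findGreatest Q m) := Nat.findGreatest_spec (Nat.zero_le m) h0
  refine ⟨T, hT1, hT2, hb T hT1 hT2, ?_⟩
  intro y hy
  by_contra hcon
  push Not at hcon
  have hyT : y ∉ T := by
    intro h
    have := hcon y h
    rw [dist_self] at this
    linarith
  have hQ : Q (T.card + 1) := by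
    refine ⟨insert y T, ?_, ?_, Finset.card_insert_of_notMem hyT⟩
    · intro z hz
      rw [Finset.coe_insert] at hz
      rcases hz with rfl | hz
      · exact hy
      · exact hT1 hz
    · intro a ha b hb hab
      rcases Finset.mem_insert.1 ha with rfl | ha'
      · rcases Finset.mem_insert.1 hb with rfl | hb'
        · exact absurd rfl hab
        · exact hcon b hb'
      · rcases Finset.mem_insert.1 hb with rfl | hb'
        · rw [dist_comm]; exact hcon a ha'
        · exact hT2 a ha' b hb' hab
  have hle : T.card + 1 ≤ m := by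
    obtain ⟨T', h1, h2, h3⟩ := hQ
    rw [← h3]
    exact hb T' h1 h2
  have := Nat.le_findGreatest (P := Q) hle hQ
  omega

end PI

theorem packIter : PackIterStmt.{u} := by
  intro H _ S m j hm hj hS
  classical
  induction j with
  | zero => omega
  | succ j ih =>
    intro x r hr T hTS hTx hTsep
    rcases Nat.eq_zero_or_pos j with rfl | hj'
    · have h := hS x r hr T hTS (fun y hy => by simpa using hTx y hy) hTsep
      simpa using h
    · have hR : (0 : ℝ) < 2 ^ j * r := by positivity
      obtain ⟨T', h1, h2, h3, h4⟩ := PI.exists_maxsep (T : Set H) (2 ^ j * r) hR.le m (by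
        intro T'' g1 g2
        refine hS x (2 ^ j * r) hR T'' (g1.trans hTS) ?_ g2
        intro y hy
        have := hTx y (g1 hy)
        calc dist y x ≤ 2 ^ (j + 1) * r := this
          _ = 2 * (2 ^ j * r) := by ring)
      have hcov : T ⊆ T'.biUnion (fun t => T.filter (fun y => dist y t ≤ 2 ^ j * r)) := by
        intro y hy
        obtain ⟨t, ht, hd⟩ := h4 y hy
        exact Finset.mem_biUnion.2 ⟨t, ht, Finset.mem_filter.2 ⟨hy, hd⟩⟩
      calc T.card ≤ (T'.biUnion (fun t => T.filter (fun y => dist y t ≤ 2 ^ j * r))).card :=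
            Finset.card_le_card hcov
        _ ≤ T'.card * m ^ j := by
            refine Finset.card_biUnion_le_card_mul _ _ _ ?_
            intro t _
            refine ih hj' t r hr _ ?_ ?_ ?_
            · intro y hy
              exact hTS (Finset.mem_filter.1 (Finset.mem_coe.1 hy)).1
            · intro y hy
              exact (Finset.mem_filter.1 hy).2
            · intro y hy z hz
              exact hTsep y (Finset.mem_filter.1 hy).1 z (Finset.mem_filter.1 hz).1
        _ ≤ m * m ^ j := Nat.mul_le_mul_right _ h3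
        _ = m ^ (j + 1) := by ring

theorem packDoubling : PackDoublingStmt.{u} := by
  intro B _ K m hK x hx r hr
  obtain ⟨T, h1, h2, h3, h4⟩ := PI.exists_maxsep (K ∩ Metric.closedBall x (2 * r)) r hr.le m (by
    intro T g1 g2
    exact hK x r hr T (fun y hy => (g1 hy).1) (fun y hy => Metric.mem_closedBall.1 (g1 hy).2) g2)
  refine ⟨T, fun y hy => (h1 hy).1, h3, ?_⟩
  intro y hy
  obtain ⟨t, ht, hd⟩ := h4 y hy
  exact Set.mem_iUnion₂.2 ⟨t, ht, Metric.mem_closedBall.2 hd⟩

theorem packMap (h : PackIterStmt.{0}) : PackMapStmt.{u} := by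
  intro B _ _ d m S T hm hT hS x r hr T0 hT0 hx hsep
  classical
  have hlin : ∀ a b : EE d, T a - T b = T (a - b) := fun a b => (map_sub T a b).symm
  have hlow : ∀ a b : EE d, dist a b ≤ dist (T a) (T b) := by
    intro a b
    rw [dist_eq_norm, dist_eq_norm, hlin]
    exact (hT _).1
  have hup : ∀ a b : EE d, dist (T a) (T b) ≤ 2 * dist a b := by
    intro a b
    rw [dist_eq_norm, dist_eq_norm, hlin]
    exact (hT _).2
  have hinj : Function.Injective T := by
    intro a b hab
    have h1 := hlow a b
    rw [hab, dist_self] at h1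
    exact dist_le_zero.1 h1
  -- preimages
  have hex : ∀ y ∈ T0, ∃ p ∈ S, T p = y := fun y hy => hT0 hy
  let f : B → EE d := fun y => if hy : ∃ p ∈ S, T p = y then hy.choose else 0
  have hfS : ∀ y ∈ T0, f y ∈ S := by
    intro y hy
    have := hex y hy
    simp only [f, dif_pos this]
    exact this.choose_spec.1
  have hfT : ∀ y ∈ T0, T (f y) = y := by
    intro y hy
    have := hex y hy
    simp only [f, dif_pos this]
    exact this.choose_spec.2
  rcases T0.eq_empty_or_nonempty with rfl | ⟨y0, hy0⟩
  · simp
  · have hcard : (T0.image f).card = T0.card := by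
      apply Finset.card_image_of_injOn
      intro a ha b hb hab
      rw [← hfT a ha, ← hfT b hb, hab]
    rw [← hcard]
    refine h (EE d) S m 3 hm (by norm_num) hS (f y0) (r / 2) (by positivity) _ ?_ ?_ ?_
    · intro p hp
      rw [Finset.coe_image] at hp
      obtain ⟨y, hy, rfl⟩ := hp
      exact hfS y hy
    · intro p hp
      obtain ⟨y, hy, rfl⟩ := Finset.mem_image.1 hp
      calc dist (f y) (f y0) ≤ dist (T (f y)) (T (f y0)) := hlow _ _
        _ = dist y y0 := by rw [hfT y hy, hfT y0 hy0]
        _ ≤ dist y x + dist x y0 := dist_triangle _ _ _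
        _ ≤ 2 * r + 2 * r := by
            gcongr
            · exact hx y hy
            · rw [dist_comm]; exact hx y0 hy0
        _ = 2 ^ 3 * (r / 2) := by ring
    · intro p hp q hq hpq
      obtain ⟨y, hy, rfl⟩ := Finset.mem_image.1 hp
      obtain ⟨z, hz, rfl⟩ := Finset.mem_image.1 hq
      have hyz : y ≠ z := fun h => hpq (by rw [h])
      have h1 := hsep y hy z hz hyz
      have h2 := hup (f y) (f z)
      rw [hfT y hy, hfT z hz] at h2
      linarith

end Crest.Agent.R254
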