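import Crest.Agent.R254.Core

set_option autoImplicit false

namespace Crest.Agent.R254
namespace PackV

variable {H : Type} [NormedAddCommGroup H] [InnerProductSpace ℝ H]

theorem time_le (α : ℝ) (p0 : H) (z w : ℝ × H) :
    |z.1 - w.1| ≤ dist (SS α p0 z) (SS α p0 w) := by
  rw [WithLp.prod_dist_eq_of_L2]
  refine Real.le_sqrt_of_sq_le ?_
  have h1 : |z.1 - w.1| = dist (SS α p0 z).fst (SS α p0 w).fst := by
    rw [Real.dist_eq]; rfl
  rw [h1]
  have := sq_nonneg (dist (SS α p0 z).snd (SS α p0 w).snd)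
  linarith

theorem near_line (α : ℝ) (hα : 0 ≤ α) (p0 : H) (z : ℝ × H) :
    dist (SS α p0 z) (0 + z.1 • (WithLp.toLp 2 ((1 : ℝ), (0 : H)))) = α * dist z.2 p0 := by
  rw [WithLp.prod_dist_eq_of_L2]
  have h1 : dist (SS α p0 z).fst (0 + z.1 • (WithLp.toLp 2 ((1 : ℝ), (0 : H)))).fst = 0 := by
    rw [dist_eq_zero]
    simp [SS]
  have h2 : dist (SS α p0 z).snd (0 + z.1 • (WithLp.toLp 2 ((1 : ℝ), (0 : H)))).snd
      = α * dist z.2 p0 := by
    simp only [SS, zero_add, WithLp.smul_snd, WithLp.toLp_snd, smul_zero, dist_zero_right]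
    rw [norm_smul, Real.norm_of_nonneg hα, dist_eq_norm]
  rw [h1, h2]
  have h3 : (0 : ℝ) ≤ α * dist z.2 p0 := by positivity
  rw [show (0 : ℝ) ^ 2 + (α * dist z.2 p0) ^ 2 = (α * dist z.2 p0) ^ 2 by ring]
  exact Real.sqrt_sq h3

theorem exists_mu (V : Finset (ℝ × H)) :
    ∃ μ : ℝ, 0 < μ ∧ ∀ z ∈ V, ∀ w ∈ V, z.1 ≠ w.1 → μ ≤ |z.1 - w.1| := by
  classical
  induction V using Finset.induction_on with
  | empty => exact ⟨1, one_pos, by simp⟩
  | insert a s _ ih =>
    obtain ⟨μ, hμ, h⟩ := ih
    have key : ∀ t : Finset (ℝ × H), ∃ ν : ℝ, 0 < ν ∧ ∀ z ∈ t, z.1 ≠ a.1 → ν ≤ |z.1 - a.1| := by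
      intro t
      induction t using Finset.induction_on with
      | empty => exact ⟨1, one_pos, by simp⟩
      | insert b t _ ih' =>
        obtain ⟨ν, hν, h'⟩ := ih'
        by_cases hb : b.1 = a.1
        · refine ⟨ν, hν, ?_⟩
          intro z hz hne
          rw [Finset.mem_insert] at hz
          rcases hz with rfl | hz
          · exact absurd hb hne
          · exact h' z hz hne
        · refine ⟨min ν |b.1 - a.1|, lt_min hν (abs_pos.mpr (sub_ne_zero.mpr hb)), ?_⟩
          intro z hz hne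
          rw [Finset.mem_insert] at hz
          rcases hz with rfl | hz
          · exact min_le_right _ _
          · exact (min_le_left _ _).trans (h' z hz hne)
    obtain ⟨ν, hν, h'⟩ := key s
    refine ⟨min μ ν, lt_min hμ hν, ?_⟩
    intro z hz w hw hne
    rw [Finset.mem_insert] at hz hw
    rcases hz with rfl | hz
    · rcases hw with rfl | hw
      · exact absurd rfl hne
      · rw [abs_sub_comm]
        exact (min_le_right _ _).trans (h' w hw (Ne.symm hne))
    · rcases hw with rfl | hw
      · exact (min_le_right _ _).trans (h' z hz hne)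
      · exact (min_le_left _ _).trans (h z hz w hw hne)

theorem exists_Y (p0 : H) (V : Finset (ℝ × H)) :
    ∃ Y : ℝ, 0 ≤ Y ∧ ∀ z ∈ V, dist z.2 p0 ≤ Y := by
  refine ⟨∑ z ∈ V, dist z.2 p0, Finset.sum_nonneg (fun _ _ => dist_nonneg), ?_⟩
  intro z hz
  exact Finset.single_le_sum (f := fun z => dist z.2 p0) (fun _ _ => dist_nonneg) hz

end PackV

open PackV in
theorem packV (hl : LineLikeStmt) : PackVStmt := by
  classical
  intro H _ _ p0 V hV
  obtain ⟨μ, hμ, hμV⟩ := exists_mu V
  obtain ⟨Y, hY, hYV⟩ := exists_Y p0 V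
  refine ⟨μ / (32 * (Y + 1)), by positivity, ?_⟩
  intro α hα hαle x r hr T hT hball hsep
  have hαY : α * (32 * (Y + 1)) ≤ μ := by
    rwa [le_div_iff₀ (by positivity)] at hαle
  by_cases hcase : 8 * (α * Y) ≤ r
  · refine hl (WithLp 2 (ℝ × H)) 0 (WithLp.toLp 2 ((1 : ℝ), (0 : H))) x r T ?_ hr hball hsep ?_
    · rw [WithLp.prod_norm_eq_of_L2]
      simp
    · intro y hy
      obtain ⟨z, hz, rfl⟩ := hT hy
      refine ⟨z.1, ?_⟩
      rw [near_line α hα.le p0 z]
      have h1 := hYV z (by simpa using hz)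
      have h2 : α * dist z.2 p0 ≤ α * Y := mul_le_mul_of_nonneg_left h1 hα.le
      linarith
  · push Not at hcase
    have hr4 : 4 * r < μ := by nlinarith
    -- all times are equal
    have hpre : ∀ y ∈ T, ∃ z ∈ V, SS α p0 z = y := by
      intro y hy
      obtain ⟨z, hz, h⟩ := hT hy
      exact ⟨z, by simpa using hz, h⟩
    choose! g hgV hgS using hpre
    have htime : ∀ y ∈ T, ∀ y' ∈ T, (g y).1 = (g y').1 := by
      intro y hy y' hy'
      by_contra hne
      have h1 := hμV _ (hgV y hy) _ (hgV y' hy') hne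
      have h2 := time_le α p0 (g y) (g y')
      rw [hgS y hy, hgS y' hy'] at h2
      have h3 : dist y y' ≤ 4 * r := by
        calc dist y y' ≤ dist y x + dist x y' := dist_triangle _ _ _
          _ ≤ 2 * r + 2 * r := by
            have := hball y hy
            have h4 := hball y' hy'
            rw [dist_comm] at h4
            linarith
          _ = 4 * r := by ring
      linarith
    have hinj : Set.InjOn g (T : Set (WithLp 2 (ℝ × H))) := by
      intro y hy y' hy' h
      have hy1 := hgS y (by simpa using hy)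
      have hy2 := hgS y' (by simpa using hy')
      rw [← hy1, ← hy2, h]
    rcases T.eq_empty_or_nonempty with rfl | ⟨y0, hy0⟩
    · simp
    · have hc : (T.image g).card = T.card := Finset.card_image_of_injOn hinj
      have := hV (g y0).1 (T.image g) (by
        intro z hz
        rw [Finset.mem_image] at hz
        obtain ⟨y, hy, rfl⟩ := hz
        exact hgV y hy) (by
        intro z hz
        rw [Finset.mem_image] at hz
        obtain ⟨y, hy, rfl⟩ := hz
        exact htime y hy y0 hy0)
      omega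

end Crest.Agent.R254
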