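import Crest.Agent.R254.Core

/-!
Row 254 (S0392): pieces of the edges of an obstruction.
-/

set_option autoImplicit false

namespace Crest.Agent.R254

namespace Pieces

/-- uniform positive constant over a finite family. -/
theorem unif {ι : Type*} (s : Finset ι) (Q : ι → ℝ → Prop)
    (hmono : ∀ i c c', c' ≤ c → Q i c → Q i c') (h : ∀ i ∈ s, ∃ c > 0, Q i c) :
    ∃ c > 0, ∀ i ∈ s, Q i c := by
  classical
  induction s using Finset.induction_on with
  | empty => exact ⟨1, one_pos, by simp⟩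
  | insert i s _ ih =>
    obtain ⟨c1, h1, k1⟩ := ih (fun j hj => h j (Finset.mem_insert_of_mem hj))
    obtain ⟨c2, h2, k2⟩ := h i (Finset.mem_insert_self _ _)
    refine ⟨min c1 c2, lt_min h1 h2, ?_⟩
    intro j hj
    rcases Finset.mem_insert.mp hj with rfl | hj
    · exact hmono _ _ _ (min_le_right _ _) k2
    · exact hmono _ _ _ (min_le_left _ _) (k1 j hj)

theorem compact_sep {X : Type*} [MetricSpace X] {K K' : Set X} (hK : IsCompact K)
    (hK' : IsCompact K') (hd : ∀ x ∈ K, x ∉ K') : ∃ c > 0, ∀ x ∈ K, ∀ y ∈ K', c ≤ dist x y := by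
  by_cases hne : (K ×ˢ K').Nonempty
  · obtain ⟨p, hp, hmin⟩ := (hK.prod hK').exists_isMinOn hne (continuous_dist.continuousOn)
    refine ⟨dist p.1 p.2, ?_, ?_⟩
    · apply dist_pos.mpr
      intro h
      apply hd p.1 hp.1
      rw [h]
      exact hp.2
    · intro x hx y hy
      exact hmin (show (x, y) ∈ K ×ˢ K' from ⟨hx, hy⟩)
  · refine ⟨1, one_pos, ?_⟩
    intro x hx y hy
    exact absurd ⟨(x, y), hx, hy⟩ hne

variable {H : Type} [NormedAddCommGroup H] [InnerProductSpace ℝ H]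

theorem seg_line {x y z : H} {s0 s1 : ℝ} (h : s0 ≤ s1)
    (hz : z ∈ segment ℝ (AffineMap.lineMap x y s0) (AffineMap.lineMap x y s1 : H)) :
    ∃ s : ℝ, s0 ≤ s ∧ s ≤ s1 ∧ z = AffineMap.lineMap x y s := by
  obtain ⟨a, b, ha, hb, hab, rfl⟩ := hz
  obtain rfl : a = 1 - b := by linarith
  refine ⟨(1 - b) * s0 + b * s1, ?_, ?_, ?_⟩
  · nlinarith
  · nlinarith
  · simp only [AffineMap.lineMap_apply_module]
    module

theorem line_mem_seg {x y : H} {s : ℝ} (h0 : 0 ≤ s) (h1 : s ≤ 1) :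
    (AffineMap.lineMap x y s : H) ∈ segment ℝ x y := by
  rw [segment_eq_image_lineMap]
  exact ⟨s, ⟨h0, h1⟩, rfl⟩

theorem line_inj {x y : H} (hxy : x ≠ y) {s t : ℝ}
    (h : (AffineMap.lineMap x y s : H) = AffineMap.lineMap x y t) : s = t := by
  have h1 := dist_lineMap_lineMap x y s t
  rw [h, dist_self] at h1
  have h2 : dist x y ≠ 0 := dist_ne_zero.mpr hxy
  rcases mul_eq_zero.mp h1.symm with h3 | h3
  · exact dist_eq_zero.mp h3
  · exact absurd h3 h2

/-- division points of an edge. -/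
noncomputable def zp (θ : ℝ) (e : H × H) (n i : ℕ) : H :=
  AffineMap.lineMap e.1 e.2 (θ + (i : ℝ) * ((1 - 2 * θ) / (n : ℝ)))

/-- number of pieces. -/
noncomputable def num (θ δ : ℝ) (e : H × H) : ℕ := ⌈dist e.1 e.2 * (1 - 2 * θ) / δ⌉₊

end Pieces

open Pieces in
set_option maxHeartbeats 1000000 in
theorem pieces (hobs : ObsCompStmt) : PiecesStmt := by
  classical
  intro N D hD H _ _ V E a b hO
  obtain ⟨η0, hη0, hcomp⟩ := hobs N D hD H V E a b hO
  have hD0 : 0 < D := by linarith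
  -- theta
  have hθ0 : 0 < min (1 / 4) (η0 / (4 * D)) := lt_min (by norm_num) (by positivity)
  have hθ1 := min_le_left (1 / 4) (η0 / (4 * D))
  have hθ2 := min_le_right (1 / 4) (η0 / (4 * D))
  set θ := min (1 / 4) (η0 / (4 * D)) with hθ
  clear_value θ
  have hθD : 2 * θ ≤ (η0 / 2) * (1 / D) := by
    calc 2 * θ ≤ 2 * (η0 / (4 * D)) := by linarith
      _ = (η0 / 2) * (1 / D) := by field_simp; ring
  -- middle parts
  let M : H × H → Set H := fun e => (AffineMap.lineMap e.1 e.2 : ℝ → H) '' Set.Icc θ (1 - θ)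
  have hMc : ∀ e, IsCompact (M e) := fun e =>
    isCompact_Icc.image AffineMap.lineMap_continuous
  have hMseg : ∀ e, ∀ x ∈ M e, x ∈ segment ℝ e.1 e.2 := by
    rintro e x ⟨t, ht, rfl⟩
    exact line_mem_seg (by linarith [ht.1]) (by linarith [ht.2])
  have hMend : ∀ e ∈ E, ∀ x ∈ M e, x ∉ V := by
    rintro e he x ⟨t, ht, rfl⟩ hxV
    have hne := (hO.hE e he).2.2
    rcases hO.sep e he _ hxV (hMseg e _ ⟨t, ht, rfl⟩) with h | h
    · have : (AffineMap.lineMap e.1 e.2 t : H) = AffineMap.lineMap e.1 e.2 (0 : ℝ) := by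
        rw [h, AffineMap.lineMap_apply_zero]
      have := line_inj hne this
      linarith [ht.1]
    · have : (AffineMap.lineMap e.1 e.2 t : H) = AffineMap.lineMap e.1 e.2 (1 : ℝ) := by
        rw [h, AffineMap.lineMap_apply_one]
      have := line_inj hne this
      linarith [ht.2]
  obtain ⟨c1, hc1, k1⟩ : ∃ c > 0, ∀ p ∈ E ×ˢ E, p.1 ≠ p.2 →
      ∀ x ∈ M p.1, ∀ y ∈ M p.2, c ≤ dist x y := by
    apply unif (E ×ˢ E) (fun p c => p.1 ≠ p.2 → ∀ x ∈ M p.1, ∀ y ∈ M p.2, c ≤ dist x y)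
    · intro i c c' hcc h hne x hx y hy
      exact hcc.trans (h hne x hx y hy)
    · intro p hp
      by_cases hpe : p.1 = p.2
      · exact ⟨1, one_pos, fun h => absurd hpe h⟩
      · rw [Finset.mem_product] at hp
        obtain ⟨c, hc, k⟩ := compact_sep (hMc p.1) (hMc p.2) (by
          intro x hx hx'
          exact hMend p.1 hp.1 x hx (hO.emb p.1 hp.1 p.2 hp.2 hpe x (hMseg _ _ hx) (hMseg _ _ hx')))
        exact ⟨c, hc, fun _ => k⟩
  obtain ⟨c2, hc2, k2⟩ : ∃ c > 0, ∀ p ∈ E ×ˢ V, ∀ x ∈ M p.1, c ≤ dist x p.2 := by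
    apply unif (E ×ˢ V) (fun p c => ∀ x ∈ M p.1, c ≤ dist x p.2)
    · intro i c c' hcc h x hx
      exact hcc.trans (h x hx)
    · intro p hp
      rw [Finset.mem_product] at hp
      obtain ⟨c, hc, k⟩ := compact_sep (hMc p.1) (isCompact_singleton (x := p.2)) (by
        intro x hx hx'
        rw [Set.mem_singleton_iff] at hx'
        exact hMend p.1 hp.1 x hx (by rw [hx']; exact hp.2))
      exact ⟨c, hc, fun x hx => k x hx _ rfl⟩
  obtain ⟨c3, hc3, k3⟩ : ∃ c > 0, ∀ p ∈ V ×ˢ V, p.1 ≠ p.2 → c ≤ dist p.1 p.2 := by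
    apply unif (V ×ˢ V) (fun p c => p.1 ≠ p.2 → c ≤ dist p.1 p.2)
    · intro i c c' hcc h hne
      exact hcc.trans (h hne)
    · intro p hp
      by_cases hpe : p.1 = p.2
      · exact ⟨1, one_pos, fun h => absurd hpe h⟩
      · exact ⟨dist p.1 p.2, dist_pos.mpr hpe, fun _ => le_refl _⟩
  obtain ⟨c4, hc4, k4⟩ : ∃ c > 0, ∀ e ∈ E, c ≤ dist e.1 e.2 := by
    apply unif E (fun e c => c ≤ dist e.1 e.2)
    · intro i c c' hcc h
      exact hcc.trans h
    · intro e he
      exact ⟨dist e.1 e.2, dist_pos.mpr (hO.hE e he).2.2, le_refl _⟩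
  -- delta
  obtain ⟨δ, hδ0, hδ1, hδ2, hδ3, hδ4, hδ5, hδ6⟩ : ∃ δ : ℝ, 0 < δ ∧ δ ≤ 1 / 10000 ∧
      100 * δ ≤ c1 ∧ 100 * δ ≤ c2 ∧ 100 * δ ≤ c3 ∧ 100 * δ ≤ θ / 4 ∧ 2 * δ ≤ c4 := by
    refine ⟨min (min (1 / 10000) (c1 / 100)) (min (min (c2 / 100) (c3 / 100))
      (min (θ / 400) (c4 / 2))), ?_, ?_, ?_, ?_, ?_, ?_, ?_⟩
    · refine lt_min (lt_min (by norm_num) (by positivity)) (lt_min (lt_min (by positivity)
        (by positivity)) (lt_min (by positivity) (by positivity)))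
    · exact (min_le_left _ _).trans (min_le_left _ _)
    · have : min (min (1 / 10000) (c1 / 100)) (min (min (c2 / 100) (c3 / 100))
        (min (θ / 400) (c4 / 2))) ≤ c1 / 100 := (min_le_left _ _).trans (min_le_right _ _)
      linarith
    · have : min (min (1 / 10000) (c1 / 100)) (min (min (c2 / 100) (c3 / 100))
        (min (θ / 400) (c4 / 2))) ≤ c2 / 100 :=
        (min_le_right _ _).trans ((min_le_left _ _).trans (min_le_left _ _))
      linarith
    · have : min (min (1 / 10000) (c1 / 100)) (min (min (c2 / 100) (c3 / 100))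
        (min (θ / 400) (c4 / 2))) ≤ c3 / 100 :=
        (min_le_right _ _).trans ((min_le_left _ _).trans (min_le_right _ _))
      linarith
    · have : min (min (1 / 10000) (c1 / 100)) (min (min (c2 / 100) (c3 / 100))
        (min (θ / 400) (c4 / 2))) ≤ θ / 400 :=
        (min_le_right _ _).trans ((min_le_right _ _).trans (min_le_left _ _))
      linarith
    · have : min (min (1 / 10000) (c1 / 100)) (min (min (c2 / 100) (c3 / 100))
        (min (θ / 400) (c4 / 2))) ≤ c4 / 2 :=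
        (min_le_right _ _).trans ((min_le_right _ _).trans (min_le_right _ _))
      linarith
  -- number of pieces
  have hx1 : ∀ e ∈ E, 1 ≤ dist e.1 e.2 * (1 - 2 * θ) / δ := by
    intro e he
    rw [le_div_iff₀ hδ0]
    have := k4 e he
    nlinarith
  have hnum0 : ∀ e ∈ E, (0 : ℝ) < (num θ δ e : ℝ) := by
    intro e he
    have : 0 < num θ δ e := Nat.ceil_pos.mpr (by linarith [hx1 e he])
    exact_mod_cast this
  have hnum1 : ∀ e ∈ E, dist e.1 e.2 * ((1 - 2 * θ) / (num θ δ e : ℝ)) ≤ δ := by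
    intro e he
    have h1 : dist e.1 e.2 * (1 - 2 * θ) / δ ≤ (num θ δ e : ℝ) := Nat.le_ceil _
    rw [div_le_iff₀ hδ0] at h1
    rw [← mul_div_assoc, div_le_iff₀ (hnum0 e he)]
    linarith
  have hnum2 : ∀ e ∈ E, δ / 2 ≤ dist e.1 e.2 * ((1 - 2 * θ) / (num θ δ e : ℝ)) := by
    intro e he
    have h1 : (num θ δ e : ℝ) < dist e.1 e.2 * (1 - 2 * θ) / δ + 1 :=
      Nat.ceil_lt_add_one (by linarith [hx1 e he])
    have h2 := hx1 e he
    have h3 : (num θ δ e : ℝ) ≤ 2 * (dist e.1 e.2 * (1 - 2 * θ) / δ) := by linarith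
    rw [← mul_div_assoc, le_div_iff₀ (hnum0 e he)]
    calc δ / 2 * (num θ δ e : ℝ) ≤ δ / 2 * (2 * (dist e.1 e.2 * (1 - 2 * θ) / δ)) :=
          mul_le_mul_of_nonneg_left h3 (by positivity)
      _ = dist e.1 e.2 * (1 - 2 * θ) := by field_simp
  have hstep0 : ∀ e ∈ E, 0 < (1 - 2 * θ) / (num θ δ e : ℝ) := by
    intro e he
    exact div_pos (by linarith) (hnum0 e he)
  -- parameters of the division points
  have hpar : ∀ e ∈ E, ∀ i : ℕ, i ≤ num θ δ e →
      θ ≤ θ + (i : ℝ) * ((1 - 2 * θ) / (num θ δ e : ℝ)) ∧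
      θ + (i : ℝ) * ((1 - 2 * θ) / (num θ δ e : ℝ)) ≤ 1 - θ := by
    intro e he i hi
    have h1 := hstep0 e he
    have h2 : (i : ℝ) ≤ (num θ δ e : ℝ) := by exact_mod_cast hi
    have h3 : (num θ δ e : ℝ) * ((1 - 2 * θ) / (num θ δ e : ℝ)) = 1 - 2 * θ := by
      field_simp [(hnum0 e he).ne']
    constructor
    · have : 0 ≤ (i : ℝ) * ((1 - 2 * θ) / (num θ δ e : ℝ)) := by positivity
      linarith
    · have := mul_le_mul_of_nonneg_right h2 h1.le
      linarith
  let pc : H × H → ℕ → H × H := fun e i => (zp θ e (num θ δ e) i, zp θ e (num θ δ e) (i + 1))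
  let P : Finset (H × H) := E.biUnion (fun e => (Finset.range (num θ δ e)).image (pc e))
  let ed : H × H → H × H := fun v =>
    if h : ∃ e ∈ E, ∃ i < num θ δ e, v = pc e i then h.choose else (a, b)
  have hmemP : ∀ e ∈ E, ∀ i < num θ δ e, pc e i ∈ P := by
    intro e he i hi
    simp only [P, Finset.mem_biUnion, Finset.mem_image, Finset.mem_range]
    exact ⟨e, he, i, hi, rfl⟩
  have hed : ∀ v ∈ P, ed v ∈ E ∧ ∃ i < num θ δ (ed v), v = pc (ed v) i := by
    intro v hv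
    have h : ∃ e ∈ E, ∃ i < num θ δ e, v = pc e i := by
      simp only [P, Finset.mem_biUnion, Finset.mem_image, Finset.mem_range] at hv
      obtain ⟨e, he, i, hi, rfl⟩ := hv
      exact ⟨e, he, i, hi, rfl⟩
    have h2 : ed v = h.choose := by
      simp only [ed]
      rw [dif_pos h]
    rw [h2]
    exact h.choose_spec
  -- points on a piece
  have hpt : ∀ e ∈ E, ∀ i < num θ δ e, ∀ x ∈ segment ℝ (pc e i).1 (pc e i).2,
      ∃ s : ℝ, θ + (i : ℝ) * ((1 - 2 * θ) / (num θ δ e : ℝ)) ≤ s ∧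
        s ≤ θ + ((i : ℝ) + 1) * ((1 - 2 * θ) / (num θ δ e : ℝ)) ∧
        x = AffineMap.lineMap e.1 e.2 s := by
    intro e he i hi x hx
    have hle : θ + (i : ℝ) * ((1 - 2 * θ) / (num θ δ e : ℝ)) ≤
        θ + ((i + 1 : ℕ) : ℝ) * ((1 - 2 * θ) / (num θ δ e : ℝ)) := by
      have := hstep0 e he
      push_cast
      nlinarith
    obtain ⟨s, h1, h2, h3⟩ := seg_line hle hx
    push_cast at h2
    exact ⟨s, h1, h2, h3⟩
  have hptM : ∀ e ∈ E, ∀ i < num θ δ e, ∀ x ∈ segment ℝ (pc e i).1 (pc e i).2, x ∈ M e := by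
    intro e he i hi x hx
    obtain ⟨s, h1, h2, rfl⟩ := hpt e he i hi x hx
    have h3 := (hpar e he i hi.le).1
    have h4 := (hpar e he (i + 1) hi).2
    push_cast at h4
    exact ⟨s, ⟨by linarith, by linarith⟩, rfl⟩
  have hlen : ∀ e ∈ E, ∀ i, dist (pc e i).1 (pc e i).2 =
      dist e.1 e.2 * ((1 - 2 * θ) / (num θ δ e : ℝ)) := by
    intro e he i
    have h0 := hstep0 e he
    change dist (AffineMap.lineMap e.1 e.2 _ : H) (AffineMap.lineMap e.1 e.2 _) = _
    rw [dist_lineMap_lineMap, Real.dist_eq]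
    have h1 : θ + (i : ℝ) * ((1 - 2 * θ) / (num θ δ e : ℝ)) -
        (θ + ((i + 1 : ℕ) : ℝ) * ((1 - 2 * θ) / (num θ δ e : ℝ))) =
        -((1 - 2 * θ) / (num θ δ e : ℝ)) := by
      push_cast
      ring
    rw [h1, abs_neg, abs_of_pos h0, mul_comm]
  have hdiff : ∀ e i, (pc e i).2 - (pc e i).1 =
      ((1 - 2 * θ) / (num θ δ e : ℝ)) • (e.2 - e.1) := by
    intro e i
    change (AffineMap.lineMap e.1 e.2 (θ + ((i + 1 : ℕ) : ℝ) * ((1 - 2 * θ) / (num θ δ e : ℝ))) : H)
      - AffineMap.lineMap e.1 e.2 (θ + (i : ℝ) * ((1 - 2 * θ) / (num θ δ e : ℝ))) = _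
    simp only [AffineMap.lineMap_apply_module]
    push_cast
    module
  -- inner products
  have hba : (inner ℝ (b - a) (b - a) : ℝ) = 1 := by
    rw [real_inner_self_eq_norm_sq, ← dist_eq_norm, dist_comm, hO.hab]
    norm_num
  have hI : ∀ v ∈ V, 0 ≤ (inner ℝ (v - a) (b - a) : ℝ) ∧ (inner ℝ (v - a) (b - a) : ℝ) ≤ 1 := by
    intro v hv
    rcases hO.slab v hv with rfl | rfl | ⟨h1, h2⟩
    · simp
    · rw [hba]; norm_num
    · constructor <;> linarith
  have hIa : ∀ v ∈ V, v ≠ a → 1 / 4 ≤ (inner ℝ (v - a) (b - a) : ℝ) := by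
    intro v hv hne
    rcases hO.slab v hv with h | h | ⟨h1, h2⟩
    · exact absurd h hne
    · rw [h, hba]; norm_num
    · exact h1
  have hIb : ∀ v ∈ V, v ≠ b → (inner ℝ (v - a) (b - a) : ℝ) ≤ 3 / 4 := by
    intro v hv hne
    rcases hO.slab v hv with h | h | ⟨h1, h2⟩
    · rw [h]; simp; norm_num
    · exact absurd h hne
    · exact h2
  have hslab : ∀ e ∈ E, ∀ x ∈ M e, θ / 4 ≤ (inner ℝ (x - a) (b - a) : ℝ) ∧
      (inner ℝ (x - a) (b - a) : ℝ) ≤ 1 - θ / 4 := by
    rintro e he x ⟨t, ⟨ht1, ht2⟩, rfl⟩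
    obtain ⟨hv1, hv2, hne⟩ := hO.hE e he
    have h1 : (AffineMap.lineMap e.1 e.2 t : H) - a = (1 - t) • (e.1 - a) + t • (e.2 - a) := by
      rw [AffineMap.lineMap_apply_module]
      module
    rw [h1, inner_add_left, real_inner_smul_left, real_inner_smul_left]
    obtain ⟨p1, p2⟩ := hI e.1 hv1
    obtain ⟨p3, p4⟩ := hI e.2 hv2
    have ht0 : 0 < t := by linarith
    have ht3 : 0 < 1 - t := by linarith
    constructor
    · by_cases h : e.1 = a
      · have h2 : e.2 ≠ a := fun h' => hne (by rw [h, h'])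
        have h3 := hIa e.2 hv2 h2
        nlinarith
      · have h3 := hIa e.1 hv1 h
        nlinarith
    · by_cases h : e.1 = b
      · have h2 : e.2 ≠ b := fun h' => hne (by rw [h, h'])
        have h3 := hIb e.2 hv2 h2
        nlinarith
      · have h3 := hIb e.1 hv1 h
        nlinarith
  refine ⟨P, ed, δ, η0 / 2, hδ0, hδ1, by positivity, ?_, ?_, ?_, ?_, ?_, ?_, ?_, ?_⟩
  · -- len
    intro v hv
    obtain ⟨he, i, hi, hvi⟩ := hed v hv
    rw [hvi, hlen _ he]
    exact ⟨hnum2 _ he, hnum1 _ he⟩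
  · -- edmem
    intro v hv
    obtain ⟨he, i, hi, hvi⟩ := hed v hv
    refine ⟨he, ?_, ?_⟩
    · have := hMseg _ _ (hptM _ he i hi _ (left_mem_segment ℝ _ _))
      rw [← hvi] at this
      exact this
    · have := hMseg _ _ (hptM _ he i hi _ (right_mem_segment ℝ _ _))
      rw [← hvi] at this
      exact this
  · -- far
    intro v hv v' hv' hne x hx y hy
    obtain ⟨he, i, hi, hvi⟩ := hed v hv
    obtain ⟨he', i', hi', hvi'⟩ := hed v' hv'
    rw [hvi] at hx
    rw [hvi'] at hy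
    exact hδ2.trans (k1 (ed v, ed v') (Finset.mem_product.mpr ⟨he, he'⟩) hne x
      (hptM _ he i hi x hx) y (hptM _ he' i' hi' y hy))
  · -- near
    intro v hv v' hv' heq hne
    obtain ⟨he, i, hi, hvi⟩ := hed v hv
    obtain ⟨he', j, hj, hvj⟩ := hed v' hv'
    rw [← heq] at he' hj hvj
    set e := ed v with hee
    clear_value e
    subst hvi
    subst hvj
    have hs := hstep0 e he
    by_cases h1 : j = i + 1
    · left
      refine ⟨by rw [h1], ?_⟩
      rw [hdiff, hdiff]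
    · by_cases h2 : i = j + 1
      · right; left
        refine ⟨by rw [h2], ?_⟩
        rw [hdiff, hdiff]
      · right; right
        intro x hx y hy
        obtain ⟨s, q1, q2, rfl⟩ := hpt e he i hi x hx
        obtain ⟨t, r1, r2, rfl⟩ := hpt e he j hj y hy
        rw [dist_lineMap_lineMap, Real.dist_eq]
        have hij : i ≠ j := by
          intro h
          apply hne
          rw [h]
        have hkey : (1 - 2 * θ) / (num θ δ e : ℝ) ≤ |s - t| := by
          rcases lt_or_gt_of_ne hij with hlt | hlt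
          · have h3 : i + 2 ≤ j := by omega
            have h4 : (i : ℝ) + 2 ≤ (j : ℝ) := by exact_mod_cast h3
            have h5 : ((i : ℝ) + 2) * ((1 - 2 * θ) / (num θ δ e : ℝ)) ≤
                (j : ℝ) * ((1 - 2 * θ) / (num θ δ e : ℝ)) := mul_le_mul_of_nonneg_right h4 hs.le
            rw [abs_sub_comm]
            refine le_trans ?_ (le_abs_self _)
            linarith
          · have h3 : j + 2 ≤ i := by omega
            have h4 : (j : ℝ) + 2 ≤ (i : ℝ) := by exact_mod_cast h3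
            have h5 : ((j : ℝ) + 2) * ((1 - 2 * θ) / (num θ δ e : ℝ)) ≤
                (i : ℝ) * ((1 - 2 * θ) / (num θ δ e : ℝ)) := mul_le_mul_of_nonneg_right h4 hs.le
            refine le_trans ?_ (le_abs_self _)
            linarith
        calc δ / 2 ≤ dist e.1 e.2 * ((1 - 2 * θ) / (num θ δ e : ℝ)) := hnum2 e he
          _ = ((1 - 2 * θ) / (num θ δ e : ℝ)) * dist e.1 e.2 := mul_comm _ _
          _ ≤ |s - t| * dist e.1 e.2 := mul_le_mul_of_nonneg_right hkey dist_nonneg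
  · -- farV
    intro v hv w hw x hx
    obtain ⟨he, i, hi, hvi⟩ := hed v hv
    rw [hvi] at hx
    exact hδ3.trans (k2 (ed v, w) (Finset.mem_product.mpr ⟨he, hw⟩) x (hptM _ he i hi x hx))
  · -- farVV
    intro w hw w' hw' hne
    exact hδ4.trans (k3 (w, w') (Finset.mem_product.mpr ⟨hw, hw'⟩) hne)
  · -- slab
    intro v hv x hx
    obtain ⟨he, i, hi, hvi⟩ := hed v hv
    rw [hvi] at hx
    obtain ⟨q1, q2⟩ := hslab _ he x (hptM _ he i hi x hx)
    constructor <;> linarith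
  · -- imp
    intro f hf
    by_contra hcon
    push Not at hcon
    have hfV : ∀ x ∈ V, ∀ y ∈ V, dist x y ≤ D * dist (f x) (f y) := fun x hx y hy =>
      (hf x (Or.inl hx) y (Or.inl hy)).1
    have hσ1 : dist (f a) (f b) ≤ 1 := by
      rw [← hO.hab]
      exact (hf a (Or.inl hO.ha) b (Or.inl hO.hb)).2
    have hσ2 : 1 ≤ D * dist (f a) (f b) := by
      rw [← hO.hab]
      exact hfV a hO.ha b hO.hb
    have hσ3 : 1 / D ≤ dist (f a) (f b) := by
      rw [div_le_iff₀ hD0]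
      linarith
    have hσ0 : 0 < dist (f a) (f b) := lt_of_lt_of_le (by positivity) hσ3
    obtain ⟨e, he, hlt⟩ := hcomp f (dist (f a) (f b)) hσ0 hσ1 hfV le_rfl
    set σ := dist (f a) (f b) with hσ
    obtain ⟨hv1, hv2, hne⟩ := hO.hE e he
    set n := num θ δ e with hn
    have hn0 : 0 < n := by
      have := hnum0 e he
      exact_mod_cast this
    have hzmem : ∀ i ≤ n, zp θ e n i ∈ V ∨ ∃ v ∈ P, zp θ e n i = v.1 ∨ zp θ e n i = v.2 := by
      intro i hi
      right
      rcases Nat.eq_or_lt_of_le hi with h | h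
      · obtain ⟨m, hm⟩ : ∃ m, n = m + 1 := ⟨n - 1, by omega⟩
        refine ⟨pc e m, hmemP e he m (by omega), Or.inr ?_⟩
        change zp θ e n i = zp θ e n (m + 1)
        rw [h, ← hm]
      · exact ⟨pc e i, hmemP e he i h, Or.inl rfl⟩
    have hup : ∀ x, (x ∈ V ∨ ∃ v ∈ P, x = v.1 ∨ x = v.2) →
        ∀ y, (y ∈ V ∨ ∃ v ∈ P, y = v.1 ∨ y = v.2) → dist (f x) (f y) ≤ dist x y :=
      fun x hx y hy => (hf x hx y hy).2
    have hL : 0 < dist e.1 e.2 := dist_pos.mpr hne
    -- the two stops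
    have hs1 : dist (f e.1) (f (zp θ e n 0)) ≤ θ * dist e.1 e.2 := by
      refine (hup _ (Or.inl hv1) _ (hzmem 0 (Nat.zero_le _))).trans (le_of_eq ?_)
      unfold zp
      have : dist e.1 (AffineMap.lineMap e.1 e.2
          (θ + ((0 : ℕ) : ℝ) * ((1 - 2 * θ) / (n : ℝ))) : H) =
          dist (AffineMap.lineMap e.1 e.2 (0 : ℝ) : H) (AffineMap.lineMap e.1 e.2
          (θ + ((0 : ℕ) : ℝ) * ((1 - 2 * θ) / (n : ℝ)))) := by
        rw [AffineMap.lineMap_apply_zero]
      rw [this, dist_lineMap_lineMap, Real.dist_eq]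
      simp only [Nat.cast_zero, zero_mul, add_zero, zero_sub, abs_neg, abs_of_pos hθ0]
    have hs2 : dist (f (zp θ e n n)) (f e.2) ≤ θ * dist e.1 e.2 := by
      refine (hup _ (hzmem n le_rfl) _ (Or.inl hv2)).trans (le_of_eq ?_)
      unfold zp
      have hnn : (n : ℝ) * ((1 - 2 * θ) / (n : ℝ)) = 1 - 2 * θ := by
        have : (n : ℝ) ≠ 0 := by exact_mod_cast hn0.ne'
        field_simp
      have : dist (AffineMap.lineMap e.1 e.2
          (θ + ((n : ℕ) : ℝ) * ((1 - 2 * θ) / (n : ℝ))) : H) e.2 =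
          dist (AffineMap.lineMap e.1 e.2
          (θ + ((n : ℕ) : ℝ) * ((1 - 2 * θ) / (n : ℝ))) : H)
          (AffineMap.lineMap e.1 e.2 (1 : ℝ) : H) := by
        rw [AffineMap.lineMap_apply_one]
      rw [this, dist_lineMap_lineMap, Real.dist_eq, hnn]
      have h3 : θ + (1 - 2 * θ) - 1 = -θ := by ring
      rw [h3, abs_neg, abs_of_pos hθ0]
    have hsum : dist (f (zp θ e n 0)) (f (zp θ e n n)) ≤
        ∑ i ∈ Finset.range n, dist (f (zp θ e n i)) (f (zp θ e n (i + 1))) :=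
      dist_le_range_sum_dist (fun i => f (zp θ e n i)) n
    have hsum2 : ∑ i ∈ Finset.range n, dist (f (zp θ e n i)) (f (zp θ e n (i + 1))) ≤
        ∑ i ∈ Finset.range n, (1 + η0 / 2) * σ * (dist e.1 e.2 * ((1 - 2 * θ) / (n : ℝ))) := by
      apply Finset.sum_le_sum
      intro i hi
      rw [Finset.mem_range] at hi
      have h1 := hcon (pc e i) (hmemP e he i hi)
      rw [hlen e he i] at h1
      exact h1.le
    rw [Finset.sum_const, Finset.card_range, nsmul_eq_mul] at hsum2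
    have hnn : (n : ℝ) * ((1 + η0 / 2) * σ * (dist e.1 e.2 * ((1 - 2 * θ) / (n : ℝ)))) =
        (1 + η0 / 2) * σ * (dist e.1 e.2 * (1 - 2 * θ)) := by
      have : (n : ℝ) ≠ 0 := by exact_mod_cast hn0.ne'
      field_simp
    rw [hnn] at hsum2
    have htri : dist (f e.1) (f e.2) ≤ dist (f e.1) (f (zp θ e n 0)) +
        dist (f (zp θ e n 0)) (f (zp θ e n n)) + dist (f (zp θ e n n)) (f e.2) :=
      dist_triangle4 _ _ _ _
    have h5 : (1 + η0 / 2) * σ * (dist e.1 e.2 * (1 - 2 * θ)) ≤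
        (1 + η0 / 2) * σ * dist e.1 e.2 := by
      apply mul_le_mul_of_nonneg_left _ (by positivity)
      nlinarith
    have h6 : 2 * θ * dist e.1 e.2 ≤ (η0 / 2) * σ * dist e.1 e.2 := by
      apply mul_le_mul_of_nonneg_right _ hL.le
      calc 2 * θ ≤ (η0 / 2) * (1 / D) := hθD
        _ ≤ (η0 / 2) * σ := mul_le_mul_of_nonneg_left hσ3 (by positivity)
    have h7 : (1 + η0) * σ * dist e.1 e.2 =
        (1 + η0 / 2) * σ * dist e.1 e.2 + (η0 / 2) * σ * dist e.1 e.2 := by ring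
    linarith

end Crest.Agent.R254
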