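import Crest.Agent.R254.Core

set_option autoImplicit false

namespace Crest.Agent.R254

theorem proj : ProjStmt := by
  intro n w hw
  have hv : Orthonormal ℝ (({0} : Set (Fin (n + 1))).domRestrict
      (fun _ : Fin (n + 1) => w)) := by
    constructor
    · intro i
      simpa using hw
    · intro i j hij
      exact absurd (Subsingleton.elim i j) hij
  obtain ⟨b, hb⟩ := hv.exists_orthonormalBasis_extension_of_card_eq
    (by simp : Module.finrank ℝ (EE (n + 1)) = Fintype.card (Fin (n + 1)))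
  let π : EE (n + 1) →ₗ[ℝ] EE n :=
    (WithLp.linearEquiv 2 ℝ (Fin n → ℝ)).symm.toLinearMap ∘ₗ
      (LinearMap.funLeft ℝ ℝ (Fin.succ : Fin n → Fin (n + 1))) ∘ₗ
        ((WithLp.linearEquiv 2 ℝ (Fin (n + 1) → ℝ)).toLinearMap ∘ₗ
          b.repr.toLinearEquiv.toLinearMap)
  refine ⟨π, fun x => ?_⟩
  have h1 : ∀ i : Fin n, (π x) i = b.repr x i.succ := fun i => rfl
  have h2 : ‖x‖ ^ 2 = ‖b.repr x‖ ^ 2 := by rw [LinearIsometryEquiv.norm_map]
  rw [h2, EuclideanSpace.norm_sq_eq, EuclideanSpace.norm_sq_eq, Fin.sum_univ_succ]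
  congr 1
  · rw [b.repr_apply_apply, hb 0 rfl, Real.norm_eq_abs, sq_abs, real_inner_comm]

end Crest.Agent.R254
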