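import Crest.Agent.R254.Defs

/-!
# Row 254, task SEQGLUE
-/

set_option autoImplicit false

open Topology

namespace Crest.Agent.R254.SEQGLUE

universe u

variable {B : Type u} [NormedAddCommGroup B] [NormedSpace ℝ B]

/-- radii -/
noncomputable def rk (k : ℕ) : ℝ := (1 / 1000) ^ k

lemma rk_pos (k : ℕ) : 0 < rk k := by unfold rk; positivity

lemma rk_lt {k l : ℕ} (h : k < l) : rk l ≤ rk k / 1000 := by
  unfold rk
  calc ((1 : ℝ) / 1000) ^ l ≤ (1 / 1000) ^ (k + 1) :=
        pow_le_pow_of_le_one (by norm_num) (by norm_num) h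
    _ = _ := by rw [pow_succ]; ring

/-- scaling factors -/
noncomputable def rho (S : ℕ → Finset B) (k : ℕ) : ℝ := rk k / (10 * (1 + ∑ x ∈ S k, ‖x‖))

lemma rho_pos (S : ℕ → Finset B) (k : ℕ) : 0 < rho S k := by
  unfold rho
  have := rk_pos k
  have h2 : 0 ≤ ∑ x ∈ S k, ‖x‖ := Finset.sum_nonneg fun x _ => norm_nonneg x
  positivity

lemma rho_mul (S : ℕ → Finset B) (k : ℕ) (x : B) (hx : x ∈ S k) : ‖rho S k • x‖ ≤ rk k / 10 := by
  rw [norm_smul, Real.norm_eq_abs, abs_of_pos (rho_pos S k)]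
  unfold rho
  have h1 := rk_pos k
  have h2 : ‖x‖ ≤ ∑ x ∈ S k, ‖x‖ :=
    Finset.single_le_sum (f := fun x : B => ‖x‖) (fun x _ => norm_nonneg x) hx
  have h3 : 0 ≤ ‖x‖ := norm_nonneg x
  rw [div_mul_eq_mul_div, div_le_iff₀ (by positivity)]
  nlinarith

/-- the points -/
noncomputable def pt (e : B) (S : ℕ → Finset B) (p : Σ k : ℕ, S k) : B :=
  rk p.1 • e + rho S p.1 • (p.2 : B)

lemma pt_norm (e : B) (he : ‖e‖ = 1) (S : ℕ → Finset B) (p : Σ k : ℕ, S k) :
    9 / 10 * rk p.1 ≤ ‖pt e S p‖ ∧ ‖pt e S p‖ ≤ 11 / 10 * rk p.1 := by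
  have h1 := rho_mul S p.1 p.2 p.2.2
  have h2 : ‖rk p.1 • e‖ = rk p.1 := by
    rw [norm_smul, he, mul_one, Real.norm_eq_abs, abs_of_pos (rk_pos _)]
  unfold pt
  constructor
  · have := norm_sub_norm_le (rk p.1 • e) (-(rho S p.1 • (p.2 : B)))
    rw [sub_neg_eq_add, norm_neg] at this
    linarith
  · have := norm_add_le (rk p.1 • e) (rho S p.1 • (p.2 : B))
    linarith

lemma tends (e : B) (he : ‖e‖ = 1) (S : ℕ → Finset B) :
    Filter.Tendsto (pt e S) Filter.cofinite (𝓝 0) := by
  rw [Metric.tendsto_nhds]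
  intro ε hε
  rw [Filter.eventually_cofinite]
  obtain ⟨n, hn⟩ := exists_pow_lt_of_lt_one (show 0 < ε / 2 by positivity)
    (show (1 / 1000 : ℝ) < 1 by norm_num)
  have hfin : (⋃ k ∈ Finset.range n, (Sigma.mk k) '' (Set.univ : Set (S k))).Finite :=
    (Finset.finite_toSet (Finset.range n)).biUnion fun k _ => (Set.toFinite _).image _
  refine hfin.subset ?_
  rintro ⟨k, x⟩ hp
  simp only [Set.mem_ofPred_eq, dist_zero_right, not_lt] at hp
  have h1 := (pt_norm e he S ⟨k, x⟩).2
  simp only at h1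
  have hk : k < n := by
    by_contra hcon
    rw [not_lt] at hcon
    have h2 : rk k ≤ (1 / 1000) ^ n := pow_le_pow_of_le_one (by norm_num) (by norm_num) hcon
    linarith
  simp only [Finset.mem_range, Set.mem_iUnion]
  exact ⟨k, hk, x, trivial, rfl⟩

/-- packing is invariant under similarities. -/
lemma pack_sim {S : Set B} {m : ℕ} (hS : Pack S m) (c : B) (ρ : ℝ) (hρ : 0 < ρ) (x : B) (r : ℝ)
    (hr : 0 < r) (T : Finset B) (hT : ∀ y ∈ T, ∃ s ∈ S, y = c + ρ • s)
    (hx : ∀ y ∈ T, dist y x ≤ 2 * r) (hsep : ∀ y ∈ T, ∀ z ∈ T, y ≠ z → r < dist y z) :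
    T.card ≤ m := by
  classical
  set φ : B → B := fun y => ρ⁻¹ • (y - c) with hφ
  have hdist : ∀ y z, dist (φ y) (φ z) = ρ⁻¹ * dist y z := by
    intro y z
    rw [hφ]
    simp only
    rw [dist_smul₀, Real.norm_eq_abs, abs_of_pos (inv_pos.2 hρ), dist_sub_right]
  have hinj : Function.Injective φ := by
    intro y z h
    have h1 := hdist y z
    rw [h, dist_self] at h1
    have h2 : dist y z = 0 := by
      rcases mul_eq_zero.1 h1.symm with h | h
      · exact absurd h (inv_pos.2 hρ).ne'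
      · exact h
    exact dist_eq_zero.1 h2
  have := hS (φ x) (ρ⁻¹ * r) (by positivity) (T.image φ) ?_ ?_ ?_
  · rwa [Finset.card_image_of_injective _ hinj] at this
  · intro y hy
    rw [Finset.mem_coe, Finset.mem_image] at hy
    obtain ⟨z, hz, rfl⟩ := hy
    obtain ⟨s, hs, rfl⟩ := hT z hz
    have : φ (c + ρ • s) = s := by
      rw [hφ]; simp only; rw [add_sub_cancel_left, inv_smul_smul₀ hρ.ne']
    rw [this]; exact hs
  · intro y hy
    rw [Finset.mem_image] at hy
    obtain ⟨z, hz, rfl⟩ := hy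
    rw [hdist]
    have := hx z hz
    calc ρ⁻¹ * dist z x ≤ ρ⁻¹ * (2 * r) := by gcongr
      _ = _ := by ring
  · intro y hy z hz hne
    rw [Finset.mem_image] at hy hz
    obtain ⟨y', hy', rfl⟩ := hy
    obtain ⟨z', hz', rfl⟩ := hz
    rw [hdist]
    have := hsep y' hy' z' hz' (fun h => hne (by rw [h]))
    gcongr

end Crest.Agent.R254.SEQGLUE

namespace Crest.Agent.R254

open SEQGLUE

universe u

theorem seqGlue : SeqGlueStmt.{u} := by
  intro B _ _ _ m S hS
  classical
  obtain ⟨e, he⟩ := exists_norm_eq B (show (0 : ℝ) ≤ 1 by norm_num)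
  refine ⟨insert 0 (Set.range (pt e S)), (tends e he S).isCompact_insert_range_of_cofinite, ?_, ?_⟩
  · intro x r hr T hT hx hsep
    set Ts := T.filter (fun y => ‖y‖ ≤ r / 2) with hTs
    set Tb := T.filter (fun y => ¬ ‖y‖ ≤ r / 2) with hTb
    have hcard : Ts.card + Tb.card = T.card := Finset.card_filter_add_card_filter_not _
    have h1 : Ts.card ≤ 1 := by
      rw [Finset.card_le_one]
      intro a ha b hb
      by_contra hne
      rw [hTs, Finset.mem_filter] at ha hb
      have h2 := hsep a ha.1 b hb.1 hne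
      have h3 : dist a b ≤ ‖a‖ + ‖b‖ := dist_le_norm_add_norm a b
      linarith [ha.2, hb.2]
    have h4r : ∀ a ∈ T, ∀ b ∈ T, dist a b ≤ 4 * r := by
      intro a ha b hb
      have := dist_triangle_right a b x
      linarith [hx a ha, hx b hb]
    have hform : ∀ y ∈ Tb, ∃ p : Σ k : ℕ, S k, pt e S p = y := by
      intro y hy
      rw [hTb, Finset.mem_filter] at hy
      rcases hT hy.1 with h | h
      · exfalso
        apply hy.2
        rw [h, norm_zero]
        positivity
      · exact h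
    have hsame : ∀ p q : Σ k : ℕ, S k, pt e S p ∈ Tb → pt e S q ∈ Tb → ¬ p.1 < q.1 := by
      intro p q hp hq hlt
      rw [hTb, Finset.mem_filter, not_le] at hp hq
      have a1 := (pt_norm e he S p).1
      have a2 := (pt_norm e he S q).2
      have a3 := rk_lt hlt
      have a4 := h4r _ hp.1 _ hq.1
      have a5 : ‖pt e S p‖ - ‖pt e S q‖ ≤ dist (pt e S p) (pt e S q) := by
        rw [dist_eq_norm]; exact norm_sub_norm_le _ _
      have a6 := rk_pos p.1
      linarith [hq.2]
    have h2 : Tb.card ≤ m := by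
      rcases Tb.eq_empty_or_nonempty with h | ⟨y0, hy0⟩
      · rw [h, Finset.card_empty]; exact Nat.zero_le _
      · obtain ⟨p0, hp0⟩ := hform y0 hy0
        refine pack_sim (hS p0.1) (rk p0.1 • e) (rho S p0.1) (rho_pos _ _) x r hr Tb ?_ ?_ ?_
        · intro y hy
          obtain ⟨p, hp⟩ := hform y hy
          have hk : p.1 = p0.1 := by
            have b1 := hsame p p0 (by rw [hp]; exact hy) (by rw [hp0]; exact hy0)
            have b2 := hsame p0 p (by rw [hp0]; exact hy0) (by rw [hp]; exact hy)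
            omega
          obtain ⟨k, s⟩ := p
          simp only at hk
          subst hk
          exact ⟨(s : B), s.2, hp.symm⟩
        · intro y hy
          exact hx y (Finset.mem_of_mem_filter y hy)
        · intro y hy z hz hne
          exact hsep y (Finset.mem_of_mem_filter y hy) z (Finset.mem_of_mem_filter z hz) hne
    omega
  · intro k
    refine ⟨rk k • e, rho S k, rho_pos S k, fun x hx => Or.inr ⟨⟨k, x, hx⟩, rfl⟩⟩

end Crest.Agent.R254
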