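import Crest.Agent.R254.Core

set_option autoImplicit false

namespace Crest.Agent.R254

theorem sim : SimStmt := by
  intro H _ _ a b hab
  classical
  -- linear isometry taking `b - a` to the direction of `q - p`
  have key : ∀ p q : H, p ≠ q → ∃ φ : H →ᵃ[ℝ] H, φ a = p ∧ φ b = q ∧
      ∀ x y, dist (φ x) (φ y) = dist p q * dist x y := by
    intro p q hpq
    have hl : 0 < dist p q := dist_pos.2 hpq
    set l := dist p q with hldef
    set u : H := b - a with hu
    have hun : ‖u‖ = 1 := by
      rw [hu, ← dist_eq_norm, dist_comm]; exact hab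
    set v : H := l⁻¹ • (q - p) with hv
    have hvn : ‖v‖ = 1 := by
      rw [hv, norm_smul, Real.norm_of_nonneg (inv_nonneg.2 hl.le), ← dist_eq_norm, dist_comm q p,
        ← hldef]
      field_simp
    obtain ⟨A, hA⟩ : ∃ A : H →ₗᵢ[ℝ] H, A u = v := by
      refine ⟨((ℝ ∙ (u - v))ᗮ.reflection).toLinearIsometry, ?_⟩
      have := Submodule.reflection_sub (v := u) (w := v) (by rw [hun, hvn])
      simpa using this
    refine ⟨(l • A.toLinearMap).toAffineMap.comp (AffineMap.id ℝ H - AffineMap.const ℝ H a)
      + AffineMap.const ℝ H p, ?_, ?_, ?_⟩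
    · simp
    · have h1 : (b - a) = u := rfl
      simp only [AffineMap.coe_add, Pi.add_apply, AffineMap.coe_comp, Function.comp_apply,
        AffineMap.coe_sub, Pi.sub_apply, AffineMap.id_apply, AffineMap.const_apply,
        LinearMap.coe_toAffineMap, LinearMap.smul_apply, LinearIsometry.coe_toLinearMap]
      rw [h1, hA, hv, smul_smul, mul_inv_cancel₀ hl.ne', one_smul]
      abel
    · intro x y
      simp only [AffineMap.coe_add, Pi.add_apply, AffineMap.coe_comp, Function.comp_apply,
        AffineMap.coe_sub, Pi.sub_apply, AffineMap.id_apply, AffineMap.const_apply,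
        LinearMap.coe_toAffineMap, LinearMap.smul_apply, LinearIsometry.coe_toLinearMap]
      rw [dist_add_right, dist_smul₀, Real.norm_of_nonneg hl.le, LinearIsometry.dist_map,
        dist_sub_right]
  refine ⟨fun p q => if h : p ≠ q then (key p q h).choose else AffineMap.id ℝ H, ?_⟩
  intro p q hpq
  simp only [ne_eq, hpq, not_false_eq_true, dite_true]
  exact (key p q hpq).choose_spec

end Crest.Agent.R254
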