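import Crest.Agent.R254.Core

/-!
Row 254 (S0392), part III: SOLCOMP.
-/

set_option autoImplicit false

open Filter Topology

namespace Crest.Agent.R254

namespace SolComp

theorem sol_translate {H : Type} [PseudoMetricSpace H] {n : ℕ} {D ε : ℝ} (A : Prog H) :
    ∀ (g : H → EE n) (c : EE n), Sol n D ε A g → Sol n D ε A (fun z => g z - c) := by
  induction A with
  | skip => intro g c _; trivial
  | seq A B ihA ihB => intro g c h; exact ⟨ihA g c h.1, ihB g c h.2⟩
  | test x y =>
    intro g c h
    show dist (g x - c) (g y - c) ≤ dist x y + ε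
    rw [dist_sub_right]; exact h
  | low x y =>
    intro g c h
    show dist x y / D - ε ≤ dist (g x - c) (g y - c)
    rw [dist_sub_right]; exact h
  | push p x A ih =>
    intro g c h
    obtain ⟨v, hv, hs⟩ := h
    refine ⟨v - c, by rw [dist_sub_right]; exact hv, ?_⟩
    have := ih _ c hs
    convert this using 1
    funext z
    letI := Classical.decEq H
    by_cases hz : z = x
    · subst hz
      rw [Function.update_self, Function.update_self]
    · rw [Function.update_of_ne hz, Function.update_of_ne hz]

theorem sol_limit {H : Type} [NormedAddCommGroup H] [InnerProductSpace ℝ H] {n : ℕ} {D : ℝ}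
    (A : Prog H) : ∀ (X : Set H), WF A X → ∀ (ε : ℕ → ℝ) (G : ℕ → H → EE n) (g : H → EE n),
      Tendsto ε atTop (𝓝 0) → (∀ x ∈ X, Tendsto (fun k => G k x) atTop (𝓝 (g x))) →
      (∀ k, Sol n D (ε k) A (G k)) → Sol n D 0 A g := by
  induction A with
  | skip => intros; trivial
  | seq A B ihA ihB =>
    intro X hW ε G g hε hG hs
    exact ⟨ihA X hW.1 ε G g hε hG (fun k => (hs k).1), ihB X hW.2 ε G g hε hG (fun k => (hs k).2)⟩
  | test x y =>
    intro X hW ε G g hε hG hs
    have h1 : Tendsto (fun k => dist (G k x) (G k y)) atTop (𝓝 (dist (g x) (g y))) :=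
      (hG x hW.1).dist (hG y hW.2.1)
    have h2 : Tendsto (fun k => dist x y + ε k) atTop (𝓝 (dist x y + 0)) := hε.const_add _
    exact le_of_tendsto_of_tendsto' h1 h2 hs
  | low x y =>
    intro X hW ε G g hε hG hs
    have h1 : Tendsto (fun k => dist (G k x) (G k y)) atTop (𝓝 (dist (g x) (g y))) :=
      (hG x hW.1).dist (hG y hW.2.1)
    have h2 : Tendsto (fun k => dist x y / D - ε k) atTop (𝓝 (dist x y / D - 0)) :=
      hε.const_sub _
    exact le_of_tendsto_of_tendsto' h2 h1 hs
  | push p x A ih =>
    intro X hW ε G g hε hG hs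
    obtain ⟨hp, hx, -, hW'⟩ := hW
    choose v hv hsol using hs
    have hGp := hG p hp
    obtain ⟨M, hM⟩ := (Metric.isBounded_iff_subset_closedBall (g p)).1
      (Metric.isBounded_range_of_tendsto _ hGp)
    have hb : ∀ k, v k ∈ Metric.closedBall (g p) (2 * dist x p + 1 + M) := by
      intro k
      rw [Metric.mem_closedBall]
      have h1 : dist (G k p) (g p) ≤ M := hM ⟨k, rfl⟩
      have h2 := dist_triangle (v k) (G k p) (g p)
      linarith [hv k]
    obtain ⟨w, -, φ, hφ, hw⟩ := tendsto_subseq_of_bounded Metric.isBounded_closedBall hb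
    refine ⟨w, ?_, ?_⟩
    · have h1 : Tendsto (fun k => dist (v (φ k)) (G (φ k) p)) atTop (𝓝 (dist w (g p))) :=
        hw.dist (hGp.comp hφ.tendsto_atTop)
      exact le_of_tendsto' h1 (fun k => hv (φ k))
    · refine ih (insert x X) hW' (fun k => ε (φ k)) 
        (fun k => @Function.update H (fun _ => EE n) (Classical.decEq H) (G (φ k)) x (v (φ k)))
        _ (hε.comp hφ.tendsto_atTop) ?_ (fun k => hsol (φ k))
      intro y hy
      letI := Classical.decEq H
      by_cases hyx : y = x
      · subst hyx
        simp only [Function.update_self]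
        exact hw
      · have hyX : y ∈ X := by
          rcases hy with h | h
          · exact absurd h hyx
          · exact h
        simp only [Function.update_of_ne hyx]
        exact (hG y hyX).comp hφ.tendsto_atTop

end SolComp

open SolComp in
theorem solComp : SolCompStmt := by
  intro n D H _ _ A p0 hW hsol
  have h1 : ∀ k : ℕ, ∃ g : H → EE n, Sol n D (1 / ((k : ℝ) + 1)) A g := fun k =>
    hsol _ (by positivity)
  choose G hG using h1
  refine ⟨fun _ => 0, sol_limit A {p0} hW (fun k : ℕ => 1 / ((k : ℝ) + 1))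
    (fun k z => G k z - G k p0) _ tendsto_one_div_add_atTop_nhds_zero_nat ?_
    (fun k => sol_translate A _ _ (hG k))⟩
  intro x hx
  rw [Set.mem_singleton_iff] at hx
  subst hx
  simp

end Crest.Agent.R254
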