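import Crest.Agent.R254.Core

set_option autoImplicit false

namespace Crest.Agent.R254

namespace STR

variable {H : Type} [NormedAddCommGroup H] [InnerProductSpace ℝ H]

lemma pack_mono {S S' : Set H} {m : ℕ} (h : S' ⊆ S) (hS : Pack S m) : Pack S' m := by
  intro x r hr T hT h1 h2
  exact hS x r hr T (hT.trans h) h1 h2

lemma ch_union {V : Finset H} {E : Finset (H × H)} {a b : H} {φ : H → H → (H →ᵃ[ℝ] H)}
    (ha : a ∈ V) (hb : b ∈ V) (hφ : SimFam a b φ) {B k : ℕ} {p q : H} {Y : Set H} (hpq : p ≠ q)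
    (h : CH V E φ B k p q Y) : CH V E φ B k p q (Y ∪ {p, q}) := by
  have hp : p ∈ φ p q '' (V : Set H) := ⟨a, ha, (hφ p q hpq).1⟩
  have hq : q ∈ φ p q '' (V : Set H) := ⟨b, hb, (hφ p q hpq).2.1⟩
  cases h with
  | zero _ _ _ h => exact CH.zero _ _ _ (Set.union_subset h le_rfl)
  | vert k _ _ _ h =>
    refine CH.vert k _ _ _ (Set.union_subset h ?_)
    rintro x (rfl | rfl)
    · exact hp
    · exact hq
  | step k _ _ e i Y' _ he hi hY' h =>
    refine CH.step k _ _ e i Y' _ he hi hY' (Set.union_subset h ?_)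
    rintro x (rfl | rfl)
    · exact Or.inl (Or.inl hp)
    · exact Or.inl (Or.inl hq)

lemma ch_empty {V : Finset H} {E : Finset (H × H)} {φ : H → H → (H →ᵃ[ℝ] H)} {B : ℕ} (k : ℕ)
    {p q : H} : CH V E φ B k p q ∅ := by
  cases k with
  | zero => exact CH.zero _ _ _ (Set.empty_subset _)
  | succ k => exact CH.vert k _ _ _ (Set.empty_subset _)

lemma exists_lists (V : Finset H) (E : Finset (H × H)) (a b : H) :
    ∃ (L : List H) (LE : List (H × H)), GoodLists V E a b L LE := by
  classical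
  let r : H → H → Prop := fun x y => dist a y ≤ dist a x
  haveI : Std.Total r := ⟨fun x y => le_total _ _⟩
  haveI : IsTrans H r := ⟨fun x y z h1 h2 => le_trans h2 h1⟩
  refine ⟨((V.filter (fun x => x ≠ a ∧ x ≠ b)).toList).insertionSort r, E.toList, ?_, ?_, ?_, ?_⟩
  · intro x
    rw [List.mem_insertionSort, Finset.mem_toList, Finset.mem_filter]
  · exact (List.perm_insertionSort r _).nodup_iff.2 (Finset.nodup_toList _)
  · exact List.pairwise_insertionSort r _
  · intro e
    exact Finset.mem_toList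

end STR

theorem strategy (h1 : WinStmt) (h2 : NodeWFStmt) (h3 : NodeAllCStmt) (h4 : PackCHStmt)
    (h5 : SimStmt) : StrategyStmt := by
  intro n D hD H _ _ V E a b hO
  obtain ⟨φ, hφ⟩ := h5 H a b hO.hab
  obtain ⟨L, LE, hL⟩ := STR.exists_lists V E a b
  obtain ⟨K, hK⟩ := h1 n D hD H V E a b hO L LE hL φ hφ
  obtain ⟨B0, hB0⟩ := h2 n D hD H V E a b hO L LE hL φ hφ
  obtain ⟨B1, hB1⟩ := h4 n D hD H V E a b hO φ hφ
  set B := max (max B0 B1) 1 with hB
  have hBB0 : B0 ≤ B := (le_max_left _ _).trans (le_max_left _ _)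
  have hBB1 : B1 ≤ B := (le_max_right _ _).trans (le_max_left _ _)
  have hB1' : 1 ≤ B := le_max_right _ _
  have hab : a ≠ b := by
    intro h
    have := hO.hab
    rw [h, dist_self] at this
    exact zero_ne_one this
  have hpk : ∀ Y, CH V E φ B K a b Y → Pack (insert b {a} ∪ Y) 15 := by
    intro Y hY
    refine STR.pack_mono ?_ (hB1 B hBB1 K a b _ hab (STR.ch_union hO.ha hO.hb hφ hab hY))
    rintro x ((rfl | rfl) | hx)
    · right; right; rfl
    · right; left; rfl
    · left; exact hx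
  refine ⟨.push a b (.seq (.low a b) (nodeProg a b L LE φ B K a b)), a, ?_, ?_, hK B hB1'⟩
  · refine ⟨rfl, ?_, ?_, ⟨?_, ?_, hab⟩, ?_⟩
    · intro h
      exact hab h.symm
    · intro z hz _
      exact hz
    · right; rfl
    · left; rfl
    · refine hB0 B hBB0 K _ a b ⟨hab, ?_, ?_, ?_⟩
      · right; rfl
      · left; rfl
      · rintro y (rfl | rfl) hya hyb
        · exact absurd rfl hyb
        · exact absurd rfl hya
  · have h0 := hpk ∅ (STR.ch_empty K)
    refine ⟨?_, ?_, ?_⟩
    · refine STR.pack_mono ?_ h0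
      intro x hx
      left; right; exact hx
    · refine STR.pack_mono ?_ h0
      intro x hx
      left; exact hx
    · exact h3 H V E a b L LE hL hO.ha hO.hb (fun e he => ⟨(hO.hE e he).1, (hO.hE e he).2.1⟩) φ hφ
        B hB1' (fun X => Pack X 15) K _ a b hpk

end Crest.Agent.R254
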