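import Crest.Agent.R254.Defs

/-! Row 254, task VAR: dimension free variance bound for seminorms of a Gaussian vector. -/

set_option autoImplicit false

open MeasureTheory ProbabilityTheory
open scoped ENNReal

namespace Crest.Agent.R254

namespace VAR

theorem pi_ac (μ ν : Measure ℝ) [SigmaFinite μ] [SigmaFinite ν] (h : μ ≪ ν) (n : ℕ) :
    Measure.pi (fun _ : Fin n => μ) ≪ Measure.pi (fun _ : Fin n => ν) := by
  induction n with
  | zero =>
    rw [Measure.pi_of_empty (μ := fun _ : Fin 0 => μ), Measure.pi_of_empty (μ := fun _ : Fin 0 => ν)]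
  | succ n ih =>
    have h1 := (measurePreserving_piFinSuccAbove (fun _ : Fin (n + 1) => μ) 0).symm
    have h2 := (measurePreserving_piFinSuccAbove (fun _ : Fin (n + 1) => ν) 0).symm
    rw [← h1.map_eq, ← h2.map_eq]
    exact (h.prod ih).map (MeasurableEquiv.measurable _)

theorem std_ac (M : ℕ) : stdGaussian (EE M) ≪ (volume : Measure (EE M)) := by
  rw [← map_pi_eq_stdGaussian, ← (PiLp.volume_preserving_toLp (Fin M)).map_eq]
  exact (pi_ac _ _ (gaussianReal_absolutelyContinuous 0 one_ne_zero) M).map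
    (PiLp.volume_preserving_toLp (Fin M)).measurable

section
variable {M : ℕ} (N : Seminorm ℝ (EE M)) (hN : ∀ x, N x ≤ ‖x‖)

include hN

theorem lip : LipschitzWith 1 (fun x => N x) := by
  apply LipschitzWith.of_dist_le_mul
  intro x y
  rw [Real.dist_eq, dist_eq_norm, NNReal.coe_one, one_mul]
  have h1 := N.norm_sub_map_le_sub x y
  exact (by simpa [Real.norm_eq_abs] using h1 : |N x - N y| ≤ N (x - y)).trans (hN _)

theorem ae_diff : ∀ᵐ x ∂(stdGaussian (EE M)), DifferentiableAt ℝ (fun x => N x) x :=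
  (std_ac M).ae_le (lip N hN).ae_differentiableAt

omit hN in
theorem subgrad {x : EE M} (hx : DifferentiableAt ℝ (fun x => N x) x) (w : EE M) :
    N x - N w ≤ fderiv ℝ (fun x => N x) x (x - w) := by
  have hc : ConvexOn ℝ Set.univ (fun t : ℝ => N (x + t • (w - x))) := by
    have h1 := N.convexOn
    refine ⟨convex_univ, fun s _ t _ a b ha hb hab => ?_⟩
    have h2 := h1.2 (Set.mem_univ (x + s • (w - x))) (Set.mem_univ (x + t • (w - x))) ha hb hab
    have h3 : a • (x + s • (w - x)) + b • (x + t • (w - x)) = x + (a • s + b • t) • (w - x) := by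
      calc a • (x + s • (w - x)) + b • (x + t • (w - x))
          = (a + b) • x + (a * s + b * t) • (w - x) := by
            simp only [smul_add, smul_smul, add_smul]
            abel
        _ = _ := by rw [hab, one_smul]; rfl
    rw [h3] at h2
    exact h2
  have hd : HasDerivAt (fun t : ℝ => N (x + t • (w - x))) (fderiv ℝ (fun x => N x) x (w - x)) 0 := by
    have h1 : HasDerivAt (fun t : ℝ => x + t • (w - x)) (w - x) 0 := by
      simpa using ((hasDerivAt_id (0 : ℝ)).smul_const (w - x)).const_add x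
    have h2 : HasFDerivAt (fun x => N x) (fderiv ℝ (fun x => N x) x) (x + (0 : ℝ) • (w - x)) := by
      simpa using hx.hasFDerivAt
    exact h2.comp_hasDerivAt (0 : ℝ) h1
  have h4 := hc.le_slope_of_hasDerivAt (Set.mem_univ 0) (Set.mem_univ 1) one_pos hd
  rw [slope_def_field] at h4
  simp only [one_smul, zero_smul, add_zero, sub_zero, div_one, add_sub_cancel] at h4
  have h5 : fderiv ℝ (fun x => N x) x (x - w) = - fderiv ℝ (fun x => N x) x (w - x) := by
    rw [← map_neg, neg_sub]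
  rw [h5]
  linarith

end

/-- the key function -/
noncomputable def G {M : ℕ} (N : Seminorm ℝ (EE M)) (θ : ℝ) (z : EE M × EE M) : ℝ :=
  fderiv ℝ (fun x => N x) z.1 (z.1 - (ContinuousLinearMap.rotation θ z).1)

theorem measurable_G {M : ℕ} (N : Seminorm ℝ (EE M)) (θ : ℝ) : Measurable (G N θ) := by
  unfold G
  have h1 : Measurable (fun z : EE M × EE M => fderiv ℝ (fun x => N x) z.1) :=
    (measurable_fderiv ℝ _).comp measurable_fst
  have h2 : Measurable (fun z : EE M × EE M => z.1 - (ContinuousLinearMap.rotation θ z).1) :=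
    (measurable_fst.sub ((ContinuousLinearMap.rotation θ).continuous.measurable.fst))
  exact (isBoundedBilinearMap_apply (𝕜 := ℝ) (E := EE M) (F := ℝ)).continuous.measurable.comp
    (h1.prodMk h2)

/-- second moment of a functional -/
theorem second_moment {M : ℕ} (L : EE M →L[ℝ] ℝ) (hL : ‖L‖ ≤ 1) :
    ∫⁻ y, ENNReal.ofReal ((L y) ^ 2) ∂(stdGaussian (EE M)) ≤ 1 := by
  have h1 : Var[L; stdGaussian (EE M)] = ‖L‖ ^ 2 := variance_dual_stdGaussian L
  have h2 : ∫ y, (L y) ^ 2 ∂(stdGaussian (EE M)) = ‖L‖ ^ 2 := by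
    rw [← h1, variance_of_integral_eq_zero L.continuous.aemeasurable
      (integral_strongDual_stdGaussian L)]
  have hint : Integrable (fun y => (L y) ^ 2) (stdGaussian (EE M)) := by
    have : MemLp L 2 (stdGaussian (EE M)) := IsGaussian.memLp_dual _ _ _ (by simp)
    exact this.integrable_sq
  rw [← ofReal_integral_eq_lintegral_ofReal hint (Filter.Eventually.of_forall fun y => sq_nonneg _),
    h2]
  rw [ENNReal.ofReal_le_one]
  have := norm_nonneg L
  nlinarith

theorem G_bound {M : ℕ} (N : Seminorm ℝ (EE M)) (hN : ∀ x, N x ≤ ‖x‖) (θ : ℝ) :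
    ∫⁻ z, ENNReal.ofReal ((G N θ z) ^ 2) ∂((stdGaussian (EE M)).prod (stdGaussian (EE M))) ≤
      ENNReal.ofReal (11 * (1 - Real.cos θ) ^ 2) *
        (∫⁻ x, ENNReal.ofReal (‖x‖ ^ 2) ∂(stdGaussian (EE M))) +
      ENNReal.ofReal (1.1 * (Real.sin θ) ^ 2) := by
  set γ := stdGaussian (EE M) with hγ
  have hfd : ∀ x, ‖fderiv ℝ (fun x => N x) x‖ ≤ 1 := by
    intro x
    have := norm_fderiv_le_of_lipschitz ℝ (x₀ := x) (lip N hN)
    simpa using this
  have hpt : ∀ z : EE M × EE M, ENNReal.ofReal ((G N θ z) ^ 2) ≤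
      ENNReal.ofReal (11 * (1 - Real.cos θ) ^ 2) * ENNReal.ofReal (‖z.1‖ ^ 2) +
      ENNReal.ofReal (1.1 * (Real.sin θ) ^ 2) *
        ENNReal.ofReal ((fderiv ℝ (fun x => N x) z.1 z.2) ^ 2) := by
    intro z
    rw [← ENNReal.ofReal_mul (by positivity), ← ENNReal.ofReal_mul (by positivity),
      ← ENNReal.ofReal_add (by positivity) (by positivity)]
    apply ENNReal.ofReal_le_ofReal
    have h1 : G N θ z = (1 - Real.cos θ) * fderiv ℝ (fun x => N x) z.1 z.1 -
        Real.sin θ * fderiv ℝ (fun x => N x) z.1 z.2 := by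
      unfold G
      rw [ContinuousLinearMap.rotation_apply]
      simp only [map_sub, map_add, map_smul, smul_eq_mul]
      ring
    have h2 : (fderiv ℝ (fun x => N x) z.1 z.1) ^ 2 ≤ ‖z.1‖ ^ 2 := by
      have h3 := (fderiv ℝ (fun x => N x) z.1).le_opNorm z.1
      have h4 : ‖fderiv ℝ (fun x => N x) z.1 z.1‖ ≤ ‖z.1‖ := by
        refine h3.trans ?_
        have := mul_le_mul_of_nonneg_right (hfd z.1) (norm_nonneg z.1)
        simpa using this
      rw [Real.norm_eq_abs] at h4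
      rw [← sq_abs]
      exact pow_le_pow_left₀ (abs_nonneg _) h4 2
    rw [h1]
    set a := (1 - Real.cos θ) * fderiv ℝ (fun x => N x) z.1 z.1 with ha
    set b := Real.sin θ * fderiv ℝ (fun x => N x) z.1 z.2 with hb
    have h5 : (a - b) ^ 2 ≤ 11 * a ^ 2 + 1.1 * b ^ 2 := by nlinarith [sq_nonneg (10 * a + b)]
    have h6 : a ^ 2 ≤ (1 - Real.cos θ) ^ 2 * ‖z.1‖ ^ 2 := by
      rw [ha, mul_pow]
      exact mul_le_mul_of_nonneg_left h2 (sq_nonneg _)
    have h7 : b ^ 2 = (Real.sin θ) ^ 2 * (fderiv ℝ (fun x => N x) z.1 z.2) ^ 2 := by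
      rw [hb, mul_pow]
    rw [h7] at h5
    linarith
  have hmeas2 : Measurable (fun z : EE M × EE M =>
      ENNReal.ofReal ((fderiv ℝ (fun x => N x) z.1 z.2) ^ 2)) := by
    have h1 : Measurable (fun z : EE M × EE M => fderiv ℝ (fun x => N x) z.1) :=
      (measurable_fderiv ℝ _).comp measurable_fst
    exact (((isBoundedBilinearMap_apply (𝕜 := ℝ) (E := EE M) (F := ℝ)).continuous.measurable.comp
      (h1.prodMk measurable_snd)).pow_const 2).ennreal_ofReal
  have hmeas1 : Measurable (fun z : EE M × EE M => ENNReal.ofReal (‖z.1‖ ^ 2)) :=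
    (measurable_fst.norm.pow_const 2).ennreal_ofReal
  refine (lintegral_mono hpt).trans ?_
  rw [lintegral_add_left (hmeas1.const_mul _), lintegral_const_mul _ hmeas1,
    lintegral_const_mul _ hmeas2]
  refine add_le_add ?_ ?_
  · rw [lintegral_prod _ hmeas1.aemeasurable]
    simp
  · rw [lintegral_prod _ hmeas2.aemeasurable]
    have h1 : ∫⁻ x, ∫⁻ y, ENNReal.ofReal ((fderiv ℝ (fun x => N x) x y) ^ 2) ∂γ ∂γ ≤ 1 := by
      calc ∫⁻ x, ∫⁻ y, ENNReal.ofReal ((fderiv ℝ (fun x => N x) x y) ^ 2) ∂γ ∂γ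
          ≤ ∫⁻ _x, 1 ∂γ := lintegral_mono fun x => second_moment _ (hfd x)
        _ = 1 := by simp
    calc ENNReal.ofReal (1.1 * (Real.sin θ) ^ 2) *
          ∫⁻ x, ∫⁻ y, ENNReal.ofReal ((fderiv ℝ (fun x => N x) x y) ^ 2) ∂γ ∂γ
        ≤ ENNReal.ofReal (1.1 * (Real.sin θ) ^ 2) * 1 := mul_le_mul_right h1 _
      _ = _ := mul_one _

theorem rot_rot {M : ℕ} (θ φ : ℝ) (z : EE M × EE M) :
    ContinuousLinearMap.rotation θ (ContinuousLinearMap.rotation φ z) =
      ContinuousLinearMap.rotation (θ + φ) z := by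
  simp only [ContinuousLinearMap.rotation_apply, Real.cos_add, Real.sin_add]
  refine Prod.ext ?_ ?_
  · change Real.cos θ • (Real.cos φ • z.1 + Real.sin φ • z.2) +
      Real.sin θ • (-Real.sin φ • z.1 + Real.cos φ • z.2) =
      (Real.cos θ * Real.cos φ - Real.sin θ * Real.sin φ) • z.1 +
        (Real.sin θ * Real.cos φ + Real.cos θ * Real.sin φ) • z.2
    module
  · change -Real.sin θ • (Real.cos φ • z.1 + Real.sin φ • z.2) +
      Real.cos θ • (-Real.sin φ • z.1 + Real.cos φ • z.2) =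
      -(Real.sin θ * Real.cos φ + Real.cos θ * Real.sin φ) • z.1 +
        (Real.cos θ * Real.cos φ - Real.sin θ * Real.sin φ) • z.2
    module

theorem rot_zero {M : ℕ} (z : EE M × EE M) : ContinuousLinearMap.rotation 0 z = z := by
  simp [ContinuousLinearMap.rotation_apply]

theorem mp_rot {M : ℕ} (θ : ℝ) :
    MeasurePreserving (fun z : EE M × EE M => ContinuousLinearMap.rotation θ z)
      ((stdGaussian (EE M)).prod (stdGaussian (EE M)))
      ((stdGaussian (EE M)).prod (stdGaussian (EE M))) := by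
  refine ⟨(ContinuousLinearMap.rotation θ).continuous.measurable, ?_⟩
  exact IsGaussian.map_rotation_eq_self (by simp) θ

/-- increment -/
noncomputable def F {M : ℕ} (N : Seminorm ℝ (EE M)) (θ : ℝ) (z : EE M × EE M) : ℝ :=
  N (ContinuousLinearMap.rotation θ z).1 - N z.1

theorem N_meas {M : ℕ} (N : Seminorm ℝ (EE M)) (hN : ∀ x, N x ≤ ‖x‖) :
    Measurable (fun x => N x) := (lip N hN).continuous.measurable

theorem F_meas {M : ℕ} (N : Seminorm ℝ (EE M)) (hN : ∀ x, N x ≤ ‖x‖) (θ : ℝ) :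
    Measurable (F N θ) := by
  unfold F
  exact ((N_meas N hN).comp (ContinuousLinearMap.rotation θ).continuous.measurable.fst).sub
    ((N_meas N hN).comp measurable_fst)

theorem F_bound {M : ℕ} (N : Seminorm ℝ (EE M)) (hN : ∀ x, N x ≤ ‖x‖) (θ : ℝ) :
    ∫⁻ z, ENNReal.ofReal ((F N θ z) ^ 2) ∂((stdGaussian (EE M)).prod (stdGaussian (EE M))) ≤
      2 * (ENNReal.ofReal (11 * (1 - Real.cos θ) ^ 2) *
        (∫⁻ x, ENNReal.ofReal (‖x‖ ^ 2) ∂(stdGaussian (EE M))) +
      ENNReal.ofReal (1.1 * (Real.sin θ) ^ 2)) := by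
  set γ := stdGaussian (EE M) with hγ
  have hd1 : ∀ᵐ z ∂(γ.prod γ), DifferentiableAt ℝ (fun x => N x) z.1 :=
    Measure.quasiMeasurePreserving_fst.ae (ae_diff N hN)
  have hd2 : ∀ᵐ z ∂(γ.prod γ),
      DifferentiableAt ℝ (fun x => N x) (ContinuousLinearMap.rotation θ z).1 :=
    (mp_rot θ).quasiMeasurePreserving.ae hd1
  have hpt : ∀ᵐ z ∂(γ.prod γ), ENNReal.ofReal ((F N θ z) ^ 2) ≤
      ENNReal.ofReal ((G N θ z) ^ 2) +
        ENNReal.ofReal ((G N (-θ) (ContinuousLinearMap.rotation θ z)) ^ 2) := by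
    filter_upwards [hd1, hd2] with z h1 h2
    rw [← ENNReal.ofReal_add (by positivity) (by positivity)]
    apply ENNReal.ofReal_le_ofReal
    have h3 := subgrad N h1 (ContinuousLinearMap.rotation θ z).1
    have h4 := subgrad N h2 z.1
    have h5 : (ContinuousLinearMap.rotation (-θ) (ContinuousLinearMap.rotation θ z)) = z := by
      rw [rot_rot, neg_add_cancel, rot_zero]
    have h6 : G N (-θ) (ContinuousLinearMap.rotation θ z) =
        fderiv ℝ (fun x => N x) (ContinuousLinearMap.rotation θ z).1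
          ((ContinuousLinearMap.rotation θ z).1 - z.1) := by
      unfold G
      rw [h5]
    rw [← h6] at h4
    change N z.1 - N (ContinuousLinearMap.rotation θ z).1 ≤ G N θ z at h3
    have h7 : F N θ z = N (ContinuousLinearMap.rotation θ z).1 - N z.1 := rfl
    rcases le_total 0 (F N θ z) with h | h
    · have : F N θ z ≤ G N (-θ) (ContinuousLinearMap.rotation θ z) := by rw [h7]; exact h4
      have := pow_le_pow_left₀ h this 2
      nlinarith [sq_nonneg (G N θ z)]
    · have h8 : 0 ≤ - F N θ z := by linarith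
      have : - F N θ z ≤ G N θ z := by rw [h7]; linarith
      have := pow_le_pow_left₀ h8 this 2
      nlinarith [sq_nonneg (G N (-θ) (ContinuousLinearMap.rotation θ z))]
  refine (lintegral_mono_ae hpt).trans ?_
  rw [lintegral_add_left ((measurable_G N θ).pow_const 2).ennreal_ofReal]
  have h1 := G_bound N hN θ
  have h2 := G_bound N hN (-θ)
  have h3 : ∫⁻ z, ENNReal.ofReal ((G N (-θ) (ContinuousLinearMap.rotation θ z)) ^ 2)
      ∂(γ.prod γ) = ∫⁻ z, ENNReal.ofReal ((G N (-θ) z) ^ 2) ∂(γ.prod γ) :=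
    (mp_rot θ).lintegral_comp ((measurable_G N (-θ)).pow_const 2).ennreal_ofReal
  rw [h3, two_mul]
  rw [Real.cos_neg, Real.sin_neg, neg_sq] at h2
  exact add_le_add h1 h2

theorem total {M : ℕ} (N : Seminorm ℝ (EE M)) (hN : ∀ x, N x ≤ ‖x‖) (m : ℕ) (hm : 1 ≤ m)
    (V : ℝ≥0∞) (hV : ∫⁻ z, ENNReal.ofReal ((F N (Real.pi / (2 * m)) z) ^ 2)
      ∂((stdGaussian (EE M)).prod (stdGaussian (EE M))) ≤ V) :
    ∫⁻ z, ENNReal.ofReal ((N z.2 - N z.1) ^ 2)
      ∂((stdGaussian (EE M)).prod (stdGaussian (EE M))) ≤ (m : ℝ≥0∞) * ((m : ℝ≥0∞) * V) := by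
  set θ : ℝ := Real.pi / (2 * m) with hθ
  have hm0 : (m : ℝ) ≠ 0 := by positivity
  have htel : ∀ z : EE M × EE M, N z.2 - N z.1 =
      ∑ j ∈ Finset.range m, F N θ (ContinuousLinearMap.rotation (j * θ) z) := by
    intro z
    have h1 : ∀ j : ℕ, F N θ (ContinuousLinearMap.rotation (j * θ) z) =
        N (ContinuousLinearMap.rotation (((j + 1 : ℕ) : ℝ) * θ) z).1 -
          N (ContinuousLinearMap.rotation ((j : ℝ) * θ) z).1 := by
      intro j
      unfold F
      rw [rot_rot]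
      have : θ + j * θ = ((j + 1 : ℕ) : ℝ) * θ := by push_cast; ring
      rw [this]
    simp only [h1]
    rw [Finset.sum_range_sub (fun j : ℕ => N (ContinuousLinearMap.rotation ((j : ℝ) * θ) z).1)]
    have h2 : (m : ℝ) * θ = Real.pi / 2 := by
      rw [hθ]; field_simp
    rw [h2, Nat.cast_zero, zero_mul, rot_zero]
    congr 2
    simp [ContinuousLinearMap.rotation_apply]
  have hpt : ∀ z : EE M × EE M, ENNReal.ofReal ((N z.2 - N z.1) ^ 2) ≤
      (m : ℝ≥0∞) * ∑ j ∈ Finset.range m,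
        ENNReal.ofReal ((F N θ (ContinuousLinearMap.rotation (j * θ) z)) ^ 2) := by
    intro z
    rw [htel z, ← ENNReal.ofReal_sum_of_nonneg (fun j _ => sq_nonneg _),
      ← ENNReal.ofReal_natCast, ← ENNReal.ofReal_mul (Nat.cast_nonneg _)]
    apply ENNReal.ofReal_le_ofReal
    have := sq_sum_le_card_mul_sum_sq (s := Finset.range m)
      (f := fun j : ℕ => F N θ (ContinuousLinearMap.rotation (j * θ) z))
    simpa using this
  refine (lintegral_mono hpt).trans ?_
  have hmeas : ∀ j : ℕ, Measurable (fun z : EE M × EE M =>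
      ENNReal.ofReal ((F N θ (ContinuousLinearMap.rotation (j * θ) z)) ^ 2)) := fun j =>
    (((F_meas N hN θ).comp (mp_rot (j * θ)).measurable).pow_const 2).ennreal_ofReal
  rw [lintegral_const_mul _ (Finset.measurable_sum _ fun j _ => hmeas j),
    lintegral_finsetSum _ (fun j _ => hmeas j)]
  apply mul_le_mul_right
  calc ∑ j ∈ Finset.range m, ∫⁻ z, ENNReal.ofReal
        ((F N θ (ContinuousLinearMap.rotation (j * θ) z)) ^ 2)
        ∂((stdGaussian (EE M)).prod (stdGaussian (EE M)))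
      ≤ ∑ _j ∈ Finset.range m, V := by
        refine Finset.sum_le_sum fun j _ => ?_
        have := (mp_rot (M := M) (j * θ)).lintegral_comp
          ((F_meas N hN θ).pow_const 2).ennreal_ofReal
        rw [this]
        exact hV
    _ = (m : ℝ≥0∞) * V := by simp

theorem memLp {M : ℕ} (N : Seminorm ℝ (EE M)) (hN : ∀ x, N x ≤ ‖x‖) :
    MemLp (fun x => N x) 2 (stdGaussian (EE M)) := by
  have h1 : MemLp id 2 (stdGaussian (EE M)) := IsGaussian.memLp_two_id
  refine h1.of_le (N_meas N hN).aestronglyMeasurable (Filter.Eventually.of_forall fun x => ?_)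
  rw [Real.norm_eq_abs, abs_of_nonneg (apply_nonneg N x)]
  exact hN x

theorem norm_sq_fin (M : ℕ) : ∫⁻ x, ENNReal.ofReal (‖x‖ ^ 2) ∂(stdGaussian (EE M)) ≠ ∞ := by
  have h1 : MemLp id 2 (stdGaussian (EE M)) := IsGaussian.memLp_two_id
  have h2 : Integrable (fun x : EE M => ‖x‖ ^ 2) (stdGaussian (EE M)) := h1.integrable_norm_pow (by norm_num)
  exact (h2.lintegral_lt_top).ne

theorem ofReal_aux (m : ℕ) (A B K : ℝ) (hA : 0 ≤ A) (hB : 0 ≤ B) (hK : 0 ≤ K) :
    (m : ℝ≥0∞) * ((m : ℝ≥0∞) * (2 * (ENNReal.ofReal A * ENNReal.ofReal K + ENNReal.ofReal B))) =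
      ENNReal.ofReal (m * (m * (2 * (A * K + B)))) := by
  rw [ENNReal.ofReal_mul (by positivity), ENNReal.ofReal_mul (by positivity),
    ENNReal.ofReal_mul (by positivity), ENNReal.ofReal_add (by positivity) (by positivity),
    ENNReal.ofReal_mul (by positivity)]
  simp

end VAR

open VAR in
theorem var : VarStmt := by
  intro M N hN
  set γ := stdGaussian (EE M) with hγ
  set K : ℝ := (∫⁻ x, ENNReal.ofReal (‖x‖ ^ 2) ∂γ).toReal with hK
  have hK0 : 0 ≤ K := ENNReal.toReal_nonneg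
  have hKe : ∫⁻ x, ENNReal.ofReal (‖x‖ ^ 2) ∂γ = ENNReal.ofReal K :=
    (ENNReal.ofReal_toReal (norm_sq_fin M)).symm
  obtain ⟨m, hm⟩ := exists_nat_ge (100 * (K + 1))
  have hm1 : 1 ≤ m := by
    have : (1 : ℝ) ≤ m := by linarith
    exact_mod_cast this
  have hmr : (1 : ℝ) ≤ m := by exact_mod_cast hm1
  set θ : ℝ := Real.pi / (2 * m) with hθ
  have hFb := F_bound N hN θ
  rw [← hγ, hKe] at hFb
  have htot := total N hN m hm1 _ hFb
  have hVal : (m : ℝ≥0∞) * ((m : ℝ≥0∞) * (2 * (ENNReal.ofReal (11 * (1 - Real.cos θ) ^ 2) *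
      ENNReal.ofReal K + ENNReal.ofReal (1.1 * (Real.sin θ) ^ 2)))) =
      ENNReal.ofReal (m * (m * (2 * (11 * (1 - Real.cos θ) ^ 2 * K + 1.1 * (Real.sin θ) ^ 2)))) :=
    ofReal_aux m _ _ K (by positivity) (by positivity) hK0
  rw [hVal] at htot
  have hnum : (m : ℝ) * (m * (2 * (11 * (1 - Real.cos θ) ^ 2 * K + 1.1 * (Real.sin θ) ^ 2))) ≤ 6 := by
    have hpi := Real.pi_lt_d2
    have hpi0 := Real.pi_pos
    have h1 : 1 - Real.cos θ ≤ θ ^ 2 / 2 := by
      have := Real.one_sub_sq_div_two_le_cos (x := θ)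
      linarith
    have h1' : 0 ≤ 1 - Real.cos θ := by have := Real.cos_le_one θ; linarith
    have h2 : (1 - Real.cos θ) ^ 2 ≤ (θ ^ 2 / 2) ^ 2 := pow_le_pow_left₀ h1' h1 2
    have h3 : (Real.sin θ) ^ 2 ≤ θ ^ 2 := by
      have := Real.abs_sin_le_abs (x := θ)
      exact sq_le_sq.2 this
    have h4 : (m : ℝ) ^ 2 * θ ^ 2 = Real.pi ^ 2 / 4 := by
      rw [hθ]; field_simp; ring
    have h5 : Real.pi ^ 2 / 4 ≤ 2.481 := by nlinarith
    have h6 : (m : ℝ) ^ 2 * (θ ^ 2 / 2) ^ 2 = (Real.pi ^ 2 / 4) ^ 2 / (4 * m ^ 2) := by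
      rw [← h4]; field_simp; ring
    have h7 : (m : ℝ) ^ 2 * (θ ^ 2 / 2) ^ 2 * K ≤ 0.02 := by
      rw [h6, div_mul_eq_mul_div, div_le_iff₀ (by positivity)]
      have h8 : (Real.pi ^ 2 / 4) ^ 2 ≤ 7 := by
        have : 0 ≤ Real.pi ^ 2 / 4 := by positivity
        nlinarith
      have h9 : (Real.pi ^ 2 / 4) ^ 2 * K ≤ 7 * K := mul_le_mul_of_nonneg_right h8 hK0
      have h10 : 100 * (K + 1) * (100 * (K + 1)) ≤ (m : ℝ) * m :=
        mul_le_mul hm hm (by positivity) (by positivity)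
      nlinarith
    have h11 : (m : ℝ) ^ 2 * ((1 - Real.cos θ) ^ 2) * K ≤ 0.02 := by
      refine le_trans ?_ h7
      gcongr
    have h12 : (m : ℝ) ^ 2 * (Real.sin θ) ^ 2 ≤ 2.481 := by
      refine le_trans ?_ (h4.le.trans h5)
      gcongr
    calc (m : ℝ) * (m * (2 * (11 * (1 - Real.cos θ) ^ 2 * K + 1.1 * (Real.sin θ) ^ 2)))
        = 22 * ((m : ℝ) ^ 2 * ((1 - Real.cos θ) ^ 2) * K) +
            2.2 * ((m : ℝ) ^ 2 * (Real.sin θ) ^ 2) := by ring
      _ ≤ 22 * 0.02 + 2.2 * 2.481 := by gcongr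
      _ ≤ 6 := by norm_num
  have hmem := memLp N hN
  have hvar := variance_add_prod (μ := γ) (ν := γ) hmem hmem.neg
  have hneg : Var[-(fun x => N x); γ] = Var[fun x => N x; γ] := variance_neg
  rw [hneg] at hvar
  have hmeas : Measurable (fun p : EE M × EE M => N p.1 + (-(fun x => N x)) p.2) :=
    ((N_meas N hN).comp measurable_fst).add ((N_meas N hN).comp measurable_snd).neg
  have hle := variance_le_expectation_sq (μ := γ.prod γ) hmeas.aestronglyMeasurable
  rw [hvar] at hle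
  have hint : ∫ p, ((fun p : EE M × EE M => N p.1 + (-(fun x => N x)) p.2) ^ 2) p ∂(γ.prod γ) ≤ 6 := by
    change ∫ p : EE M × EE M, (N p.1 + (-(fun x => N x)) p.2) ^ 2 ∂(γ.prod γ) ≤ 6
    rw [integral_eq_lintegral_of_nonneg_ae (Filter.Eventually.of_forall fun p => by
      simp only [Pi.zero_apply]; positivity) (hmeas.pow_const 2).aestronglyMeasurable]
    apply ENNReal.toReal_le_of_le_ofReal (by norm_num)
    refine le_trans (le_of_eq ?_) (htot.trans (ENNReal.ofReal_le_ofReal hnum))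
    apply lintegral_congr
    intro p
    congr 1
    simp only [Pi.neg_apply]
    ring
  linarith

end Crest.Agent.R254
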