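import Crest.Agent.R254.Core

/-!
Row 254 (S0392), part III: WIN.
-/

set_option autoImplicit false

namespace Crest.Agent.R254

namespace Win

theorem solPushAll {H : Type} [PseudoMetricSpace H] {n : ℕ} {D ε : ℝ} (p : H) (l : List H)
    (A : Prog H) : ∀ g : H → EE n, Sol n D ε (pushAll p l A) g →
      ∃ g' : H → EE n, (∀ x, x ∉ l → g' x = g x) ∧ Sol n D ε A g' := by
  induction l with
  | nil => intro g hg; exact ⟨g, fun _ _ => rfl, hg⟩
  | cons y l ih =>
    intro g hg
    obtain ⟨v, -, hv⟩ := hg
    obtain ⟨g', hg', hs⟩ := ih _ hv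
    refine ⟨g', fun x hx => ?_, hs⟩
    simp only [List.mem_cons, not_or] at hx
    rw [hg' x hx.2]
    exact @Function.update_of_ne H (fun _ => EE n) (Classical.decEq H) x y hx.1 v g

theorem solSeqAll {H : Type} [PseudoMetricSpace H] {n : ℕ} {D ε : ℝ} (l : List (Prog H)) 
    (g : H → EE n) : Sol n D ε (seqAll l) g ↔ ∀ A ∈ l, Sol n D ε A g := by
  induction l with
  | nil => simp [seqAll, Sol]
  | cons A l ih => simp [seqAll, Sol, ih]

theorem solLowAll {H : Type} [PseudoMetricSpace H] {n : ℕ} {D ε : ℝ} (l : List H) 
    (g : H → EE n) (h : Sol n D ε (lowAll l) g) (x y : H) (hx : x ∈ l) (hy : y ∈ l)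
    (hxy : x ≠ y) : dist x y / D - ε ≤ dist (g x) (g y) := by
  classical
  unfold lowAll at h
  rw [solSeqAll] at h
  have := h (.low x y) (by
    simp only [List.mem_map, List.mem_filter, List.mem_product, decide_eq_true_eq]
    exact ⟨(x, y), ⟨List.mem_product.2 ⟨hx, hy⟩, hxy⟩, rfl⟩)
  exact this

section
variable {H : Type} [NormedAddCommGroup H] [InnerProductSpace ℝ H]

theorem sub_zero' (b : ℕ) (z z' : H) : sub b z z' 0 = z := by simp [sub]

theorem sub_last (b : ℕ) (hb : 1 ≤ b) (z z' : H) : sub b z z' b = z' := by
  have : (b : ℝ) ≠ 0 := by positivity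
  simp [sub, div_self this]

theorem sub_inj (b : ℕ) (hb : 1 ≤ b) (z z' : H) (hz : z ≠ z') (i j : ℕ)
    (h : sub b z z' i = sub b z z' j) : i = j := by
  have hb' : (b : ℝ) ≠ 0 := by positivity
  have := (AffineMap.lineMap_injective ℝ hz) h
  have h2 : (i : ℝ) = j := by
    field_simp at this
    exact this
  exact_mod_cast h2

theorem dist_sub_succ (b : ℕ) (z z' : H) (i : ℕ) :
    dist (sub b z z' i) (sub b z z' (i + 1)) = dist z z' / b := by
  unfold sub
  rw [dist_lineMap_lineMap, Real.dist_eq]
  have : (i : ℝ) / b - ((i + 1 : ℕ) : ℝ) / b = - (1 / b) := by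
    push_cast; ring
  rw [this, abs_neg, abs_of_nonneg (by positivity)]
  ring

theorem not_mem_subList (b : ℕ) (hb : 1 ≤ b) (z z' : H) (hz : z ≠ z') (i : ℕ)
    (hi : i = 0 ∨ i = b) : sub b z z' i ∉ subList b z z' := by
  intro h
  simp only [subList, List.mem_map, List.mem_range] at h
  obtain ⟨j, hj, hj2⟩ := h
  have := sub_inj b hb z z' hz _ _ hj2
  omega

end

end Win

open Win in
theorem win (h : ObsCompStmt) : WinStmt := by
  intro n D hD H _ _ V E a b hO L LE hL φ hφ
  obtain ⟨η, hη, hobs⟩ := h n D hD H V E a b hO
  obtain ⟨K, hK⟩ := pow_unbounded_of_one_lt D (show (1 : ℝ) < 1 + η by linarith)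
  refine ⟨K, fun B hB => ?_⟩
  have hD0 : (0 : ℝ) < D := by linarith
  have key : ∀ (k : ℕ) (p q : H), p ≠ q → ∀ g : H → EE n,
      Sol n D 0 (nodeProg a b L LE φ B k p q) g → ∀ s : ℝ, 0 < s →
      s * dist p q ≤ dist (g p) (g q) → (1 + η) ^ k * s ≤ 1 := by
    intro k
    induction k with
    | zero =>
      intro p q hpq g hg s hs hsd
      have hd : 0 < dist p q := dist_pos.2 hpq
      have h1 : dist (g p) (g q) ≤ dist p q + 0 := hg
      have : s * dist p q ≤ 1 * dist p q := by linarith
      have := le_of_mul_le_mul_right this hd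
      simpa using this
    | succ k ih =>
      intro p q hpq g hg s hs hsd
      have hd : 0 < dist p q := dist_pos.2 hpq
      obtain ⟨htest, hpush⟩ := hg
      have h1 : dist (g p) (g q) ≤ dist p q + 0 := htest
      have hs1 : s ≤ 1 := by
        have : s * dist p q ≤ 1 * dist p q := by linarith
        exact le_of_mul_le_mul_right this hd
      obtain ⟨hφa, hφb, hφd⟩ := hφ p q hpq
      have hφinj : Function.Injective (φ p q) := by
        intro x y hxy
        have h2 := hφd x y
        rw [hxy, dist_self] at h2
        have : dist x y = 0 := by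
          rcases mul_eq_zero.1 h2.symm with h3 | h3
          · exact absurd h3 hd.ne'
          · exact h3
        exact dist_eq_zero.1 this
      obtain ⟨g', hg', hsol⟩ := solPushAll _ _ _ g hpush
      obtain ⟨hlow, hedge⟩ := hsol
      have hgp : g' p = g p := by
        apply hg'
        intro hmem
        obtain ⟨x, hx, hx2⟩ := List.mem_map.1 hmem
        have : x = a := hφinj (hx2.trans hφa.symm)
        exact ((hL.mem x).1 hx).2.1 this
      have hgq : g' q = g q := by
        apply hg'
        intro hmem
        obtain ⟨x, hx, hx2⟩ := List.mem_map.1 hmem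
        have : x = b := hφinj (hx2.trans hφb.symm)
        exact ((hL.mem x).1 hx).2.2 this
      have hVmem : ∀ x ∈ V, x ∈ a :: b :: L := by
        intro x hx
        by_cases hxa : x = a
        · simp [hxa]
        by_cases hxb : x = b
        · simp [hxb]
        simp only [List.mem_cons]
        exact Or.inr (Or.inr ((hL.mem x).2 ⟨hx, hxa, hxb⟩))
      have hlow' : ∀ x ∈ V, ∀ y ∈ V, dist p q * dist x y ≤ D * dist (g' (φ p q x)) (g' (φ p q y)) := by
        intro x hx y hy
        by_cases hxy : x = y
        · subst hxy; simp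
        have h3 := solLowAll _ g' hlow (φ p q x) (φ p q y) (List.mem_map_of_mem (hVmem x hx))
          (List.mem_map_of_mem (hVmem y hy)) (fun h => hxy (hφinj h))
        rw [hφd, sub_zero, div_le_iff₀ hD0] at h3
        linarith
      have hfd : ∀ x y, dist ((dist p q)⁻¹ • g' (φ p q x)) ((dist p q)⁻¹ • g' (φ p q y))
          = (dist p q)⁻¹ * dist (g' (φ p q x)) (g' (φ p q y)) := by
        intro x y
        rw [dist_smul₀, Real.norm_of_nonneg (by positivity)]
      obtain ⟨e, heE, he⟩ := hobs (fun x => (dist p q)⁻¹ • g' (φ p q x)) s hs hs1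
        (by
          intro x hx y hy
          simp only [hfd]
          have h3 := hlow' x hx y hy
          calc dist x y = (dist p q)⁻¹ * (dist p q * dist x y) := by field_simp
            _ ≤ (dist p q)⁻¹ * (D * dist (g' (φ p q x)) (g' (φ p q y))) := by gcongr
            _ = _ := by ring)
        (by
          show s ≤ dist ((dist p q)⁻¹ • g' (φ p q a)) ((dist p q)⁻¹ • g' (φ p q b))
          rw [hfd, hφa, hφb, hgp, hgq]
          calc s = (dist p q)⁻¹ * (s * dist p q) := by field_simp
            _ ≤ _ := mul_le_mul_of_nonneg_left hsd (by positivity))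
      simp only [hfd] at he
      set z := φ p q e.1 with hz
      set z' := φ p q e.2 with hz'
      have hzz : z ≠ z' := fun h => (hO.hE e heE).2.2 (hφinj h)
      have hdz : dist z z' = dist p q * dist e.1 e.2 := hφd e.1 e.2
      have hzpos : 0 < dist z z' := dist_pos.2 hzz
      have he2 : (1 + η) * s * dist z z' < dist (g' z) (g' z') := by
        rw [hdz]
        calc (1 + η) * s * (dist p q * dist e.1 e.2) = dist p q * ((1 + η) * s * dist e.1 e.2) := by
              ring
          _ < dist p q * ((dist p q)⁻¹ * dist (g' z) (g' z')) := by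
              exact mul_lt_mul_of_pos_left he hd
          _ = _ := by field_simp
      rw [solSeqAll] at hedge
      have hEP := hedge _ (List.mem_map_of_mem ((hL.memE e).2 heE))
      obtain ⟨g'', hg'', hsol2⟩ := solPushAll _ _ _ g' hEP
      rw [solSeqAll] at hsol2
      have hgz : g'' z = g' z := by
        apply hg''
        have := not_mem_subList B hB z z' hzz 0 (Or.inl rfl)
        rwa [sub_zero'] at this
      have hgz' : g'' z' = g' z' := by
        apply hg''
        have := not_mem_subList B hB z z' hzz B (Or.inr rfl)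
        rwa [sub_last B hB] at this
      have hsum : dist (g'' z) (g'' z') ≤
          ∑ i ∈ Finset.range B, dist (g'' (sub B z z' i)) (g'' (sub B z z' (i + 1))) := by
        have := dist_le_range_sum_dist (fun i => g'' (sub B z z' i)) B
        simpa only [sub_zero', sub_last B hB] using this
      have hex : ∃ i ∈ Finset.range B, (1 + η) * s * (dist z z' / B) ≤
          dist (g'' (sub B z z' i)) (g'' (sub B z z' (i + 1))) := by
        by_contra hcon
        push Not at hcon
        have h5 : ∑ i ∈ Finset.range B, dist (g'' (sub B z z' i)) (g'' (sub B z z' (i + 1))) ≤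
            ∑ i ∈ Finset.range B, (1 + η) * s * (dist z z' / B) :=
          Finset.sum_le_sum fun i hi => (hcon i hi).le
        rw [Finset.sum_const, Finset.card_range, nsmul_eq_mul] at h5
        have hB0 : (B : ℝ) ≠ 0 := by positivity
        have h6 : (B : ℝ) * ((1 + η) * s * (dist z z' / B)) = (1 + η) * s * dist z z' := by
          field_simp
        rw [h6] at h5
        rw [hgz, hgz'] at hsum
        linarith
      obtain ⟨i, hi, hi2⟩ := hex
      have hiB : i < B := Finset.mem_range.1 hi
      have hne : sub B z z' i ≠ sub B z z' (i + 1) := by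
        intro h
        have := sub_inj B hB z z' hzz _ _ h
        omega
      have hPi := hsol2 _ (List.mem_map_of_mem (List.mem_range.2 hiB))
      have := ih _ _ hne g'' hPi ((1 + η) * s) (by positivity) (by
        rw [dist_sub_succ]; exact hi2)
      calc (1 + η) ^ (k + 1) * s = (1 + η) ^ k * ((1 + η) * s) := by ring
        _ ≤ 1 := this
  rintro ⟨g, v, -, hlow, hnode⟩
  have hab : a ≠ b := by
    intro h
    have := hO.hab
    rw [h, dist_self] at this
    norm_num at this
  have hl : dist a b / D - 0 ≤ _ := hlow
  have := key K a b hab _ hnode (1 / D) (by positivity) (by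
    have e : 1 / D * dist a b = dist a b / D - 0 := by ring
    rw [e]; exact hl)
  rw [mul_one_div, div_le_one hD0] at this
  linarith

end Crest.Agent.R254
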